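import Crest.Agent.R339.ApiL

/-! # Row 339, block D1: definitions and statements (see notes339/route.md) -/

set_option autoImplicit false
open MeasureTheory ProbabilityTheory Filter Topology Complex
open Crest.MathPhysics.SpinGlass

namespace Crest.Agent.R339
variable {E K : Type} [NormedAddCommGroup E] [InnerProductSpace ℂ E]
  [NormedAddCommGroup K] [InnerProductSpace ℂ K] [CompleteSpace K]

/-- letters of a word: `RX θ`, `Z`, `WZ (s • a i)`. -/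
inductive It
  | rx (θ : ℝ)
  | z
  | w (i : ℕ) (s : ℝ)

/-- the inverse word. -/
def It.inv : It → It
  | .rx θ => .rx (-θ)
  | .z => .z
  | .w i s => .w i (-s)
def winv (w : List It) : List It := (w.map It.inv).reverse
/-- all directions used by the word have index in `[2, n)`. -/
def WIn (n : ℕ) (w : List It) : Prop := ∀ i s, It.w i s ∈ w → 2 ≤ i ∧ i < n

/-- `G = β^{-1/4}`. -/
noncomputable def GG (β : ℝ) : ℝ := β ^ (-(1 / 4 : ℝ))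

/-- `F(h) = Σ c cos (k ω h)` and its derivative. -/
noncomputable def cosF (ω : ℝ) (L : List (ℝ × ℕ)) (h : ℝ) : ℝ :=
  (L.map fun t => t.1 * Real.cos (t.2 * ω * h)).sum
noncomputable def dF (ω : ℝ) (L : List (ℝ × ℕ)) (h : ℝ) : ℝ :=
  (L.map fun t => -(t.1 * (t.2 * ω)) * Real.sin (t.2 * ω * h)).sum

/-- existence of the selecting function. -/
def S_SEL : Prop :=
  ∀ (G Pm δ : ℝ), 16 ≤ G → G ≤ Pm → 0 < δ → ∃ (ω : ℝ) (L : List (ℝ × ℕ)),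
    (∀ h, |cosF ω L h| ≤ 2 ∧ |dF ω L h| ≤ 1) ∧
    (∀ h, |h| ≤ G / 4 → |cosF ω L h| ≤ δ ∧ |dF ω L h| ≤ δ) ∧
    (∀ h, G / 2 ≤ |h| → |h| ≤ Pm → |cosF ω L h - 1| ≤ δ ∧ |dF ω L h| ≤ δ)

namespace Model
variable (M : Model E K)

noncomputable def itOp (a : ℕ → E) : It → K →L[ℂ] K
  | .rx θ => M.RX θ
  | .z => M.Z
  | .w i s => M.WZ (((s : ℝ) : ℂ) • a i)
noncomputable def itOpL (b : ℕ → E) (t : ℕ → ℝ) (l : ℝ) : It → K →L[ℂ] K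
  | .rx θ => M.RX θ
  | .z => M.Z
  | .w i s => M.WZ (((s : ℝ) : ℂ) • b i) * M.RZ (s * t i * l)
/-- product of the letters (head of the list = last in time). -/
noncomputable def wd (a : ℕ → E) (w : List It) : K →L[ℂ] K := (w.map (M.itOp a)).prod
noncomputable def wdL (b : ℕ → E) (t : ℕ → ℝ) (l : ℝ) (w : List It) : K →L[ℂ] K :=
  (w.map (M.itOpL b t l)).prod

/-- vacuum expectations of a fixed word are Lipschitz in the Gram matrix. -/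
def S_GL : Prop :=
  ∀ (w : List It), ∃ C : ℝ, 0 ≤ C ∧ ∀ (a b : ℕ → E) (t : ℕ → ℝ) (ε : ℝ),
    (∀ i, ‖a i‖ ≤ 2 ∧ ‖b i‖ ≤ 2 ∧ |t i| ≤ 2) →
    (∀ i i', ‖inner ℂ (a i) (a i') - (inner ℂ (b i) (b i') + ((t i * t i' : ℝ) : ℂ))‖ ≤ ε) →
    ‖inner ℂ M.Ω (M.wd a w M.Ω) -
        ∫ l, inner ℂ M.Ω (M.wdL b t l w M.Ω) ∂(gaussianReal 0 1)‖ ≤ C * ε ∧
    (t 0 = 0 → ‖inner ℂ (M.ι (a 0)) (M.wd a w M.Ω) -
        ∫ l, inner ℂ (M.ι (b 0)) (M.wdL b t l w M.Ω) ∂(gaussianReal 0 1)‖ ≤ C * ε)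

noncomputable def atoms (L : List (ℂ × Bool × E)) : K :=
  (L.map fun t => t.1 • M.atom t.2.1 t.2.2).sum

/-- at most `n` atoms, coefficients of modulus `≤ 1`, displacements of norm `≤ R`. -/
def Comb (n : ℕ) (R : ℝ) (v : K) : Prop :=
  ∃ L : List (ℂ × Bool × E), L.length ≤ n ∧ (∀ t ∈ L, ‖t.1‖ ≤ 1 ∧ ‖t.2.2‖ ≤ R) ∧ v = M.atoms L

noncomputable def cosP (ω : ℝ) (L : List (ℝ × ℕ)) (d : E) : K →L[ℂ] K :=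
  (L.map fun t => ((t.1 : ℝ) : ℂ) • M.cosW (((t.2 * ω : ℝ) : ℂ) • d)).sum
noncomputable def dP (ω : ℝ) (L : List (ℝ × ℕ)) (d : E) : K →L[ℂ] K :=
  (L.map fun t => ((-(t.1 * (t.2 * ω)) : ℝ) : ℂ) • M.sinW (((t.2 * ω : ℝ) : ℂ) • d)).sum

/-- spectral bounds: `φ(d)` has law `N(2 Im⟪d,α⟫, ‖d‖²)` on `atom b α`. -/
def S_SPEC : Prop :=
  ∀ (ω : ℝ) (L : List (ℝ × ℕ)) (d : E),
    (∀ B : ℝ, (∀ h, |cosF ω L h| ≤ B) → ‖M.cosP ω L d‖ ≤ B) ∧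
    (∀ B : ℝ, (∀ h, |dF ω L h| ≤ B) → ‖M.dP ω L d‖ ≤ B) ∧
    (‖d‖ ≤ 1 → ∀ (b : Bool) (α : E) (ρ δ B c : ℝ), 0 ≤ ρ →
      ((∀ h, |cosF ω L h - c| ≤ B) →
        (∀ h, |h - 2 * (inner ℂ d α).im| ≤ ρ → |cosF ω L h - c| ≤ δ) →
        ‖M.cosP ω L d (M.atom b α) - ((c : ℝ) : ℂ) • M.atom b α‖ ≤
          δ + 2 * B * Real.exp (-(ρ ^ 2 / 4))) ∧
      ((∀ h, |dF ω L h| ≤ B) → (∀ h, |h - 2 * (inner ℂ d α).im| ≤ ρ → |dF ω L h| ≤ δ) →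
        ‖M.dP ω L d (M.atom b α)‖ ≤ δ + 2 * B * Real.exp (-(ρ ^ 2 / 4))))

variable (j0 : K →ₗᵢ[ℂ] E)

/-- one small step `exp (-i t X F(φ d))` with its back-action `WZ m`, and tameness along it. -/
def S_STEP : Prop :=
  ∀ (ω : ℝ) (L : List (ℝ × ℕ)), ∃ C0 : ℝ, 0 ≤ C0 ∧ ∀ Ct : ℝ, ∃ C : ℝ, 0 ≤ C ∧
    ∀ (t : ℝ) (V : K →L[ℂ] K), |t| ≤ 1 → M.PReach j0 V → M.Tame (V M.Ω) Ct →
    ∃ S ∈ unitary (K →L[ℂ] K), M.PReach j0 (S * V) ∧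
      (∀ x C', ‖x‖ ≤ 1 → M.Tame x C' → M.Tame (S x) (C' + C0 * |t|)) ∧
      ∃ (θ : ℂ) (m : E), ‖θ‖ = 1 ∧
      ‖m‖ ≤ |t| * ‖M.dP ω L (j0 (M.psi V)) (V M.Ω)‖ + C * t ^ 2 ∧
      (∀ x, ‖x‖ ≤ 1 → M.Tame x Ct →
        ‖S x - θ • M.WZ m (x - (I * (t : ℂ)) • M.X (M.cosP ω L (j0 (M.psi V)) x))‖ ≤ C * t ^ 2)

/-- the mixer `RX τ` on the spikes, the identity on the bulk. -/
def S_FLOW : Prop :=
  ∀ (n : ℕ) (R Λ τ : ℝ), ∃ C : ℝ, 0 ≤ C ∧ ∃ β0 > (0 : ℝ), ∀ β, 0 < β → β ≤ β0 →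
    ∀ (V : K →L[ℂ] K) (H : ℝ) (vb : K) (LS : List (ℂ × Bool × E)), M.PReach j0 V →
      M.Comb n R vb → |H| ≤ Λ / β → LS.length ≤ n →
      (∀ s ∈ LS, ‖s.1‖ ≤ β ∧ ‖s.2.2‖ ≤ Λ / β ∧
        GG β ≤ |2 * (inner ℂ (j0 (M.psi V)) s.2.2).im|) →
      ‖V M.Ω - M.WZ (((H : ℝ) : ℂ) • j0 (M.psi V)) vb - M.atoms LS‖ ≤ Λ * β ^ 2 →
      ∃ T ∈ unitary (K →L[ℂ] K), M.PReach j0 (T * V) ∧ ∃ θ θ' : ℂ, ‖θ‖ = 1 ∧ ‖θ'‖ = 1 ∧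
        (∀ b α, ‖α‖ ≤ R → ‖T (M.WZ (((H : ℝ) : ℂ) • j0 (M.psi V)) (M.atom b α)) -
          θ • M.WZ (((H : ℝ) : ℂ) • j0 (M.psi V)) (M.atom b α)‖ ≤ C * β ^ 2) ∧
        (∀ s ∈ LS, ∀ b, ‖T (M.atom b s.2.2) - θ' • M.RX τ (M.atom b s.2.2)‖ ≤ C * β)

/-- the spike source `V0 β`, `0 < β ≤ 1/2`; `κ = -G δ`. -/
structure Spike where
  V0 : ℝ → K →L[ℂ] K
  κ : ℝ → E
  θ0 : ℝ → ℂ
  LS : ℝ → List (ℂ × Bool × E)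
  reach : ∀ β, M.PReach j0 (V0 β)
  θ0_norm : ∀ β, ‖θ0 β‖ = 1
  κ_le : ∀ β, 0 < β → β ≤ 1 / 2 → ‖κ β‖ ≤ 3 * β * GG β
  op : ∀ β, 0 < β → β ≤ 1 / 2 → ‖V0 β - θ0 β • M.WY (κ β)‖ ≤ 2 * β
  split : ∀ β, 0 < β → β ≤ 1 / 2 →
    ‖V0 β M.Ω - θ0 β • M.WY (κ β) M.Ω - M.atoms (LS β)‖ ≤ β ^ 2
  len : ∀ β, (LS β).length ≤ 4
  norm_xS : ∀ β, 0 < β → β ≤ 1 / 2 → ‖M.atoms (LS β)‖ = Real.sin β
  shape : ∀ β, 0 < β → β ≤ 1 / 2 → ∀ s ∈ LS β, ‖s.1‖ ≤ β ∧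
    (s.2.2 = ((2 * GG β : ℝ) : ℂ) • j0 (M.Y M.Ω) - κ β ∨
      s.2.2 = -(((2 * GG β : ℝ) : ℂ) • j0 (M.Y M.Ω) - κ β))
  κ_comb : ∀ (n : ℕ) (R : ℝ), ∃ C : ℝ, 0 ≤ C ∧ ∃ β0 > (0 : ℝ), ∀ β, 0 < β → β ≤ β0 → ∀ x,
    M.Comb n R x → ‖inner ℂ (κ β) (j0 (star (V0 β) x))‖ ≤ C * β
  κ_xS : ∃ C : ℝ, 0 ≤ C ∧ ∃ β0 > (0 : ℝ), ∀ β, 0 < β → β ≤ β0 →
    ‖inner ℂ (κ β) (j0 (star (V0 β) (M.Z (M.atoms (LS β)))))‖ ≤ C * β ^ 2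
  cross : ∀ (n : ℕ) (R : ℝ), ∃ C : ℝ, 0 ≤ C ∧ ∃ β0 > (0 : ℝ), ∀ β, 0 < β → β ≤ β0 → ∀ x,
    M.Comb n R x → ‖inner ℂ (M.Z (M.atoms (LS β))) x‖ ≤ C * β ^ 2

end Model

/-- `β`-independent data of a simulation: the word, the ideal directions, the kind of every index
(`none`: label phase, `some w'`: cost gate applied after the word `w'`), the label phases so far. -/
structure SimData (E : Type) where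
  n : ℕ
  w : List It
  b : ℕ → E
  t : ℕ → ℝ
  kind : ℕ → Option (List It)
  zs : List (ℝ × List It)

namespace Model
variable (M : Model E K) (j0 : K →ₗᵢ[ℂ] E) (j : Lp K 2 (gaussianReal 0 1) →ₗᵢ[ℂ] E)

/-- ideal direction after the word `w'`. -/
noncomputable def idir (D : SimData E) (w' : List It) : E :=
  JJ j fun l => M.psi (M.wdL D.b D.t l w')

structure Ideal (D : SimData E) (V : ℝ → K →L[ℂ] K) : Prop where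
  two_le : 2 ≤ D.n
  eq : ∀ l, V l = M.wdL D.b D.t l D.w
  win : WIn D.n D.w
  null : ∀ i, i < 2 ∨ D.n ≤ i → D.b i = 0 ∧ D.t i = 0
  cost : ∀ i w', 2 ≤ i → i < D.n → D.kind i = some w' →
    WIn D.n w' ∧ D.t i = 0 ∧ D.b i = M.idir j D w'
  phase : ∀ i, 2 ≤ i → i < D.n → D.kind i = none → D.b i = 0 ∧ D.t i = 1
  zs_in : ∀ z ∈ D.zs, WIn D.n z.2

variable {j0} (Sp : M.Spike j0)

/-- `j' = j0 ∘ V0*`. -/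
noncomputable def jp (β : ℝ) (x : K) : E := j0 (star (Sp.V0 β) x)
noncomputable def xb (β : ℝ) : K := Sp.θ0 β • M.WY (Sp.κ β) M.Ω
noncomputable def xS (β : ℝ) : K := M.atoms (Sp.LS β)
/-- the label direction. -/
noncomputable def fh (β : ℝ) : E := (((Real.sin β)⁻¹ : ℝ) : ℂ) • M.jp Sp β (M.Z (M.xS Sp β))
/-- reference Heisenberg vector of the bulk after the word `w'`. -/
noncomputable def pref (β : ℝ) (a : ℕ → E) (w' : List It) : K :=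
  star (M.wd a w') (M.Z (M.wd a w' (M.xb Sp β)))

/-- the table `a` of actual directions matches the ideal data up to `C β`. -/
structure Tab (D : SimData E) (β C : ℝ) (a : ℕ → E) : Prop where
  a0 : a 0 = 0
  a1 : a 1 = Sp.κ β
  null : ∀ i, D.n ≤ i → a i = 0
  bd : ∀ i, ‖a i‖ ≤ 2
  gram : ∀ i i', ‖inner ℂ (a i) (a i') -
    (inner ℂ (D.b i) (D.b i') + ((D.t i * D.t i' : ℝ) : ℂ))‖ ≤ C * β
  cost : ∀ i w', 2 ≤ i → i < D.n → D.kind i = some w' →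
    ‖a i - M.jp Sp β (M.pref Sp β a w')‖ ≤ C * β
  phase : ∀ i, 2 ≤ i → i < D.n → D.kind i = none → ‖a i - M.fh Sp β‖ ≤ C * β

/-- `sin β • h ≈ Σ γ_r j'(ψ_ref w_r)`. -/
noncomputable def zsum (β : ℝ) (a : ℕ → E) (zs : List (ℝ × List It)) : E :=
  (zs.map fun z => ((z.1 : ℝ) : ℂ) • M.jp Sp β (M.pref Sp β a z.2)).sum

structure SimAt (D : SimData E) (β R C : ℝ) (U : K →L[ℂ] K) (a : ℕ → E) (h : E) : Prop where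
  mem : U ∈ unitary (K →L[ℂ] K)
  reach : M.PReach j0 (U * Sp.V0 β)
  tab : M.Tab Sp D β C a
  bulk : ∃ θ : ℂ, ‖θ‖ = 1 ∧ ∀ b α, ‖α‖ ≤ R →
    ‖U (M.atom b α) - θ • M.wd a D.w (M.atom b α)‖ ≤ C * β ^ 2
  spike : ∀ s ∈ Sp.LS β, ∀ b, ∃ θ : ℂ, ‖θ‖ = 1 ∧
    ‖U (M.atom b s.2.2) - θ • M.WZ h (M.atom b s.2.2)‖ ≤ C * β
  hz : ‖((Real.sin β : ℝ) : ℂ) • h - M.zsum Sp β a D.zs‖ ≤ C * β

def Sim (V : ℝ → K →L[ℂ] K) : Prop :=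
  ∃ D : SimData E, M.Ideal j D V ∧ ∀ R : ℝ, ∃ C : ℝ, 0 ≤ C ∧ ∃ β0 > (0 : ℝ), ∀ β, 0 < β →
    β ≤ β0 → ∃ U a h, M.SimAt Sp D β R C U a h

end Model
end Crest.Agent.R339
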