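import Crest.Agent.R339.D1.Gram

/-! # Row 339, block D1: current direction and spike positions (statements frozen) -/

set_option autoImplicit false
open MeasureTheory ProbabilityTheory Filter Topology Complex
open Crest.MathPhysics.SpinGlass

namespace Crest.Agent.R339
variable {E K : Type} [NormedAddCommGroup E] [InnerProductSpace ℂ E]
  [NormedAddCommGroup K] [InnerProductSpace ℂ K] [CompleteSpace K]
namespace Model
variable (M : Model E K)
variable {j0 : K →ₗᵢ[ℂ] E} (j : Lp K 2 (gaussianReal 0 1) →ₗᵢ[ℂ] E) (Sp : M.Spike j0)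

theorem dir_bulk (w' : List It) (C : ℝ) : ∃ (R0 C' : ℝ), 0 ≤ C' ∧ ∀ β, 0 < β → β ≤ 1 / 2 →
    ∀ (U Hop : K →L[ℂ] K) (a : ℕ → E) (θ : ℂ), U ∈ unitary (K →L[ℂ] K) →
      Hop ∈ unitary (K →L[ℂ] K) → Commute M.Z Hop → (∀ i, ‖a i‖ ≤ 2) → ‖θ‖ = 1 →
      (∀ b α, ‖α‖ ≤ R0 → ‖U (M.atom b α) - θ • Hop (M.wd a w' (M.atom b α))‖ ≤ C * β ^ 2) →
      ‖star U (M.Z (U (M.xb Sp β))) - M.pref Sp β a w'‖ ≤ C' * β ^ 2 := by
  obtain ⟨n, R, hn⟩ := M.pref_comb Sp w'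
  refine ⟨max 3 R, (8 + n) * |C|, by positivity, fun β h0 h1 U Hop a θ hU hH hZ ha hθ h => ?_⟩
  have hW := M.wd_mem a w'
  have hT : θ • (Hop * M.wd a w') ∈ unitary (K →L[ℂ] K) := unit_smul (mul_mem hH hW) hθ
  have he : 0 ≤ |C| * β ^ 2 := by positivity
  have h' : ∀ b α, ‖α‖ ≤ max 3 R →
      ‖U (M.atom b α) - (θ • (Hop * M.wd a w')) (M.atom b α)‖ ≤ |C| * β ^ 2 := fun b α hα =>
    (h b α hα).trans (mul_le_mul_of_nonneg_right (le_abs_self C) (sq_nonneg β))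
  have e : star (θ • (Hop * M.wd a w')) (M.Z ((θ • (Hop * M.wd a w')) (M.xb Sp β))) =
      M.pref Sp β a w' := by
    have e1 : M.Z ((θ • (Hop * M.wd a w')) (M.xb Sp β)) =
        (θ • (Hop * M.wd a w')) (M.pref Sp β a w') := by
      have := congrArg (fun T : K →L[ℂ] K => T (M.wd a w' (M.xb Sp β))) hZ.eq
      simp only [ContinuousLinearMap.mul_apply] at this
      simp only [pref, ContinuousLinearMap.smul_apply, ContinuousLinearMap.mul_apply, map_smul,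
        unit_apply_star hW, this]
    rw [e1, unit_star_apply hT]
  have h2 := sand_close hU hT M.Z (M.xb Sp β)
  rw [e] at h2
  have h3 := ((M.xb_comb Sp h0 h1).mono M le_rfl (le_max_left 3 R)).close M U _ he h'
  have h4 := ((hn β h0 h1 a ha).mono M le_rfl (le_max_right 3 R)).close M U _ he h'
  have h5 := mul_le_mul (unit_opnorm M.Z_mem) h3 (norm_nonneg _) zero_le_one
  have h8 : ((8 : ℕ) : ℝ) = 8 := by norm_num
  rw [h8] at h5
  nlinarith

theorem dir_split {β : ℝ} (h0 : 0 < β) (h1 : β ≤ 1 / 2) {U : K →L[ℂ] K}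
    (hU : U ∈ unitary (K →L[ℂ] K)) (y y' : K) :
    ‖j0 (M.psi (U * Sp.V0 β)) - M.jp Sp β (y + y')‖ ≤
      ‖star U (M.Z (U (M.xb Sp β))) - y‖ + ‖star U (M.Z (U (M.xS Sp β))) - y'‖ + β ^ 2 := by
  have e : j0 (M.psi (U * Sp.V0 β)) = M.jp Sp β (star U (M.Z (U (Sp.V0 β M.Ω)))) := by
    simp only [psi, jp, star_mul, ContinuousLinearMap.mul_apply]
  have hs := Sp.split β h0 h1
  have hn : ‖star U (M.Z (U (Sp.V0 β M.Ω - M.xb Sp β - M.xS Sp β)))‖ ≤ β ^ 2 := by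
    rw [unit_norm (Unitary.star_mem hU), unit_norm M.Z_mem, unit_norm hU]
    exact hs
  rw [e, ← jp_sub, norm_jp]
  have e2 : star U (M.Z (U (Sp.V0 β M.Ω))) - (y + y') =
      (star U (M.Z (U (M.xb Sp β))) - y) + (star U (M.Z (U (M.xS Sp β))) - y') +
        star U (M.Z (U (Sp.V0 β M.Ω - M.xb Sp β - M.xS Sp β))) := by
    simp only [map_sub]
    abel
  rw [e2]
  exact norm_add₃_le.trans (by linarith)

/-- `ψ (U V0) = V0* U* Z U (x_b + x_S + O(β²))`; on the bulk use `sand_close` with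
`θ • Hop * wd a w'` on `xb` and on `pref` (both combinations of atoms of radius `≤ R0`). -/
theorem dir_weak (w' : List It) (C : ℝ) : ∃ (R0 C' : ℝ), 0 ≤ C' ∧ ∀ β, 0 < β → β ≤ 1 / 2 →
    ∀ (U Hop : K →L[ℂ] K) (a : ℕ → E) (θ : ℂ), U ∈ unitary (K →L[ℂ] K) →
      Hop ∈ unitary (K →L[ℂ] K) → Commute M.Z Hop → (∀ i, ‖a i‖ ≤ 2) → ‖θ‖ = 1 →
      (∀ b α, ‖α‖ ≤ R0 → ‖U (M.atom b α) - θ • Hop (M.wd a w' (M.atom b α))‖ ≤ C * β ^ 2) →
      ‖j0 (M.psi (U * Sp.V0 β)) - M.jp Sp β (M.pref Sp β a w')‖ ≤ C' * β := by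
  obtain ⟨R0, C', hC', H⟩ := M.dir_bulk Sp w' C
  refine ⟨R0, C' + 2, by positivity, fun β h0 h1 U Hop a θ hU hH hZ ha hθ h => ?_⟩
  have h2 := H β h0 h1 U Hop a θ hU hH hZ ha hθ h
  have h3 := M.dir_split Sp h0 h1 hU (M.pref Sp β a w') 0
  rw [add_zero, sub_zero, unit_norm (Unitary.star_mem hU), unit_norm M.Z_mem, unit_norm hU, xS,
    Sp.norm_xS β h0 h1] at h3
  have h4 := Real.sin_le h0.le
  have h5 : β ^ 2 ≤ β := by nlinarith
  nlinarith [mul_le_mul_of_nonneg_left h5 hC']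
/-- if moreover the spike atoms are mapped to `Z`-eigenvectors with sign `σ`. -/
theorem dir_strong (w' : List It) (C : ℝ) : ∃ (R0 C' : ℝ), 0 ≤ C' ∧ ∀ β, 0 < β → β ≤ 1 / 2 →
    ∀ (U Hop : K →L[ℂ] K) (a : ℕ → E) (θ : ℂ) (σ : Bool), U ∈ unitary (K →L[ℂ] K) →
      Hop ∈ unitary (K →L[ℂ] K) → Commute M.Z Hop → (∀ i, ‖a i‖ ≤ 2) → ‖θ‖ = 1 →
      (∀ b α, ‖α‖ ≤ R0 → ‖U (M.atom b α) - θ • Hop (M.wd a w' (M.atom b α))‖ ≤ C * β ^ 2) →
      (∀ s ∈ Sp.LS β, ∃ (θ' : ℂ) (p : E),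
        ‖U (M.atom s.2.1 s.2.2) - θ' • M.atom (xor σ s.2.1) p‖ ≤ C * β) →
      ‖j0 (M.psi (U * Sp.V0 β)) - M.jp Sp β (M.pref Sp β a w' +
        ((spinSign σ : ℝ) : ℂ) • M.Z (M.xS Sp β))‖ ≤ C' * β ^ 2 := by
  obtain ⟨R0, C', hC', H⟩ := M.dir_bulk Sp w' C
  refine ⟨R0, C' + 8 * |C| + 1, by positivity,
    fun β h0 h1 U Hop a θ σ hU hH hZ ha hθ h hs => ?_⟩
  have h2 := H β h0 h1 U Hop a θ hU hH hZ ha hθ h
  have h3 := M.dir_split Sp h0 h1 hU (M.pref Sp β a w') (((spinSign σ : ℝ) : ℂ) • M.Z (M.xS Sp β))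
  have h4 := M.atoms_close (Sp.LS β) (star U * M.Z * U) (((spinSign σ : ℝ) : ℂ) • M.Z) (c := β)
    (e := 2 * |C| * β) (by positivity) fun s hs' => ⟨(Sp.shape β h0 h1 s hs').1, by
      obtain ⟨θ', p, hp⟩ := hs s hs'
      have hp' := hp.trans (mul_le_mul_of_nonneg_right (le_abs_self C) h0.le)
      have hx : ((spinSign (xor σ s.2.1) : ℝ) : ℂ) = (spinSign σ : ℝ) * (spinSign s.2.1 : ℝ) := by
        cases σ <;> cases s.2.1 <;> simp [spinSign]
      have hn : ‖((spinSign (xor σ s.2.1) : ℝ) : ℂ)‖ = 1 := by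
        cases xor σ s.2.1 <;> simp [spinSign]
      have e : (star U * M.Z * U) (M.atom s.2.1 s.2.2) -
          (((spinSign σ : ℝ) : ℂ) • M.Z) (M.atom s.2.1 s.2.2) =
          star U (M.Z (U (M.atom s.2.1 s.2.2) - θ' • M.atom (xor σ s.2.1) p) -
            ((spinSign (xor σ s.2.1) : ℝ) : ℂ) •
              (U (M.atom s.2.1 s.2.2) - θ' • M.atom (xor σ s.2.1) p)) := by
        simp only [ContinuousLinearMap.mul_apply, ContinuousLinearMap.smul_apply, map_sub, map_smul,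
          Z_atom, unit_star_apply hU, smul_sub, smul_smul, hx]
        module
      rw [e, unit_norm (Unitary.star_mem hU)]
      refine (norm_sub_le _ _).trans ?_
      rw [unit_norm M.Z_mem, norm_smul, hn]
      linarith⟩
  have h5 : ((Sp.LS β).length : ℝ) ≤ 4 := by exact_mod_cast Sp.len β
  have h6 := h4.trans (mul_le_mul_of_nonneg_right h5 (by positivity))
  simp only [ContinuousLinearMap.mul_apply, ContinuousLinearMap.smul_apply] at h6
  rw [xS] at h3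
  rw [xS]
  nlinarith
theorem dir_zsum (hgl : M.S_GL) {D : SimData E} {V : ℝ → K →L[ℂ] K} (hD : M.Ideal j D V) (C : ℝ)
    (zs : List (ℝ × List It)) : ∃ c0 A C' : ℝ, 0 ≤ A ∧ 0 ≤ C' ∧ ∀ β, 0 < β → β ≤ 1 / 2 → ∀ a,
      M.Tab Sp D β C a → ‖M.zsum Sp β a zs‖ ≤ A ∧
        |(inner ℂ (M.jp Sp β (M.pref Sp β a D.w)) (M.zsum Sp β a zs)).im - c0| ≤ C' * β := by
  induction zs with
  | nil => exact ⟨0, 0, 0, le_rfl, le_rfl, fun β _ _ a _ => by simp [zsum]⟩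
  | cons z zs ih =>
    obtain ⟨c0, A, C', hA, hC', H⟩ := ih
    obtain ⟨C1, hC1, H1⟩ := M.gram_pref j Sp hgl hD D.w z.2 C
    refine ⟨z.1 * (inner ℂ (M.idir j D D.w) (M.idir j D z.2)).im + c0, |z.1| + A,
      |z.1| * C1 + C', by positivity, by positivity, fun β h0 h1 a ha => ?_⟩
    obtain ⟨h2, h3⟩ := H β h0 h1 a ha
    have h4 := (Complex.abs_im_le_norm _).trans (H1 β h0 h1 a ha)
    have e : M.zsum Sp β a (z :: zs) =
        ((z.1 : ℝ) : ℂ) • M.jp Sp β (M.pref Sp β a z.2) + M.zsum Sp β a zs := by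
      simp [zsum]
    rw [e]
    refine ⟨(norm_add_le _ _).trans ?_, ?_⟩
    · rw [norm_smul, norm_jp, norm_pref, Complex.norm_real, Real.norm_eq_abs]
      linarith
    · rw [inner_add_right, inner_smul_right, inner_jp, Complex.add_im, Complex.im_ofReal_mul]
      rw [Complex.sub_im] at h4
      have h5 := mul_le_mul_of_nonneg_left h4 (abs_nonneg z.1)
      rw [← abs_mul] at h5
      refine le_trans (le_of_eq ?_) ((abs_add_le _ _).trans ((add_le_add h5 h3).trans_eq (by ring)))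
      congr 1
      ring

theorem dir_real {G β u k q c0 C3 C4 sg sb sn : ℝ} (hβ : 0 < β) (hG : 1 ≤ G) (hsg : |sg| = 1)
    (hsb : |sb| = 1) (hu1 : |u| ≤ 2) (hu2 : 1 / 2 - C4 * β ≤ |u|) (hk : |k| ≤ 6 * β * G)
    (hs1 : β / 2 ≤ sn) (hs2 : sn ≤ β) (hq : |sn * q - c0| ≤ C3 * β)
    (h1 : (4 * C4 + 12) * β ≤ 1 / 2) (h2 : c0 = 0 → 8 * C3 ≤ G)
    (h3 : c0 ≠ 0 → C3 * β ≤ |c0| / 2 ∧ 21 * (β * G) ≤ |c0|) (h4 : β ≤ 1) :
    G ≤ |2 * (sg * (2 * G * u - k) + sb * q)| := by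
  have hsn : 0 < sn := by linarith
  have e1 : |sg * (2 * G * u - k)| = |2 * G * u - k| := by rw [abs_mul, hsg, one_mul]
  have e2 : |sb * q| = |q| := by rw [abs_mul, hsb, one_mul]
  have e3 : |2 * G * u| = 2 * G * |u| := by rw [abs_mul, abs_of_pos (by positivity : 0 < 2 * G)]
  have e4 : |sn * q| = sn * |q| := by rw [abs_mul, abs_of_pos hsn]
  rw [abs_mul, abs_two]
  by_cases hc : c0 = 0
  · have a1 := abs_sub_abs_le_abs_add (sg * (2 * G * u - k)) (sb * q)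
    have a2 := abs_sub_abs_le_abs_sub (2 * G * u) k
    rw [hc, sub_zero, e4] at hq
    have a3 : |q| ≤ 2 * C3 := by
      have : β * |q| ≤ β * (2 * C3) := by nlinarith [abs_nonneg q]
      exact le_of_mul_le_mul_left this hβ
    have a4 := h2 hc
    have a5 := mul_le_mul_of_nonneg_left hu2 (by positivity : 0 ≤ 2 * G)
    have a6 := mul_le_mul_of_nonneg_left h1 (by positivity : 0 ≤ G)
    rw [e1, e2] at a1
    rw [e3] at a2
    nlinarith
  · obtain ⟨b1, b2⟩ := h3 hc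
    have a1 := abs_sub_abs_le_abs_add (sb * q) (sg * (2 * G * u - k))
    have a2 := abs_sub (2 * G * u) k
    have a3 := abs_sub_abs_le_abs_sub c0 (sn * q)
    rw [abs_sub_comm, e4] at a3
    have a4 : sn * |q| ≤ β * |q| := mul_le_mul_of_nonneg_right hs2 (abs_nonneg q)
    have a5 : 21 * G ≤ 2 * |q| := by
      have : β * (21 * G) ≤ β * (2 * |q|) := by nlinarith
      exact le_of_mul_le_mul_left this hβ
    have a6 := mul_le_mul_of_nonneg_left hu1 (by positivity : 0 ≤ 2 * G)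
    have a7 : β * G ≤ G := by nlinarith
    rw [e1, e2, add_comm] at a1
    rw [e3] at a2
    nlinarith

/-- `|2 Im⟪d, α_s⟫| ∈ [2G - O(1), 4G + O(1)]` (`gram_Y`, `Sp.κ_le`), and
`sin β · Im⟪d, h⟫ = c₀ + O(β)`, `c₀ = Σ γ_r Im⟪idir w', idir w_r⟫` (`gram_pref`); if `c₀ = 0` the
second term is `O(1)`, otherwise it dominates `G` (`β G → 0`). -/
theorem pos (hgl : M.S_GL) {D : SimData E} {V : ℝ → K →L[ℂ] K} (hD : M.Ideal j D V)
    (hc : 1 / 2 ≤ M.cL V) (γ C : ℝ) : ∃ Λ : ℝ, 0 ≤ Λ ∧ ∃ β0 > (0 : ℝ), ∀ β, 0 < β → β ≤ β0 →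
      ∀ (a : ℕ → E) (d h : E), M.Tab Sp D β C a →
      ‖d - M.jp Sp β (M.pref Sp β a D.w)‖ ≤ C * β →
      ‖((Real.sin β : ℝ) : ℂ) • h - M.zsum Sp β a D.zs -
        ((γ : ℝ) : ℂ) • M.jp Sp β (M.pref Sp β a D.w)‖ ≤ C * β →
      ∀ s ∈ Sp.LS β, ∀ b : Bool, ‖s.2.2 + ((spinSign b : ℝ) : ℂ) • h‖ ≤ Λ / β ∧
        GG β ≤ |2 * (inner ℂ d (s.2.2 + ((spinSign b : ℝ) : ℂ) • h)).im| := by
  obtain ⟨c0, A, C2, hA, hC2, H2⟩ := M.dir_zsum j Sp hgl hD C D.zs
  obtain ⟨C1, hC1, H1⟩ := M.gram_Y j Sp hgl hD D.w C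
  obtain ⟨hG1, hG2, hG3, -⟩ := GG_facts
  have hV : (fun l => M.wdL D.b D.t l D.w) = V := funext fun l => (hD.eq l).symm
  rw [hV] at H1
  have hid : Tendsto (fun β : ℝ => β) (𝓝[>] 0) (𝓝 0) := tendsto_nhdsWithin_of_tendsto_nhds tendsto_id
  have small : ∀ c e : ℝ, 0 < e → ∀ᶠ β in 𝓝[>] (0 : ℝ), c * β ≤ e := fun c e he =>
    (hid.const_mul c).eventually (ge_mem_nhds (by simpa using he))
  set C3 := C2 + |C| * (A + |γ|) + 2 * |C| with hC3
  have ev : ∀ᶠ β in 𝓝[>] (0 : ℝ), 1 * β ≤ 1 / 2 ∧ |C| * β ≤ 1 ∧ (4 * (C1 + |C|) + 12) * β ≤ 1 / 2 ∧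
      8 * C3 ≤ GG β ∧ (c0 ≠ 0 → C3 * β ≤ |c0| / 2 ∧ 21 * (β * GG β) ≤ |c0|) := by
    refine (small _ _ (by norm_num)).and ((small _ _ one_pos).and ((small _ _ (by norm_num)).and
      ((hG2.eventually (eventually_ge_atTop _)).and ?_)))
    by_cases hc : c0 = 0
    · exact .of_forall fun β h => absurd hc h
    · have := abs_pos.2 hc
      filter_upwards [small C3 _ (half_pos this),
        (hG3.const_mul 21).eventually (ge_mem_nhds (show (21 : ℝ) * 0 < |c0| by simpa using this))] with β b1 b2 _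
      exact ⟨b1, b2⟩
  obtain ⟨β0, hβ0, hsub⟩ := mem_nhdsGT_iff_exists_Ioc_subset.1 ev
  refine ⟨5 + 2 * (A + |γ| + 1), by positivity, β0, hβ0, fun β h0 h1 a d h ha hd hh s hs b => ?_⟩
  obtain ⟨b1, b2, b3, b4, b5⟩ := hsub ⟨h0, h1⟩
  rw [one_mul] at b1
  obtain ⟨g1, g2⟩ := hG1 β h0 (by linarith)
  obtain ⟨z1, z2⟩ := H2 β h0 b1 a ha
  have y1 := H1 β h0 b1 a ha
  set p := M.jp Sp β (M.pref Sp β a D.w) with hp
  set y := j0 (M.Y M.Ω) with hy
  set zz := M.zsum Sp β a D.zs with hzz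
  have hp1 : ‖p‖ = 1 := by rw [hp, norm_jp, norm_pref]
  have hy1 : ‖y‖ = 1 := by rw [hy, j0.norm_map, unit_norm M.Y_mem, M.norm_Ω]
  have hCβ : C * β ≤ |C| * β := mul_le_mul_of_nonneg_right (le_abs_self C) h0.le
  have hd' := hd.trans hCβ
  have hh' := hh.trans hCβ
  have hd2 : ‖d‖ ≤ 2 := by linarith [norm_le_insert' d p]
  have hs1 : β / 2 ≤ Real.sin β := by
    have a1 := Real.mul_le_sin h0.le (by linarith [Real.pi_gt_three] : β ≤ Real.pi / 2)
    have a2 : 1 / 2 ≤ 2 / Real.pi := by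
      rw [le_div_iff₀ Real.pi_pos]; linarith [Real.pi_lt_four]
    nlinarith
  have hs2 := Real.sin_le h0.le
  have hsb : |spinSign b| = 1 := by cases b <;> simp [spinSign]
  have hκ := Sp.κ_le β h0 b1
  obtain ⟨sg, hsg, hα⟩ : ∃ sg : ℝ, |sg| = 1 ∧
      s.2.2 = (sg : ℂ) • (((2 * GG β : ℝ) : ℂ) • y - Sp.κ β) := by
    rcases (Sp.shape β h0 b1 s hs).2 with e | e
    · exact ⟨1, abs_one, by simpa using e⟩
    · exact ⟨-1, by simp, by simpa using e⟩
  have hγp : ‖((γ : ℝ) : ℂ) • p‖ = |γ| := by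
    rw [norm_smul, hp1, Complex.norm_real, Real.norm_eq_abs, mul_one]
  have hzγ : ‖zz + ((γ : ℝ) : ℂ) • p‖ ≤ A + |γ| := (norm_add_le _ _).trans (by linarith)
  rw [sub_sub] at hh'
  refine ⟨?_, ?_⟩
  · have a1 : ‖((Real.sin β : ℝ) : ℂ) • h‖ ≤ A + |γ| + 1 := by
      linarith [norm_le_insert' (((Real.sin β : ℝ) : ℂ) • h) (zz + ((γ : ℝ) : ℂ) • p)]
    rw [norm_smul, Complex.norm_real, Real.norm_eq_abs, abs_of_pos (by linarith)] at a1
    have a2 : ‖s.2.2‖ ≤ 2 * GG β + 3 * β * GG β := by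
      rw [hα, norm_smul, Complex.norm_real, Real.norm_eq_abs, hsg, one_mul]
      refine (norm_sub_le _ _).trans ?_
      rw [norm_smul, Complex.norm_real, Real.norm_eq_abs, hy1, abs_of_pos (by positivity)]
      linarith
    rw [le_div_iff₀ h0]
    refine (mul_le_mul_of_nonneg_right (norm_add_le _ _) h0.le).trans ?_
    rw [norm_smul, Complex.norm_real, Real.norm_eq_abs, hsb, one_mul]
    have a3 := mul_le_mul_of_nonneg_right a2 h0.le
    have a4 := mul_le_mul_of_nonneg_right hs1 (norm_nonneg h)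
    nlinarith
  · have e : (inner ℂ d (s.2.2 + ((spinSign b : ℝ) : ℂ) • h)).im =
        sg * (2 * GG β * (inner ℂ d y).im - (inner ℂ d (Sp.κ β)).im) +
          spinSign b * (inner ℂ d h).im := by
      rw [hα, inner_add_right, inner_smul_right, inner_smul_right, inner_sub_right, inner_smul_right,
        Complex.add_im, Complex.im_ofReal_mul, Complex.im_ofReal_mul, Complex.sub_im,
        Complex.im_ofReal_mul]
    rw [e]
    have u1 := a6_im (d - p) y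
    rw [inner_sub_left, Complex.sub_im, hy1, mul_one] at u1
    refine dir_real (C4 := C1 + |C|) (C3 := C3) (c0 := c0) h0 g1 hsg hsb ?_ ?_ ?_ hs1 hs2 ?_ b3
      (fun _ => b4) b5 (by linarith)
    · have := a6_im d y
      rw [hy1] at this
      linarith
    · have a1 := abs_le.1 (u1.trans hd')
      have a2 := abs_le.1 y1
      have a3 := neg_le_abs (inner ℂ d y).im
      linarith [a1.2, a2.2]
    · have := (a6_im d (Sp.κ β)).trans (mul_le_mul hd2 hκ (norm_nonneg _) (by norm_num))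
      linarith
    · have a1 := (a6_im d (((Real.sin β : ℝ) : ℂ) • h - (zz + ((γ : ℝ) : ℂ) • p))).trans
        (mul_le_mul hd2 hh' (norm_nonneg _) (by norm_num))
      have a2 := (a6_im (d - p) (zz + ((γ : ℝ) : ℂ) • p)).trans
        (mul_le_mul hd' hzγ (norm_nonneg _) (by positivity))
      have a3 : (inner ℂ p (zz + ((γ : ℝ) : ℂ) • p)).im = (inner ℂ p zz).im := by
        have : (inner ℂ p p).im = 0 := inner_self_im (𝕜 := ℂ) p
        rw [inner_add_right, inner_smul_right, Complex.add_im, Complex.im_ofReal_mul, this,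
          mul_zero, add_zero]
      rw [inner_sub_right, inner_smul_right, Complex.sub_im, Complex.im_ofReal_mul] at a1
      rw [inner_sub_left, Complex.sub_im, a3] at a2
      have c1 := abs_le.1 a1
      have c2 := abs_le.1 a2
      have c3 := abs_le.1 z2
      have hexp : (C2 + |C| * (A + |γ|) + 2 * |C|) * β =
          C2 * β + |C| * β * (A + |γ|) + 2 * (|C| * β) := by ring
      rw [abs_le, hC3, hexp]
      constructor <;> linarith [c1.1, c1.2, c2.1, c2.2, c3.1, c3.2]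

end Model
end Crest.Agent.R339
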