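import Crest.Agent.R339.D1.Dir

/-! # Row 339, block D1: `dir_weak`, `dir_strong` with the radius `R0` independent of the constant `C` -/

set_option autoImplicit false
open MeasureTheory ProbabilityTheory Filter Topology Complex
open Crest.MathPhysics.SpinGlass

namespace Crest.Agent.R339
variable {E K : Type} [NormedAddCommGroup E] [InnerProductSpace ℂ E]
  [NormedAddCommGroup K] [InnerProductSpace ℂ K] [CompleteSpace K]
namespace Model
variable (M : Model E K)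
variable {j0 : K →ₗᵢ[ℂ] E} (j : Lp K 2 (gaussianReal 0 1) →ₗᵢ[ℂ] E) (Sp : M.Spike j0)

theorem dir_bulk' (w' : List It) : ∃ R0 : ℝ, ∀ C : ℝ, ∃ C' : ℝ, 0 ≤ C' ∧ ∀ β, 0 < β → β ≤ 1 / 2 →
    ∀ (U Hop : K →L[ℂ] K) (a : ℕ → E) (θ : ℂ), U ∈ unitary (K →L[ℂ] K) →
      Hop ∈ unitary (K →L[ℂ] K) → Commute M.Z Hop → (∀ i, ‖a i‖ ≤ 2) → ‖θ‖ = 1 →
      (∀ b α, ‖α‖ ≤ R0 → ‖U (M.atom b α) - θ • Hop (M.wd a w' (M.atom b α))‖ ≤ C * β ^ 2) →
      ‖star U (M.Z (U (M.xb Sp β))) - M.pref Sp β a w'‖ ≤ C' * β ^ 2 := by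
  obtain ⟨n, R, hn⟩ := M.pref_comb Sp w'
  refine ⟨max 3 R, fun C => ⟨(8 + n) * |C|, by positivity, fun β h0 h1 U Hop a θ hU hH hZ ha hθ h => ?_⟩⟩
  have hW := M.wd_mem a w'
  have hT : θ • (Hop * M.wd a w') ∈ unitary (K →L[ℂ] K) := unit_smul (mul_mem hH hW) hθ
  have he : 0 ≤ |C| * β ^ 2 := by positivity
  have h' : ∀ b α, ‖α‖ ≤ max 3 R →
      ‖U (M.atom b α) - (θ • (Hop * M.wd a w')) (M.atom b α)‖ ≤ |C| * β ^ 2 := fun b α hα =>
    (h b α hα).trans (mul_le_mul_of_nonneg_right (le_abs_self C) (sq_nonneg β))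
  have e : star (θ • (Hop * M.wd a w')) (M.Z ((θ • (Hop * M.wd a w')) (M.xb Sp β))) =
      M.pref Sp β a w' := by
    have e1 : M.Z ((θ • (Hop * M.wd a w')) (M.xb Sp β)) =
        (θ • (Hop * M.wd a w')) (M.pref Sp β a w') := by
      have := congrArg (fun T : K →L[ℂ] K => T (M.wd a w' (M.xb Sp β))) hZ.eq
      simp only [ContinuousLinearMap.mul_apply] at this
      simp only [pref, ContinuousLinearMap.smul_apply, ContinuousLinearMap.mul_apply, map_smul,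
        unit_apply_star hW, this]
    rw [e1, unit_star_apply hT]
  have h2 := sand_close hU hT M.Z (M.xb Sp β)
  rw [e] at h2
  have h3 := ((M.xb_comb Sp h0 h1).mono M le_rfl (le_max_left 3 R)).close M U _ he h'
  have h4 := ((hn β h0 h1 a ha).mono M le_rfl (le_max_right 3 R)).close M U _ he h'
  have h5 := mul_le_mul (unit_opnorm M.Z_mem) h3 (norm_nonneg _) zero_le_one
  have h8 : ((8 : ℕ) : ℝ) = 8 := by norm_num
  rw [h8] at h5
  nlinarith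

/-- `ψ (U V0) = V0* U* Z U (x_b + x_S + O(β²))`; on the bulk use `sand_close` with
`θ • Hop * wd a w'` on `xb` and on `pref` (both combinations of atoms of radius `≤ R0`). -/
theorem dir_weak' (w' : List It) : ∃ R0 : ℝ, ∀ C : ℝ, ∃ C' : ℝ, 0 ≤ C' ∧ ∀ β, 0 < β → β ≤ 1 / 2 →
    ∀ (U Hop : K →L[ℂ] K) (a : ℕ → E) (θ : ℂ), U ∈ unitary (K →L[ℂ] K) →
      Hop ∈ unitary (K →L[ℂ] K) → Commute M.Z Hop → (∀ i, ‖a i‖ ≤ 2) → ‖θ‖ = 1 →
      (∀ b α, ‖α‖ ≤ R0 → ‖U (M.atom b α) - θ • Hop (M.wd a w' (M.atom b α))‖ ≤ C * β ^ 2) →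
      ‖j0 (M.psi (U * Sp.V0 β)) - M.jp Sp β (M.pref Sp β a w')‖ ≤ C' * β := by
  obtain ⟨R0, H⟩ := M.dir_bulk' Sp w'
  refine ⟨R0, fun C => ?_⟩
  obtain ⟨C', hC', H⟩ := H C
  refine ⟨C' + 2, by positivity, fun β h0 h1 U Hop a θ hU hH hZ ha hθ h => ?_⟩
  have h2 := H β h0 h1 U Hop a θ hU hH hZ ha hθ h
  have h3 := M.dir_split Sp h0 h1 hU (M.pref Sp β a w') 0
  rw [add_zero, sub_zero, unit_norm (Unitary.star_mem hU), unit_norm M.Z_mem, unit_norm hU, xS,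
    Sp.norm_xS β h0 h1] at h3
  have h4 := Real.sin_le h0.le
  have h5 : β ^ 2 ≤ β := by nlinarith
  nlinarith [mul_le_mul_of_nonneg_left h5 hC']
/-- if moreover the spike atoms are mapped to `Z`-eigenvectors with sign `σ`. -/
theorem dir_strong' (w' : List It) : ∃ R0 : ℝ, ∀ C : ℝ, ∃ C' : ℝ, 0 ≤ C' ∧ ∀ β, 0 < β → β ≤ 1 / 2 →
    ∀ (U Hop : K →L[ℂ] K) (a : ℕ → E) (θ : ℂ) (σ : Bool), U ∈ unitary (K →L[ℂ] K) →
      Hop ∈ unitary (K →L[ℂ] K) → Commute M.Z Hop → (∀ i, ‖a i‖ ≤ 2) → ‖θ‖ = 1 →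
      (∀ b α, ‖α‖ ≤ R0 → ‖U (M.atom b α) - θ • Hop (M.wd a w' (M.atom b α))‖ ≤ C * β ^ 2) →
      (∀ s ∈ Sp.LS β, ∃ (θ' : ℂ) (p : E),
        ‖U (M.atom s.2.1 s.2.2) - θ' • M.atom (xor σ s.2.1) p‖ ≤ C * β) →
      ‖j0 (M.psi (U * Sp.V0 β)) - M.jp Sp β (M.pref Sp β a w' +
        ((spinSign σ : ℝ) : ℂ) • M.Z (M.xS Sp β))‖ ≤ C' * β ^ 2 := by
  obtain ⟨R0, H⟩ := M.dir_bulk' Sp w'
  refine ⟨R0, fun C => ?_⟩
  obtain ⟨C', hC', H⟩ := H C
  refine ⟨C' + 8 * |C| + 1, by positivity,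
    fun β h0 h1 U Hop a θ σ hU hH hZ ha hθ h hs => ?_⟩
  have h2 := H β h0 h1 U Hop a θ hU hH hZ ha hθ h
  have h3 := M.dir_split Sp h0 h1 hU (M.pref Sp β a w') (((spinSign σ : ℝ) : ℂ) • M.Z (M.xS Sp β))
  have h4 := M.atoms_close (Sp.LS β) (star U * M.Z * U) (((spinSign σ : ℝ) : ℂ) • M.Z) (c := β)
    (e := 2 * |C| * β) (by positivity) fun s hs' => ⟨(Sp.shape β h0 h1 s hs').1, by
      obtain ⟨θ', p, hp⟩ := hs s hs'
      have hp' := hp.trans (mul_le_mul_of_nonneg_right (le_abs_self C) h0.le)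
      have hx : ((spinSign (xor σ s.2.1) : ℝ) : ℂ) = (spinSign σ : ℝ) * (spinSign s.2.1 : ℝ) := by
        cases σ <;> cases s.2.1 <;> simp [spinSign]
      have hn : ‖((spinSign (xor σ s.2.1) : ℝ) : ℂ)‖ = 1 := by
        cases xor σ s.2.1 <;> simp [spinSign]
      have e : (star U * M.Z * U) (M.atom s.2.1 s.2.2) -
          (((spinSign σ : ℝ) : ℂ) • M.Z) (M.atom s.2.1 s.2.2) =
          star U (M.Z (U (M.atom s.2.1 s.2.2) - θ' • M.atom (xor σ s.2.1) p) -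
            ((spinSign (xor σ s.2.1) : ℝ) : ℂ) •
              (U (M.atom s.2.1 s.2.2) - θ' • M.atom (xor σ s.2.1) p)) := by
        simp only [ContinuousLinearMap.mul_apply, ContinuousLinearMap.smul_apply, map_sub, map_smul,
          Z_atom, unit_star_apply hU, smul_sub, smul_smul, hx]
        module
      rw [e, unit_norm (Unitary.star_mem hU)]
      refine (norm_sub_le _ _).trans ?_
      rw [unit_norm M.Z_mem, norm_smul, hn]
      linarith⟩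
  have h5 : ((Sp.LS β).length : ℝ) ≤ 4 := by exact_mod_cast Sp.len β
  have h6 := h4.trans (mul_le_mul_of_nonneg_right h5 (by positivity))
  simp only [ContinuousLinearMap.mul_apply, ContinuousLinearMap.smul_apply] at h6
  rw [xS] at h3
  rw [xS]
  nlinarith

end Model
end Crest.Agent.R339
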