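import Crest.Agent.R339.D1.Gram

/-! # Row 339, block D1: extension of the tables, energy (statements frozen) -/

set_option autoImplicit false
open MeasureTheory ProbabilityTheory Filter Topology Complex
open Crest.MathPhysics.SpinGlass

namespace Crest.Agent.R339
variable {E K : Type} [NormedAddCommGroup E] [InnerProductSpace ℂ E]
  [NormedAddCommGroup K] [InnerProductSpace ℂ K] [CompleteSpace K]
namespace Model
variable (M : Model E K)
variable {j0 : K →ₗᵢ[ℂ] E} (j : Lp K 2 (gaussianReal 0 1) →ₗᵢ[ℂ] E) (Sp : M.Spike j0)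

/-- data after a cost gate. -/
noncomputable def extC (D : SimData E) (γ : ℝ) : SimData E :=
  { n := D.n + 1, w := .w D.n γ :: D.w, b := Function.update D.b D.n (M.idir j D D.w), t := D.t,
    kind := Function.update D.kind D.n (some D.w), zs := D.zs }
/-- data after a label phase. -/
noncomputable def _root_.Crest.Agent.R339.extZ (D : SimData E) (γ : ℝ) : SimData E :=
  { n := D.n + 1, w := .w D.n γ :: D.w, b := D.b, t := Function.update D.t D.n 1,
    kind := Function.update D.kind D.n none, zs := (γ, D.w) :: D.zs }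
/-- data after a mixer. -/
def _root_.Crest.Agent.R339.extR (D : SimData E) (θ : ℝ) : SimData E :=
  { D with w := .rx θ :: D.w }

theorem ext_idir {D D' : SimData E} {n : ℕ} {w : List It} (hw : WIn n w)
    (h : ∀ i, 2 ≤ i → i < n → D.b i = D'.b i ∧ D.t i = D'.t i) : M.idir j D w = M.idir j D' w := by
  simp only [idir, M.wdL_congr hw h]

theorem ext_win {n : ℕ} {w : List It} (hw : WIn n w) (hn : 2 ≤ n) (γ : ℝ) : WIn (n + 1) (.w n γ :: w) := by
  intro i s hi
  rcases List.mem_cons.1 hi with h | h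
  · cases h
    exact ⟨hn, n.lt_succ_self⟩
  · exact hw.mono (Nat.le_succ n) i s h

omit [CompleteSpace K] in
theorem ext_gram {a b : ℕ → E} {t : ℕ → ℝ} {ε : ℝ} (n : ℕ) {d e : E} {s : ℝ}
    (h : ∀ i i', ‖inner ℂ (a i) (a i') - (inner ℂ (b i) (b i') + ((t i * t i' : ℝ) : ℂ))‖ ≤ ε)
    (h1 : ∀ i, ‖inner ℂ (a i) d - (inner ℂ (b i) e + ((t i * s : ℝ) : ℂ))‖ ≤ ε)
    (h2 : ‖inner ℂ d d - (inner ℂ e e + ((s * s : ℝ) : ℂ))‖ ≤ ε) (i i' : ℕ) :
    ‖inner ℂ (Function.update a n d i) (Function.update a n d i') -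
      (inner ℂ (Function.update b n e i) (Function.update b n e i') +
        ((Function.update t n s i * Function.update t n s i' : ℝ) : ℂ))‖ ≤ ε := by
  by_cases hi : i = n <;> by_cases hi' : i' = n <;>
    simp only [hi, hi', Function.update_self, Function.update_of_ne, ne_eq, not_false_eq_true]
  · exact h2
  · rw [← RCLike.norm_conj, map_sub, map_add, inner_conj_symm, inner_conj_symm, conj_ofReal, mul_comm]
    exact h1 i'
  · exact h1 i
  · exact h i i'

theorem ideal_extC {D : SimData E} {V : ℝ → K →L[ℂ] K} (hD : M.Ideal j D V) (γ : ℝ) :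
    M.Ideal j (M.extC j D γ) (M.costL j γ V) := by
  have h2 := hD.two_le
  have hb : ∀ i, 2 ≤ i → i < D.n → D.b i = (M.extC j D γ).b i ∧ D.t i = (M.extC j D γ).t i :=
    fun i _ hi => ⟨(Function.update_of_ne hi.ne _ _).symm, rfl⟩
  have h0 := (hD.null D.n (.inr le_rfl)).2
  refine ⟨h2.trans (Nat.le_succ _), fun l => ?_, ext_win hD.win h2 γ, fun i hi => ?_, fun i w' h1 hi hk => ?_,
    fun i h1 hi hk => ?_, fun z hz => (hD.zs_in z hz).mono (Nat.le_succ _)⟩
  · have e : M.psiL V = fun l => M.psi (M.wdL D.b D.t l D.w) := funext fun l => by rw [psiL, hD.eq]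
    have := M.wdL_congr hD.win hb l
    simp only [extC] at this ⊢
    rw [wdL_cons, ← this, costL, e, hD.eq]
    simp [itOpL, h0, RZ_zero, idir]
  · simp only [extC] at hi ⊢
    rw [Function.update_of_ne (by omega)]
    exact hD.null i (by omega)
  · rcases (Nat.lt_succ_iff.1 hi).eq_or_lt with rfl | hi
    · obtain rfl : D.w = w' := by simpa [extC] using hk
      exact ⟨hD.win.mono (Nat.le_succ _), h0, (Function.update_self _ _ _).trans (M.ext_idir j hD.win hb)⟩
    · obtain ⟨a1, a2, a3⟩ := hD.cost i w' h1 hi ((Function.update_of_ne hi.ne _ _).symm.trans hk)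
      exact ⟨a1.mono (Nat.le_succ _), a2, (hb i h1 hi).1.symm.trans (a3.trans (M.ext_idir j a1 hb))⟩
  · rcases (Nat.lt_succ_iff.1 hi).eq_or_lt with rfl | hi
    · simp [extC] at hk
    · obtain ⟨a1, a2⟩ := hD.phase i h1 hi ((Function.update_of_ne hi.ne _ _).symm.trans hk)
      exact ⟨(hb i h1 hi).1.symm.trans a1, a2⟩
theorem ideal_extZ {D : SimData E} {V : ℝ → K →L[ℂ] K} (hD : M.Ideal j D V) (γ : ℝ) :
    M.Ideal j (extZ D γ) (fun l => M.RZ (γ * l) * V l) := by
  have h2 := hD.two_le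
  have hb : ∀ i, 2 ≤ i → i < D.n → D.b i = (extZ D γ).b i ∧ D.t i = (extZ D γ).t i :=
    fun i _ hi => ⟨rfl, (Function.update_of_ne hi.ne _ _).symm⟩
  have h0 := (hD.null D.n (.inr le_rfl)).1
  refine ⟨h2.trans (Nat.le_succ _), fun l => ?_, ext_win hD.win h2 γ, fun i hi => ?_, fun i w' h1 hi hk => ?_,
    fun i h1 hi hk => ?_, List.forall_mem_cons.2 ⟨hD.win.mono (Nat.le_succ _),
      fun z hz => (hD.zs_in z hz).mono (Nat.le_succ _)⟩⟩
  · have := M.wdL_congr hD.win hb l
    simp only [extZ] at this ⊢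
    rw [wdL_cons, ← this, hD.eq]
    simp [itOpL, h0, WZ_zero]
  · simp only [extZ] at hi ⊢
    rw [Function.update_of_ne (by omega)]
    exact hD.null i (by omega)
  · rcases (Nat.lt_succ_iff.1 hi).eq_or_lt with rfl | hi
    · simp [extZ] at hk
    · obtain ⟨a1, a2, a3⟩ := hD.cost i w' h1 hi ((Function.update_of_ne hi.ne _ _).symm.trans hk)
      exact ⟨a1.mono (Nat.le_succ _), (hb i h1 hi).2.symm.trans a2, a3.trans (M.ext_idir j a1 hb)⟩
  · rcases (Nat.lt_succ_iff.1 hi).eq_or_lt with rfl | hi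
    · exact ⟨h0, Function.update_self _ _ _⟩
    · obtain ⟨a1, a2⟩ := hD.phase i h1 hi ((Function.update_of_ne hi.ne _ _).symm.trans hk)
      exact ⟨a1, (hb i h1 hi).2.symm.trans a2⟩
theorem ideal_extR {D : SimData E} {V : ℝ → K →L[ℂ] K} (hD : M.Ideal j D V) (θ : ℝ) :
    M.Ideal j (extR D θ) (fun l => M.RX θ * V l) := by
  refine ⟨hD.two_le, fun l => ?_, fun i s hi => hD.win i s (by simpa [extR] using hi), hD.null, hD.cost, hD.phase,
    hD.zs_in⟩
  simp only [extR]
  rw [wdL_cons, hD.eq, itOpL]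
theorem tab_extR {D : SimData E} {β C : ℝ} {a : ℕ → E} (h : M.Tab Sp D β C a) (θ : ℝ) :
    M.Tab Sp (extR D θ) β C a := by
  exact ⟨h.a0, h.a1, h.null, h.bd, h.gram, h.cost, h.phase⟩
omit [InnerProductSpace ℂ E] in
theorem ext_bd {a : ℕ → E} (h : ∀ i, ‖a i‖ ≤ 2) (n : ℕ) {d : E} (hd : ‖d‖ ≤ 2) (i : ℕ) :
    ‖Function.update a n d i‖ ≤ 2 := by
  rw [Function.update_apply]
  split_ifs
  exacts [hd, h i]

theorem tab_extC (hgl : M.S_GL) {D : SimData E} {V : ℝ → K →L[ℂ] K} (hD : M.Ideal j D V)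
    (γ C : ℝ) : ∃ C' : ℝ, C ≤ C' ∧ ∃ β0 > (0 : ℝ), ∀ β, 0 < β → β ≤ β0 → ∀ a d,
      M.Tab Sp D β C a → ‖d‖ = 1 → ‖d - M.jp Sp β (M.pref Sp β a D.w)‖ ≤ C * β →
      M.Tab Sp (M.extC j D γ) β C' (Function.update a D.n d) := by
  obtain ⟨C1, hC1, β0, hβ0, h1⟩ := M.gram_new j Sp hgl hD D.w C
  refine ⟨max C C1, le_max_left _ _, β0, hβ0, fun β hβ hβ' a d h hd hd' => ?_⟩
  have h2 := hD.two_le
  have h0 := (hD.null D.n (.inr le_rfl)).2
  have hm := mul_le_mul_of_nonneg_right (le_max_left C C1) hβ.le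
  have hm' := mul_le_mul_of_nonneg_right (le_max_right C C1) hβ.le
  have ha : ∀ i, 2 ≤ i → i < D.n → a i = Function.update a D.n d i :=
    fun i _ hi => (Function.update_of_ne hi.ne _ _).symm
  refine ⟨(Function.update_of_ne (by omega) _ _).trans h.a0, (Function.update_of_ne (by omega) _ _).trans h.a1,
    fun i hi => ?_, ext_bd h.bd _ (by linarith), fun i i' => ?_, fun i w' h1 hi hk => ?_, fun i h1 hi hk => ?_⟩
  · simp only [extC] at hi
    rw [Function.update_of_ne (by omega), h.null i (by omega)]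
  · have := ext_gram D.n (s := D.t D.n) (fun i i' => (h.gram i i').trans hm)
      (fun i => by simpa [h0] using (h1 β hβ hβ' a d h hd hd' i).trans hm')
      (by simpa [h0, inner_self_eq_norm_sq_to_K, hd, M.norm_idir j D D.w] using
        (mul_nonneg hC1 hβ.le).trans hm') i i'
    rwa [Function.update_eq_self] at this
  · rcases (Nat.lt_succ_iff.1 hi).eq_or_lt with rfl | hi
    · obtain rfl : D.w = w' := by simpa [extC] using hk
      rw [← M.pref_congr Sp β hD.win ha, Function.update_self]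
      exact hd'.trans hm
    · have hk' := (Function.update_of_ne hi.ne _ _).symm.trans hk
      rw [← M.pref_congr Sp β (hD.cost i w' h1 hi hk').1 ha, ← ha i h1 hi]
      exact (h.cost i w' h1 hi hk').trans hm
  · rcases (Nat.lt_succ_iff.1 hi).eq_or_lt with rfl | hi
    · simp [extC] at hk
    · rw [← ha i h1 hi]
      exact (h.phase i h1 hi ((Function.update_of_ne hi.ne _ _).symm.trans hk)).trans hm
theorem tab_extZ {D : SimData E} {V : ℝ → K →L[ℂ] K} (hD : M.Ideal j D V)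
    (γ C : ℝ) : ∃ C' : ℝ, C ≤ C' ∧ ∃ β0 > (0 : ℝ), ∀ β, 0 < β → β ≤ β0 → ∀ a g,
      M.Tab Sp D β C a → ‖g - M.fh Sp β‖ ≤ C * β →
      M.Tab Sp (extZ D γ) β C' (Function.update a D.n g) := by
  obtain ⟨C1, hC1, β0, hβ0, h1⟩ := M.gram_newg j Sp hD C
  refine ⟨max C C1, le_max_left _ _, β0, hβ0, fun β hβ hβ' a g h hg => ?_⟩
  obtain ⟨g1, g2, g3⟩ := h1 β hβ hβ' a g h hg
  have h2 := hD.two_le
  have h0 := (hD.null D.n (.inr le_rfl)).1
  have hm := mul_le_mul_of_nonneg_right (le_max_left C C1) hβ.le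
  have hm' := mul_le_mul_of_nonneg_right (le_max_right C C1) hβ.le
  have ha : ∀ i, 2 ≤ i → i < D.n → a i = Function.update a D.n g i :=
    fun i _ hi => (Function.update_of_ne hi.ne _ _).symm
  refine ⟨(Function.update_of_ne (by omega) _ _).trans h.a0, (Function.update_of_ne (by omega) _ _).trans h.a1,
    fun i hi => ?_, ext_bd h.bd _ g1, fun i i' => ?_, fun i w' h1 hi hk => ?_, fun i h1 hi hk => ?_⟩
  · simp only [extZ] at hi
    rw [Function.update_of_ne (by omega), h.null i (by omega)]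
  · have := ext_gram D.n (e := D.b D.n) (s := 1) (fun i i' => (h.gram i i').trans hm)
      (fun i => by simpa [h0] using (g3 i).trans hm')
      (by simpa only [h0, inner_zero_left, zero_add, mul_one, ofReal_one] using g2.trans hm') i i'
    rwa [Function.update_eq_self] at this
  · rcases (Nat.lt_succ_iff.1 hi).eq_or_lt with rfl | hi
    · simp [extZ] at hk
    · have hk' := (Function.update_of_ne hi.ne _ _).symm.trans hk
      rw [← M.pref_congr Sp β (hD.cost i w' h1 hi hk').1 ha, ← ha i h1 hi]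
      exact (h.cost i w' h1 hi hk').trans hm
  · rcases (Nat.lt_succ_iff.1 hi).eq_or_lt with rfl | hi
    · rw [Function.update_self]
      exact hg.trans hm
    · rw [← ha i h1 hi]
      exact (h.phase i h1 hi ((Function.update_of_ne hi.ne _ _).symm.trans hk)).trans hm
/-- energy: `V0* = conj θ0 • WY (-κ) + O(β)`, so `x ≈ wd a' W Ω` for the word
`W = WY κ* w* Z w WY κ`; second part of `S_GL` with `a' = update a 0 d`, `b' = update b 0 (idir w)`
(`gram_new`). -/
theorem energy_close (hgl : M.S_GL) {D : SimData E} {V : ℝ → K →L[ℂ] K} (hD : M.Ideal j D V)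
    (C : ℝ) : ∃ C' : ℝ, 0 ≤ C' ∧ ∃ β0 > (0 : ℝ), ∀ β, 0 < β → β ≤ β0 → ∀ a x,
      M.Tab Sp D β C a → ‖x‖ = 1 → ‖j0 x - M.jp Sp β (M.pref Sp β a D.w)‖ ≤ C * β →
      |(inner ℂ x (M.ι (j0 x))).re - M.EnV j (M.psiL V)| ≤ C' * β := by
  let Y : ℝ → List It := fun s => [.rx (-(Real.pi / 4)), .w 1 s, .rx (Real.pi / 4)]
  obtain ⟨C1, hC1, β0, hβ0, h1⟩ := M.gram_new j Sp hgl hD D.w C
  obtain ⟨C2, hC2, h2⟩ := hgl (Y (-1) ++ (winv D.w ++ (.z :: (D.w ++ Y 1))))
  have hC := hC1.trans (le_max_right C C1)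
  refine ⟨max C C1 + 2 + C2 * max C C1, by positivity, min β0 (1 / 2), lt_min hβ0 (by norm_num),
    fun β hβ hβ' a x h hx hx' => ?_⟩
  obtain ⟨hβ1, hβ2⟩ := le_min_iff.1 hβ'
  have hm := mul_le_mul_of_nonneg_right (le_max_left C C1) hβ.le
  have hm' := mul_le_mul_of_nonneg_right (le_max_right C C1) hβ.le
  have hd : ‖j0 x‖ = 1 := by rw [j0.norm_map, hx]
  have t0 := (hD.null 0 (.inl two_pos)).2
  have hg := ext_gram 0 (s := D.t 0) (fun i i' => (h.gram i i').trans hm)
    (fun i => by simpa [t0] using (h1 β hβ hβ1 a _ h hd hx' i).trans hm')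
    (by simpa [t0, inner_self_eq_norm_sq_to_K, hx, M.norm_idir j D D.w] using mul_nonneg hC hβ.le)
  rw [Function.update_eq_self] at hg
  have h3 := (h2 _ _ _ _ (fun i => ⟨ext_bd h.bd 0 (by linarith) i, ext_bd (fun i => (hD.bd M j i).1) 0
    (by rw [M.norm_idir]; norm_num) i, (hD.bd M j i).2⟩) hg).2 t0
  have e1 : M.wd (Function.update a 0 (j0 x)) D.w = M.wd a D.w :=
    M.wd_congr hD.win fun i hi _ => Function.update_of_ne (by omega) _ _
  have e2 : ∀ l, M.wdL (Function.update D.b 0 (M.idir j D D.w)) D.t l D.w = V l := fun l =>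
    (M.wdL_congr hD.win (fun i hi _ => ⟨Function.update_of_ne (by omega) _ _, rfl⟩) l).trans (hD.eq l).symm
  have e3 : ∀ l s, M.wdL (Function.update D.b 0 (M.idir j D D.w)) D.t l (Y s) = 1 := fun l s => by
    simp [Y, wdL_cons, wdL_nil, itOpL, hD.null 1 (.inl one_lt_two), WZ_zero, RZ_zero, M.a4_RX_inv']
  have e4 : JJ j (M.psiL V) = M.idir j D D.w := congrArg (JJ j) (funext fun l => by rw [psiL, hD.eq])
  simp only [wd_append, wdL_append, wd_cons _ _ It.z, wdL_cons _ _ _ _ It.z, wd_winv, wdL_winv, e1, e2, e3, Y, wd_WY,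
    itOp, itOpL, Function.update_self, Function.update_of_ne one_ne_zero, h.a1, one_mul, mul_one, ofReal_neg,
    ofReal_one, neg_smul, one_smul, mul_apply_eq_comp] at h3
  have h4 : ‖star (Sp.V0 β) (M.pref Sp β a D.w) - M.WY (-Sp.κ β) (star (M.wd a D.w) (M.Z (M.wd a D.w
      (M.WY (Sp.κ β) M.Ω))))‖ ≤ 2 * β := by
    have := (star (Sp.V0 β - Sp.θ0 β • M.WY (Sp.κ β))).le_opNorm (M.pref Sp β a D.w)
    rw [norm_star, M.norm_pref, mul_one, star_sub, star_smul, M.WY_star] at this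
    refine le_trans (le_of_eq ?_) (this.trans (Sp.op β hβ hβ2))
    simp only [pref, xb, map_smul, sub_apply, smul_apply, smul_sub, smul_smul, star_def, mul_conj', Sp.θ0_norm,
      ofReal_one, one_pow, one_smul]
  rw [jp, ← map_sub, j0.norm_map] at hx'
  have h5 := (norm_sub_le_norm_sub_add_norm_sub _ _ _).trans (add_le_add hx' h4)
  have h6 := (norm_inner_le_norm (𝕜 := ℂ) (M.ι (j0 x)) _).trans (mul_le_mul_of_nonneg_left h5 (norm_nonneg _))
  rw [inner_sub_right, M.ι.norm_map, hd, one_mul] at h6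
  have h7 := (abs_re_le_norm _).trans ((norm_sub_le_norm_sub_add_norm_sub _ _ _).trans (add_le_add h6 h3))
  have e5 : M.EnV j (M.psiL V) = (∫ l, inner ℂ (M.ι (M.idir j D D.w)) (star (V l) (M.Z (V l M.Ω)))
      ∂gaussianReal 0 1).re := by
    rw [EnV, e4, ← conj_re, ← integral_conj]
    simp only [inner_conj_symm, psiL, psi]
  rw [e5, ← conj_re, inner_conj_symm, ← sub_re]
  linarith

end Model
end Crest.Agent.R339
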