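import Crest.Agent.R339.D1.FlowAux

/-! # Row 339, block D1: the selective mixer on the spikes -/

set_option autoImplicit false
open MeasureTheory ProbabilityTheory Filter Topology Complex
open Crest.MathPhysics.SpinGlass

namespace Crest.Agent.R339
variable {E K : Type} [NormedAddCommGroup E] [InnerProductSpace ℂ E]
  [NormedAddCommGroup K] [InnerProductSpace ℂ K] [CompleteSpace K]
namespace Model
variable (M : Model E K)

theorem flow_im_le (f g : E) {a b : ℝ} (ha : ‖f‖ ≤ a) (hb : ‖g‖ ≤ b) :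
    |(inner ℂ f g : ℂ).im| ≤ a * b :=
  (a6_im f g).trans (mul_le_mul ha hb (norm_nonneg _) ((norm_nonneg _).trans ha))

theorem flow_spec (hspec : M.S_SPEC) {R Λ β ω G Pm κ H : ℝ} {L : List (ℝ × ℕ)} {d d0 : E}
    {LS : List (ℂ × Bool × E)} (hβ : 0 < β) (hG : 0 ≤ G)
    (h1 : ∀ h, |cosF ω L h| ≤ 2 ∧ |dF ω L h| ≤ 1)
    (h2 : ∀ h, |h| ≤ G / 4 → |cosF ω L h| ≤ β ^ 2 ∧ |dF ω L h| ≤ β ^ 2)
    (h3 : ∀ h, G / 2 ≤ |h| → |h| ≤ Pm → |cosF ω L h - 1| ≤ β ^ 2 ∧ |dF ω L h| ≤ β ^ 2)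
    (he : Real.exp (-((G / 8) ^ 2 / 4)) ≤ β ^ 2) (hH : |H| ≤ Λ / β) (hd : ‖d‖ ≤ 1) (hd0 : ‖d0‖ ≤ 1)
    (hdd : ‖d - d0‖ ≤ κ * β) (hR : 0 ≤ R) (hκ : 2 * R + 2 * (κ * Λ) ≤ G / 8)
    (hPm : 2 * (Λ / β) + G ≤ Pm)
    (hLS : ∀ s ∈ LS, ‖s.2.2‖ ≤ Λ / β ∧ G ≤ |2 * (inner ℂ d0 s.2.2).im|) :
    M.FSp R (((H : ℝ) : ℂ) • d0) LS β ω L d := by
  obtain ⟨-, s2, s3⟩ := hspec ω L d
  have s4 := s3 hd
  have hkl : κ * β * (Λ / β) = κ * Λ := by field_simp
  have hb2 : 0 ≤ β ^ 2 := sq_nonneg β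
  refine ⟨s2 1 fun h => (h1 h).2, fun b α hα => ?_, fun s hs b => ?_⟩
  · set α' := α + ((spinSign b : ℝ) : ℂ) • ((H : ℝ) : ℂ) • d0 with hα'
    have hs1 : |spinSign b| = 1 := by cases b <;> simp [spinSign]
    have hp : |2 * (inner ℂ d α').im| ≤ G / 8 := by
      have e1 : (inner ℂ d α' : ℂ).im = (inner ℂ d α : ℂ).im +
          (inner ℂ (d - d0) (((spinSign b : ℝ) : ℂ) • ((H : ℝ) : ℂ) • d0) : ℂ).im := by
        have e2 : (inner ℂ d0 (((spinSign b : ℝ) : ℂ) • ((H : ℝ) : ℂ) • d0) : ℂ).im = 0 := by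
          rw [inner_smul_right, inner_smul_right, inner_self_eq_norm_sq_to_K]
          simp [sq]
        rw [hα', inner_add_right, inner_sub_left, Complex.add_im, Complex.sub_im, e2, sub_zero]
      have n1 := flow_im_le d α hd hα
      have n2 := flow_im_le (d - d0) (((spinSign b : ℝ) : ℂ) • ((H : ℝ) : ℂ) • d0) hdd
        (b := Λ / β) (by
          rw [norm_smul, norm_smul, Complex.norm_real, Complex.norm_real, Real.norm_eq_abs,
            Real.norm_eq_abs, hs1, one_mul]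
          exact (mul_le_of_le_one_right (abs_nonneg _) hd0).trans hH)
      rw [hkl] at n2
      have n3 := abs_add_le (inner ℂ d α : ℂ).im
        (inner ℂ (d - d0) (((spinSign b : ℝ) : ℂ) • ((H : ℝ) : ℂ) • d0) : ℂ).im
      rw [abs_mul, abs_two, e1]
      linarith
    have hw : ∀ h, |h - 2 * (inner ℂ d α').im| ≤ G / 8 → |h| ≤ G / 4 := fun h hh => by
      have := abs_add_le (h - 2 * (inner ℂ d α').im) (2 * (inner ℂ d α').im)
      rw [sub_add_cancel] at this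
      linarith
    have k1 := (s4 b α' (G / 8) (β ^ 2) 2 0 (by positivity)).1 (fun h => by simpa using (h1 h).1)
      fun h hh => by simpa using (h2 h (hw h hh)).1
    have k2 := (s4 b α' (G / 8) (β ^ 2) 1 0 (by positivity)).2 (fun h => (h1 h).2)
      fun h hh => (h2 h (hw h hh)).2
    rw [M.flow_WZ_atom, M.flow_WZ_atom]
    simp only [Complex.ofReal_zero, zero_smul, sub_zero] at k1
    constructor <;> linarith
  · obtain ⟨l1, l2⟩ := hLS s hs
    have e1 : (inner ℂ d s.2.2 : ℂ).im = (inner ℂ d0 s.2.2 : ℂ).im + (inner ℂ (d - d0) s.2.2 : ℂ).im := by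
      rw [inner_sub_left, Complex.sub_im]; ring
    have n1 := flow_im_le d0 s.2.2 hd0 l1
    have n2 := flow_im_le (d - d0) s.2.2 hdd l1
    rw [hkl] at n2
    rw [abs_mul, abs_two] at l2
    have hw : ∀ h, |h - 2 * (inner ℂ d s.2.2).im| ≤ G / 8 → G / 2 ≤ |h| ∧ |h| ≤ Pm := fun h hh => by
      rw [e1] at hh
      obtain ⟨a1, a2⟩ := abs_le.1 hh
      obtain ⟨a3, a4⟩ := abs_le.1 n2
      obtain ⟨a5, a6⟩ := abs_le.1 n1
      refine ⟨?_, abs_le.2 ⟨by linarith, by linarith⟩⟩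
      rcases abs_cases (inner ℂ d0 s.2.2 : ℂ).im with a7 | a7
      · exact le_abs.2 (Or.inl (by linarith [a7.1]))
      · exact le_abs.2 (Or.inr (by linarith [a7.1]))
    have k1 := (s4 b s.2.2 (G / 8) (β ^ 2) 3 1 (by positivity)).1 (fun h => by
      have := abs_sub (cosF ω L h) 1
      rw [abs_one] at this
      linarith [(h1 h).1]) fun h hh => (h3 h (hw h hh).1 (hw h hh).2).1
    have k2 := (s4 b s.2.2 (G / 8) (β ^ 2) 1 0 (by positivity)).2 (fun h => (h1 h).2)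
      fun h hh => (h3 h (hw h hh).1 (hw h hh).2).2
    simp only [Complex.ofReal_one, one_smul] at k1
    constructor <;> linarith

theorem flow_core (j0 : K →ₗᵢ[ℂ] E) (hsel : S_SEL) (hspec : M.S_SPEC) (hstep : M.S_STEP j0)
    (n : ℕ) {R Λ : ℝ} (hR : 0 ≤ R) (hΛ : 0 ≤ Λ) (τ : ℝ) :
    ∃ C : ℝ, 0 ≤ C ∧ ∃ β0 > (0 : ℝ), ∀ β, 0 < β → β ≤ β0 →
    ∀ (V : K →L[ℂ] K) (H : ℝ) (vb : K) (LS : List (ℂ × Bool × E)), M.PReach j0 V →
      M.Comb n R vb → |H| ≤ Λ / β → LS.length ≤ n →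
      (∀ s ∈ LS, ‖s.1‖ ≤ β ∧ ‖s.2.2‖ ≤ Λ / β ∧
        GG β ≤ |2 * (inner ℂ (j0 (M.psi V)) s.2.2).im|) →
      ‖V M.Ω - M.WZ (((H : ℝ) : ℂ) • j0 (M.psi V)) vb - M.atoms LS‖ ≤ Λ * β ^ 2 →
      ∃ T ∈ unitary (K →L[ℂ] K), M.PReach j0 (T * V) ∧
        M.FInv R (((H : ℝ) : ℂ) • j0 (M.psi V)) LS β τ (C * β ^ 2) T := by
  set c2 : ℝ := 4 + 4 * R + 4 * Λ with hc2
  set a : ℝ := 1 + 2 * n * c2 with ha
  set b : ℝ := 8 + c2 * (6 * n + Λ) with hb
  set κ : ℝ := 4 * n + 2 * Λ with hκ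
  set Cf : ℝ := b * Real.exp (a * |τ|) with hCf
  have hn : (0 : ℝ) ≤ n := Nat.cast_nonneg n
  have c2p : 0 < c2 := by positivity
  have ap : 0 < a := by positivity
  have bp : 0 < b := by positivity
  have Cfp : 0 < Cf := by positivity
  obtain ⟨-, g2, -, g4⟩ := GG_facts
  obtain ⟨β1, hβ1, g5⟩ := g4 (1 / 256) (by norm_num)
  obtain ⟨β2, hβ2, g6⟩ := mem_nhdsGT_iff_exists_Ioc_subset.1
    (g2.eventually_ge_atTop (16 + 8 * (2 * R + 2 * (κ * Λ))))
  refine ⟨Cf, Cfp.le, min (min β1 β2) (min 1 (1 / Cf)),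
    lt_min (lt_min hβ1 hβ2) (lt_min one_pos (by positivity)),
    fun β hβ hβ0 V H vb LS hV hvb hH hlen hLS hr => ?_⟩
  have b1 : β ≤ β1 := hβ0.trans ((min_le_left _ _).trans (min_le_left _ _))
  have b2 : β ≤ β2 := hβ0.trans ((min_le_left _ _).trans (min_le_right _ _))
  have b3 : β ≤ 1 := hβ0.trans ((min_le_right _ _).trans (min_le_left _ _))
  have b4 : β * Cf ≤ 1 :=
    (le_div_iff₀ Cfp).1 (hβ0.trans ((min_le_right _ _).trans (min_le_right _ _)))
  have hG : 16 + 8 * (2 * R + 2 * (κ * Λ)) ≤ GG β := g6 ⟨hβ, b2⟩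
  have hκΛ : 0 ≤ κ * Λ := by positivity
  have he : Real.exp (-((GG β / 8) ^ 2 / 4)) ≤ β ^ 2 := by
    have h1 := g5 β hβ b1
    rw [show (GG β / 8) ^ 2 / 4 = 1 / 256 * GG β ^ 2 by ring]
    refine h1.trans ?_
    rw [pow_succ]
    exact mul_le_of_le_one_right (sq_nonneg β) b3
  have hΛβ : 0 ≤ Λ / β := by positivity
  obtain ⟨ω, L, h1, h2, h3⟩ := hsel (GG β) (2 * (Λ / β) + GG β) (β ^ 2) (by linarith) (by linarith)
    (by positivity)
  obtain ⟨C0, hC0, hst⟩ := hstep ω L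
  obtain ⟨Γ, hΓ, htV⟩ := PReach.tame M hV
  have hVu := PReach.mem M hV
  set d0 := j0 (M.psi V) with hd0
  have nd0 : ‖d0‖ = 1 := by rw [hd0, j0.norm_map, M.norm_psi hVu]
  set g := ((H : ℝ) : ℂ) • d0 with hg
  have ng : ‖g‖ ≤ Λ / β := by
    rw [hg, norm_smul, nd0, mul_one, Complex.norm_real, Real.norm_eq_abs]; exact hH
  set Ct : ℝ := 1 + Γ + C0 * |τ| + 2 * R + 2 * (Λ / β) with hCt
  obtain ⟨C, hC, hst⟩ := hst Ct
  obtain ⟨N, hN⟩ := exists_nat_gt (|τ| + |τ| * (C + 1 + c2 * C) / β ^ 2)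
  have hq : 0 ≤ |τ| * (C + 1 + c2 * C) / β ^ 2 := by positivity
  have hN0 : (0 : ℝ) < N := lt_of_le_of_lt (by positivity) hN
  set t : ℝ := τ / N with ht
  have habs : |t| = |τ| / N := by rw [ht, abs_div, abs_of_pos hN0]
  have t1 : |t| ≤ 1 := by rw [habs, div_le_one hN0]; linarith
  have t2 : |t| * (C + 1 + c2 * C) ≤ β ^ 2 := by
    have : |τ| * (C + 1 + c2 * C) / β ^ 2 ≤ N := by linarith [abs_nonneg τ]
    rw [div_le_iff₀ (by positivity)] at this
    rw [habs, div_mul_eq_mul_div, div_le_iff₀ hN0]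
    linarith
  have t3 : |t| * N = |τ| := by rw [habs]; field_simp
  have t0 := abs_nonneg t
  have hA : ∀ i : ℕ, i ≤ N → β ^ 2 * b * ((1 + a * |t|) ^ i - 1) ≤ Cf * β ^ 2 := fun i hi => by
    have p1 : (1 + a * |t|) ^ i ≤ Real.exp (a * |τ|) := by
      calc (1 + a * |t|) ^ i ≤ Real.exp (a * |t|) ^ i := by
            gcongr
            linarith [Real.add_one_le_exp (a * |t|)]
        _ = Real.exp (a * (|t| * i)) := by rw [← Real.exp_nat_mul]; ring_nf
        _ ≤ _ := by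
            rw [← t3]
            have : (i : ℝ) ≤ N := Nat.cast_le.2 hi
            gcongr
    have : β ^ 2 * b * ((1 + a * |t|) ^ i - 1) ≤ β ^ 2 * b * Real.exp (a * |τ|) := by
      gcongr
      linarith
    rw [hCf]
    linarith
  have key : ∀ i : ℕ, i ≤ N → ∃ T ∈ unitary (K →L[ℂ] K), M.PReach j0 (T * V) ∧
      M.Tame ((T * V) M.Ω) (1 + Γ + C0 * (|t| * i)) ∧
      M.FInv R g LS β (i * t) (β ^ 2 * b * ((1 + a * |t|) ^ i - 1)) T := by
    intro i hi
    induction i with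
    | zero =>
      refine ⟨1, one_mem _, by simpa using hV, ?_, by simpa using flow_inv0⟩
      have := (htV M.Ω 1 M.tame_Ω).1
      simpa [M.norm_Ω] using this
    | succ i ih =>
      obtain ⟨T, hT, r1, r2, r3⟩ := ih (by omega)
      set A := β ^ 2 * b * ((1 + a * |t|) ^ i - 1) with hAi
      have A0 : 0 ≤ A := by
        have : 1 ≤ (1 + a * |t|) ^ i := one_le_pow₀ (by linarith [mul_nonneg ap.le t0])
        exact mul_nonneg (by positivity) (by linarith)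
      have A1 : A ≤ β := by
        have := hA i (by omega)
        nlinarith
      have hi' : |t| * i ≤ |τ| := by
        rw [← t3]
        have : (i : ℝ) ≤ N := Nat.cast_le.2 (by omega)
        gcongr
      have r4 : M.Tame ((T * V) M.Ω) Ct := Tame.mono M r2 (by
        have := mul_le_mul_of_nonneg_left hi' hC0
        linarith)
      obtain ⟨S, hS, u1, u2, θ₀, m, u3, u4, u5⟩ := hst t (T * V) t1 r1 r4
      have hTV := PReach.mem M r1
      have hdd := flow_dir j0 hT hVu hβ.le A0 hvb hlen (fun s hs => (hLS s hs).1) hr r3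
      have hsp := M.flow_spec hspec (R := R) (Λ := Λ) (κ := κ) (H := H) (LS := LS) hβ (by linarith)
        h1 h2 h3 he hH (d := j0 (M.psi (T * V))) (d0 := d0)
        (by rw [j0.norm_map, M.norm_psi hTV]) nd0.le (hdd.trans (by
          have p1 : n * A ≤ n * β := by gcongr
          have p2 : Λ * β ^ 2 ≤ Λ * β := by
            rw [sq]; gcongr; exact mul_le_of_le_one_right hβ.le b3
          rw [hκ]
          linarith)) hR (by linarith) le_rfl fun s hs => (hLS s hs).2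
      have hdP := flow_dP hT hβ b3 A0 hvb hlen (fun s hs => (hLS s hs).1) hr r3 hsp
      have hC0τ : 0 ≤ C0 * |τ| := by positivity
      have hnew := flow_step hS hβ b3 hR hΛ hC u3 (fun s hs => (hLS s hs).2.1) (by linarith)
        (by linarith) u5 r3 hsp
      refine ⟨S * T, mul_mem hS hT, by rwa [mul_assoc], ?_, ?_⟩
      · have := u2 _ _ (by rw [unit_norm hTV, M.norm_Ω]) r2
        rw [mul_assoc]
        refine Tame.mono M this (le_of_eq ?_)
        push_cast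
        ring
      · push_cast
        rw [add_mul, one_mul]
        refine hnew.mono ?_
        have hm : ‖m‖ ≤ |t| * (2 * (n * A) + (6 * n + Λ) * β ^ 2) + C * t ^ 2 :=
          u4.trans (by gcongr)
        have e1 : β ^ 2 * b * ((1 + a * |t|) ^ (i + 1) - 1) = A * (1 + a * |t|) + β ^ 2 * b * (a * |t|) := by
          rw [hAi]; ring
        have p1 := mul_le_mul_of_nonneg_left hm c2p.le
        have p2 := mul_le_mul_of_nonneg_left t2 t0
        have p3 : t ^ 2 = |t| * |t| := by rw [← sq, sq_abs]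
        have p4 : β ^ 2 * b * |t| ≤ β ^ 2 * b * (a * |t|) := by
          gcongr
          exact le_mul_of_one_le_left t0 (by rw [ha]; linarith [mul_nonneg (mul_nonneg zero_le_two hn) c2p.le])
        have p5 : 0 ≤ A * |t| := mul_nonneg A0 t0
        rw [e1, ← hc2]
        rw [p3] at p1 ⊢
        rw [hb] at p4
        rw [ha] at p4 ⊢
        rw [hb]
        nlinarith
  obtain ⟨T, hT, r1, -, r3⟩ := key N le_rfl
  refine ⟨T, hT, r1, ?_⟩
  rw [show (N : ℝ) * t = τ by rw [ht]; field_simp] at r3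
  exact r3.mono (hA N le_rfl)

/-- `F` from `S_SEL` with `G = GG β`, `Pm = max G (2Λ/β + G)`, `δ = β²`, window `ρ = G/8`; `N` steps of
size `t = τ/N`; `T_i` the product, `d_i = j0 ψ(T_i V)`, `‖d_i - d_0‖ ≤ 2n err_b + 2nβ + 2Λβ²`, so all
positions move by `O(1)`: bulk atoms stay in `|h| ≤ G/8`, spikes in `|h| ≥ G - O(1)`.
With `A_i = err_b + β err_S`: `‖m_i‖ ≤ |t| C₁ (A_i + β²) + C t²` (`‖dP‖ ≤ 1`), on the bulk
`WZ m WZ (H d₀) = phase • WZ (H d₀) WZ m` (scalar phase, put into `θ`), on the spikes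
`‖WZ m y - y‖ ≤ 2 (1 + 2Λ/β) ‖m‖`; hence `A_{i+1} ≤ A_i + |t| C₂ (A_i + β²) + C₃ t²` with `C₂`
depending on `n, R, Λ` only; discrete Gronwall, `N` large, bootstrap `A_i ≤ C β² ≤ β`.
`Ct` := max of the tameness constants of `V Ω` (`PReach.tame`, plus `C0 |τ|`) and of the atoms. -/
theorem flow (j0 : K →ₗᵢ[ℂ] E) (hsel : S_SEL) (hspec : M.S_SPEC) (hstep : M.S_STEP j0) :
    M.S_FLOW j0 := by
  intro n R Λ τ
  obtain ⟨C, hC, β0, hβ0, h⟩ := M.flow_core j0 hsel hspec hstep n (le_max_right R 0)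
    (le_max_right Λ 0) τ
  refine ⟨C, hC, β0, hβ0, fun β hβ hβ' V H vb LS hV hvb hH hlen hLS hr => ?_⟩
  have hΛ : Λ / β ≤ max Λ 0 / β := by gcongr; exact le_max_left _ _
  obtain ⟨T, hT, r1, θ, θ', r2, r3, r4, r5⟩ := h β hβ hβ' V H vb LS hV
    (Comb.mono M hvb le_rfl (le_max_left _ _)) (hH.trans hΛ) hlen
    (fun s hs => ⟨(hLS s hs).1, (hLS s hs).2.1.trans hΛ, (hLS s hs).2.2⟩)
    (hr.trans (by gcongr; exact le_max_left _ _))
  refine ⟨T, hT, r1, θ, θ', r2, r3, fun b α hα => r4 b α (hα.trans (le_max_left _ _)),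
    fun s hs b => le_of_mul_le_mul_left ((r5 s hs b).trans (le_of_eq (by ring))) hβ⟩

end Model
end Crest.Agent.R339
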