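import Crest.Agent.R339.D1.Word

/-! # Row 339, block D1: auxiliary lemmas for the selective mixer -/

set_option autoImplicit false
open MeasureTheory ProbabilityTheory Filter Topology Complex
open Crest.MathPhysics.SpinGlass

namespace Crest.Agent.R339
variable {E K : Type} [NormedAddCommGroup E] [InnerProductSpace ℂ E]
  [NormedAddCommGroup K] [InnerProductSpace ℂ K] [CompleteSpace K]
namespace Model
variable (M : Model E K)

theorem flow_W_RX (f : E) (a : ℝ) : Commute (M.W f) (M.RX a) := (M.RX_commute (M.X_W f) a).symm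

theorem flow_comm_cosP (ω : ℝ) (L : List (ℝ × ℕ)) (d : E) (a : ℝ) :
    Commute (M.cosP ω L d) (M.RX a) := by
  unfold cosP
  refine Commute.list_sum_left _ _ fun x hx => ?_
  obtain ⟨t, -, rfl⟩ := List.mem_map.1 hx
  exact (M.cosW_commute (M.flow_W_RX _ a) (M.flow_W_RX _ a)).smul_left _

theorem flow_comm_dP (ω : ℝ) (L : List (ℝ × ℕ)) (d : E) (a : ℝ) :
    Commute (M.dP ω L d) (M.RX a) := by
  unfold dP
  refine Commute.list_sum_left _ _ fun x hx => ?_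
  obtain ⟨t, -, rfl⟩ := List.mem_map.1 hx
  exact (M.sinW_commute (M.flow_W_RX _ a) (M.flow_W_RX _ a)).smul_left _

theorem flow_WZ_atom (A : K →L[ℂ] K) (g : E) (b : Bool) (α : E) :
    ‖A (M.WZ g (M.atom b α))‖ = ‖A (M.atom b (α + ((spinSign b : ℝ) : ℂ) • g))‖ := by
  rw [M.WZ_atom, map_smul, norm_smul, a6_exp_norm, one_mul]

theorem flow_WZ_comm (m g : E) : ∃ c : ℂ, ‖c‖ = 1 ∧ ∀ x, M.WZ m (M.WZ g x) = c • M.WZ g (M.WZ m x) := by
  refine ⟨cexp (-(I * ((inner ℂ m g).im : ℂ))) * (cexp (-(I * ((inner ℂ g m).im : ℂ))))⁻¹, ?_,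
    fun x => ?_⟩
  · rw [norm_mul, norm_inv, a6_exp_norm, a6_exp_norm]; simp
  · have h1 := congrArg (fun T : K →L[ℂ] K => T x) (M.WZ_mul m g)
    have h2 := congrArg (fun T : K →L[ℂ] K => T x) (M.WZ_mul g m)
    simp only [ContinuousLinearMap.mul_apply, ContinuousLinearMap.smul_apply] at h1 h2
    rw [h1, h2, smul_smul, add_comm g m, inv_mul_cancel_right₀ (Complex.exp_ne_zero _)]

theorem flow_WZ_sub {x : K} {C : ℝ} (h : M.Tame x C) (m : E) : ‖M.WZ m x - x‖ ≤ 2 * C * ‖m‖ := by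
  have h1 := M.norm_WZ_sub_le m x
  have h2 := h m
  linarith

/-- The invariant of the flow. -/
def FInv (R : ℝ) (g : E) (LS : List (ℂ × Bool × E)) (β a A : ℝ) (T : K →L[ℂ] K) : Prop :=
  ∃ θ θ' : ℂ, ‖θ‖ = 1 ∧ ‖θ'‖ = 1 ∧
    (∀ b α, ‖α‖ ≤ R → ‖T (M.WZ g (M.atom b α)) - θ • M.WZ g (M.atom b α)‖ ≤ A) ∧
    ∀ s ∈ LS, ∀ b, β * ‖T (M.atom b s.2.2) - θ' • M.RX a (M.atom b s.2.2)‖ ≤ A

/-- Spectral facts in the direction `d`. -/
def FSp (R : ℝ) (g : E) (LS : List (ℂ × Bool × E)) (β ω : ℝ) (L : List (ℝ × ℕ)) (d : E) : Prop :=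
  ‖M.dP ω L d‖ ≤ 1 ∧
    (∀ b α, ‖α‖ ≤ R → ‖M.cosP ω L d (M.WZ g (M.atom b α))‖ ≤ 7 * β ^ 2 ∧
      ‖M.dP ω L d (M.WZ g (M.atom b α))‖ ≤ 3 * β ^ 2) ∧
    ∀ s ∈ LS, ∀ b, ‖M.cosP ω L d (M.atom b s.2.2) - M.atom b s.2.2‖ ≤ 7 * β ^ 2 ∧
      ‖M.dP ω L d (M.atom b s.2.2)‖ ≤ 3 * β ^ 2

variable {M}
variable {n : ℕ} {R Λ β a A ω : ℝ} {g d : E} {LS : List (ℂ × Bool × E)} {L : List (ℝ × ℕ)}
  {T V : K →L[ℂ] K} {vb : K}

theorem FInv.mono {A' : ℝ} (h : M.FInv R g LS β a A T) (hA : A ≤ A') : M.FInv R g LS β a A' T := by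
  obtain ⟨θ, θ', h1, h2, h3, h4⟩ := h
  exact ⟨θ, θ', h1, h2, fun b α hα => (h3 b α hα).trans hA, fun s hs b => (h4 s hs b).trans hA⟩

theorem flow_inv0 : M.FInv R g LS β 0 0 1 :=
  ⟨1, 1, norm_one, norm_one, fun b α _ => by simp, fun s _ b => by simp [M.RX_zero]⟩

theorem flow_atoms_norm (hlen : LS.length ≤ n) (hβ : 0 ≤ β) {e : ℝ} (he : 0 ≤ e) (B : K →L[ℂ] K)
    (h : ∀ s ∈ LS, ‖s.1‖ ≤ β ∧ ‖B (M.atom s.2.1 s.2.2)‖ ≤ e) : ‖B (M.atoms LS)‖ ≤ n * (β * e) := by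
  have := M.atoms_close LS B 0 he (c := β) fun s hs => by simpa using h s hs
  simp only [ContinuousLinearMap.zero_apply, sub_zero] at this
  refine this.trans ?_
  have : (LS.length : ℝ) ≤ n := Nat.cast_le.2 hlen
  gcongr

theorem flow_comb_norm (hv : M.Comb n R vb) {e : ℝ} (he : 0 ≤ e) (B : K →L[ℂ] K)
    (h : ∀ b α, ‖α‖ ≤ R → ‖B (M.atom b α)‖ ≤ e) : ‖B vb‖ ≤ n * e := by
  have := Comb.close M hv B 0 he fun b α hα => by simpa using h b α hα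
  simpa using this

/-- The direction moves little. -/
theorem flow_dir (j0 : K →ₗᵢ[ℂ] E) (hT : T ∈ unitary (K →L[ℂ] K)) (hV : V ∈ unitary (K →L[ℂ] K))
    (hβ : 0 ≤ β) (hA : 0 ≤ A) (hv : M.Comb n R vb) (hlen : LS.length ≤ n) (hLS : ∀ s ∈ LS, ‖s.1‖ ≤ β)
    (hr : ‖V M.Ω - M.WZ g vb - M.atoms LS‖ ≤ Λ * β ^ 2) (h : M.FInv R g LS β a A T) :
    ‖j0 (M.psi (T * V)) - j0 (M.psi V)‖ ≤ 2 * (n * A) + 2 * (n * β + Λ * β ^ 2) := by
  obtain ⟨θ, θ', h1, -, h3, -⟩ := h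
  rw [← map_sub, j0.norm_map]
  have e1 : M.psi (T * V) - M.psi V = star V (star T (M.Z (T (V M.Ω)) - T (M.Z (V M.Ω)))) := by
    simp only [psi, star_mul, ContinuousLinearMap.mul_apply, map_sub, unit_star_apply hT]
  rw [e1, unit_norm (Unitary.star_mem hV), unit_norm (Unitary.star_mem hT)]
  set w := V M.Ω - M.WZ g vb with hw
  have hw1 : ‖w‖ ≤ n * β + Λ * β ^ 2 := by
    have h5 := flow_atoms_norm (M := M) hlen hβ zero_le_one 1
      fun s hs => ⟨hLS s hs, by simpa using M.norm_atom _ _⟩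
    simp only [ContinuousLinearMap.one_apply, mul_one] at h5
    have := norm_add_le (w - M.atoms LS) (M.atoms LS)
    rw [sub_add_cancel] at this
    linarith
  have hb : ∀ v, M.Comb n R v → ‖T (M.WZ g v) - θ • M.WZ g v‖ ≤ n * A := fun v hv => by
    have := flow_comb_norm hv hA (T * M.WZ g - θ • M.WZ g) fun b α hα => by simpa using h3 b α hα
    simpa using this
  have hZ : M.Z (M.WZ g vb) = M.WZ g (M.Z vb) :=
    congrArg (fun S : K →L[ℂ] K => S vb) (M.Z_WZ g).eq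
  have e2 : M.Z (T (V M.Ω)) - T (M.Z (V M.Ω)) = M.Z (T (M.WZ g vb) - θ • M.WZ g vb) -
      (T (M.WZ g (M.Z vb)) - θ • M.WZ g (M.Z vb)) + (M.Z (T w) - T (M.Z w)) := by
    simp only [hw, map_sub, map_smul, hZ]
    abel
  rw [e2]
  have n1 := norm_add_le (M.Z (T (M.WZ g vb) - θ • M.WZ g vb) -
      (T (M.WZ g (M.Z vb)) - θ • M.WZ g (M.Z vb))) (M.Z (T w) - T (M.Z w))
  have n2 := norm_sub_le (M.Z (T (M.WZ g vb) - θ • M.WZ g vb))
    (T (M.WZ g (M.Z vb)) - θ • M.WZ g (M.Z vb))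
  have n3 := norm_sub_le (M.Z (T w)) (T (M.Z w))
  rw [unit_norm M.Z_mem] at n2
  rw [unit_norm M.Z_mem, unit_norm hT, unit_norm hT, unit_norm M.Z_mem] at n3
  have n4 := hb vb hv
  have n5 := hb _ (Comb.Z M hv)
  linarith

/-- The back-action is small. -/
theorem flow_dP (hT : T ∈ unitary (K →L[ℂ] K)) (hβ : 0 < β) (hβ1 : β ≤ 1) (hA : 0 ≤ A)
    (hv : M.Comb n R vb) (hlen : LS.length ≤ n) (hLS : ∀ s ∈ LS, ‖s.1‖ ≤ β)
    (hr : ‖V M.Ω - M.WZ g vb - M.atoms LS‖ ≤ Λ * β ^ 2) (h : M.FInv R g LS β a A T)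
    (hs : M.FSp R g LS β ω L d) :
    ‖M.dP ω L d ((T * V) M.Ω)‖ ≤ 2 * (n * A) + (6 * n + Λ) * β ^ 2 := by
  obtain ⟨θ, θ', h1, h2, h3, h4⟩ := h
  obtain ⟨s1, s2, s3⟩ := hs
  set D := M.dP ω L d with hD
  have b1 : ‖(D * T * M.WZ g) vb‖ ≤ n * (A + 3 * β ^ 2) := by
    refine flow_comb_norm hv (by positivity) _ fun b α hα => ?_
    have e : (D * T * M.WZ g) (M.atom b α) = D (T (M.WZ g (M.atom b α)) - θ • M.WZ g (M.atom b α)) +
        θ • D (M.WZ g (M.atom b α)) := by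
      simp [map_sub]
    rw [e]
    refine (norm_add_le _ _).trans (add_le_add ((a6_contr s1 _).trans (h3 b α hα)) ?_)
    rw [norm_smul, h1, one_mul]
    exact (s2 b α hα).2
  have b2 : ‖(D * T) (M.atoms LS)‖ ≤ n * (β * (A / β + 3 * β ^ 2)) := by
    refine flow_atoms_norm hlen hβ.le (by positivity) _ fun s hs => ⟨hLS s hs, ?_⟩
    have hc : D (M.RX a (M.atom s.2.1 s.2.2)) = M.RX a (D (M.atom s.2.1 s.2.2)) :=
      congrArg (fun S : K →L[ℂ] K => S (M.atom s.2.1 s.2.2)) (M.flow_comm_dP ω L d a).eq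
    have e : (D * T) (M.atom s.2.1 s.2.2) =
        D (T (M.atom s.2.1 s.2.2) - θ' • M.RX a (M.atom s.2.1 s.2.2)) +
        θ' • M.RX a (D (M.atom s.2.1 s.2.2)) := by
      simp [map_sub, hc]
    rw [e]
    refine (norm_add_le _ _).trans (add_le_add ((a6_contr s1 _).trans ?_) ?_)
    · rw [le_div_iff₀' hβ]
      exact h4 s hs _
    · rw [norm_smul, h2, one_mul, unit_norm (M.RX_mem a)]
      exact (s3 s hs _).2
  have b3 : ‖D (T (V M.Ω - M.WZ g vb - M.atoms LS))‖ ≤ Λ * β ^ 2 := by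
    refine (a6_contr s1 _).trans ?_
    rw [unit_norm hT]
    exact hr
  have e : D ((T * V) M.Ω) = (D * T * M.WZ g) vb + (D * T) (M.atoms LS) +
      D (T (V M.Ω - M.WZ g vb - M.atoms LS)) := by
    simp only [ContinuousLinearMap.mul_apply, map_sub]
    abel
  rw [e]
  refine (norm_add₃_le).trans ?_
  have e2 : β * (A / β + 3 * β ^ 2) = A + 3 * β ^ 2 * β := by field_simp
  rw [e2] at b2
  have hn : (0 : ℝ) ≤ n := Nat.cast_nonneg n
  have : n * (β ^ 2 * β) ≤ n * β ^ 2 := by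
    gcongr
    exact mul_le_of_le_one_right (by positivity) hβ1
  nlinarith

/-- One step. -/
theorem flow_step {S : K →L[ℂ] K} (hS : S ∈ unitary (K →L[ℂ] K)) (hβ : 0 < β) (hβ1 : β ≤ 1)
    (hR : 0 ≤ R) (hΛ : 0 ≤ Λ) {t C Ct : ℝ} (hC : 0 ≤ C) {θ₀ : ℂ} {m : E} (hθ : ‖θ₀‖ = 1)
    (hLS : ∀ s ∈ LS, ‖s.2.2‖ ≤ Λ / β) (hC1 : 1 + 2 * R + 2 * ‖g‖ ≤ Ct) (hC2 : 1 + 2 * (Λ / β) ≤ Ct)
    (hx : ∀ x, ‖x‖ ≤ 1 → M.Tame x Ct →
      ‖S x - θ₀ • M.WZ m (x - (I * (t : ℂ)) • M.X (M.cosP ω L d x))‖ ≤ C * t ^ 2)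
    (h : M.FInv R g LS β a A T) (hs : M.FSp R g LS β ω L d) :
    M.FInv R g LS β (a + t) (A + (C + 1) * t ^ 2 + 7 * |t| * β ^ 2 + (4 + 4 * R + 4 * Λ) * ‖m‖)
      (S * T) := by
  obtain ⟨θ, θ', h1, h2, h3, h4⟩ := h
  obtain ⟨-, s2, s3⟩ := hs
  obtain ⟨c, hc, hcm⟩ := M.flow_WZ_comm m g
  have hIt : ‖I * (t : ℂ)‖ = |t| := by simp
  have hm := norm_nonneg m
  refine ⟨θ * (θ₀ * c), θ' * θ₀, by simp [h1, hθ, hc], by simp [h2, hθ], fun b α hα => ?_,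
    fun s hs b => ?_⟩
  · set y := M.WZ g (M.atom b α) with hy
    have ny : ‖y‖ ≤ 1 := by rw [hy, unit_norm (M.WZ_mem g)]; exact M.norm_atom b α
    have ty : M.Tame y Ct := by
      refine Tame.mono M (Tame.WZ M (M.tame_atom b α) g) ?_
      have := mul_le_of_le_one_right (show 0 ≤ 2 * ‖g‖ by positivity) (M.norm_atom b α)
      linarith
    have k1 := hx y ny ty
    have k2 : ‖M.WZ m y - c • y‖ ≤ 2 * (1 + 2 * R) * ‖m‖ := by
      rw [hy, hcm, ← smul_sub, norm_smul, hc, one_mul, ← map_sub, unit_norm (M.WZ_mem g)]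
      refine (M.flow_WZ_sub (M.tame_atom b α) m).trans ?_
      gcongr
    have k3 : ‖M.WZ m ((I * (t : ℂ)) • M.X (M.cosP ω L d y))‖ ≤ |t| * (7 * β ^ 2) := by
      rw [unit_norm (M.WZ_mem m), norm_smul, hIt, unit_norm M.X_mem]
      exact mul_le_mul_of_nonneg_left (s2 b α hα).1 (abs_nonneg t)
    have e : (S * T) y - (θ * (θ₀ * c)) • y = S (T y - θ • y) +
        θ • (S y - θ₀ • M.WZ m (y - (I * (t : ℂ)) • M.X (M.cosP ω L d y))) +
        (θ * θ₀) • ((M.WZ m y - c • y) - M.WZ m ((I * (t : ℂ)) • M.X (M.cosP ω L d y))) := by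
      simp only [ContinuousLinearMap.mul_apply, map_sub, map_smul]
      module
    rw [e]
    refine (norm_add₃_le).trans ?_
    rw [unit_norm hS, norm_smul, norm_smul, norm_mul, h1, hθ, one_mul, one_mul, one_mul]
    have k4 := norm_sub_le (M.WZ m y - c • y) (M.WZ m ((I * (t : ℂ)) • M.X (M.cosP ω L d y)))
    have k5 := h3 b α hα
    nlinarith [sq_nonneg t, mul_nonneg hΛ hm]
  · set z := M.atom b s.2.2 with hz
    set x := M.RX a z with hxz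
    have nx : ‖x‖ ≤ 1 := by rw [hxz, unit_norm (M.RX_mem a)]; exact M.norm_atom _ _
    have tz : ∀ a', M.Tame (M.RX a' z) (1 + 2 * (Λ / β)) := fun a' =>
      Tame.mono M (Tame.of_commute M (M.tame_atom b s.2.2) (fun f => M.flow_W_RX f a')
        (unit_opnorm (M.RX_mem a'))) (by have := hLS s hs; linarith)
    have k1 := hx x nx (Tame.mono M (tz a) hC2)
    have e0 : M.RX (a + t) z = M.RX t x := by
      rw [add_comm, M.RX_add]; rfl
    have k2 : ‖M.WZ m (M.RX t x) - M.RX t x‖ ≤ 2 * (1 + 2 * (Λ / β)) * ‖m‖ := by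
      rw [← e0]; exact M.flow_WZ_sub (tz _) m
    have k3 : ‖(I * (t : ℂ)) • M.X (M.cosP ω L d x - x)‖ ≤ |t| * (7 * β ^ 2) := by
      have hcm : M.cosP ω L d x = M.RX a (M.cosP ω L d z) :=
        congrArg (fun S : K →L[ℂ] K => S z) (M.flow_comm_cosP ω L d a).eq
      rw [norm_smul, hIt, unit_norm M.X_mem, hcm, hxz, ← map_sub, unit_norm (M.RX_mem a)]
      exact mul_le_mul_of_nonneg_left (s3 s hs b).1 (abs_nonneg t)
    have k4 : ‖(M.RX t - (1 - (I * (t : ℂ)) • M.X)) x‖ ≤ t ^ 2 :=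
      (ContinuousLinearMap.le_opNorm _ _).trans ((mul_le_of_le_one_right (norm_nonneg _) nx).trans
        (M.RX_taylor t))
    have e : (S * T) z - (θ' * θ₀) • M.RX (a + t) z = S (T z - θ' • x) +
        θ' • (S x - θ₀ • M.WZ m (x - (I * (t : ℂ)) • M.X (M.cosP ω L d x))) +
        (θ' * θ₀) • ((M.WZ m (M.RX t x) - M.RX t x) -
          M.WZ m ((M.RX t - (1 - (I * (t : ℂ)) • M.X)) x +
            (I * (t : ℂ)) • M.X (M.cosP ω L d x - x))) := by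
      simp only [e0, ContinuousLinearMap.mul_apply, ContinuousLinearMap.sub_apply,
        ContinuousLinearMap.smul_apply, ContinuousLinearMap.one_apply, map_sub, map_add, map_smul]
      module
    rw [e]
    have k5 := norm_add₃_le (a := S (T z - θ' • x))
      (b := θ' • (S x - θ₀ • M.WZ m (x - (I * (t : ℂ)) • M.X (M.cosP ω L d x))))
      (c := (θ' * θ₀) • ((M.WZ m (M.RX t x) - M.RX t x) -
          M.WZ m ((M.RX t - (1 - (I * (t : ℂ)) • M.X)) x +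
            (I * (t : ℂ)) • M.X (M.cosP ω L d x - x))))
    rw [unit_norm hS, norm_smul, norm_smul, norm_mul, h2, hθ, one_mul, one_mul, one_mul] at k5
    have k6 := norm_sub_le (M.WZ m (M.RX t x) - M.RX t x)
      (M.WZ m ((M.RX t - (1 - (I * (t : ℂ)) • M.X)) x + (I * (t : ℂ)) • M.X (M.cosP ω L d x - x)))
    rw [unit_norm (M.WZ_mem m)] at k6
    have k7 := norm_add_le ((M.RX t - (1 - (I * (t : ℂ)) • M.X)) x)
      ((I * (t : ℂ)) • M.X (M.cosP ω L d x - x))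
    have k8 := h4 s hs b
    have k9 : β * (C * t ^ 2 + (2 * (1 + 2 * (Λ / β)) * ‖m‖ + (t ^ 2 + |t| * (7 * β ^ 2)))) ≤
        (C + 1) * t ^ 2 + 7 * |t| * β ^ 2 + (4 + 4 * R + 4 * Λ) * ‖m‖ := by
      have e3 : β * (2 * (1 + 2 * (Λ / β)) * ‖m‖) = 2 * β * ‖m‖ + 4 * Λ * ‖m‖ := by field_simp; ring
      have p1 : β * ((C + 1) * t ^ 2 + 7 * |t| * β ^ 2) ≤ (C + 1) * t ^ 2 + 7 * |t| * β ^ 2 :=
        mul_le_of_le_one_left (by positivity) hβ1
      nlinarith [mul_nonneg hR hm, mul_le_of_le_one_left hm hβ1]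
    have k10 := mul_le_mul_of_nonneg_left (k5.trans (add_le_add (add_le_add le_rfl k1)
      (k6.trans (add_le_add k2 (k7.trans (add_le_add k4 k3)))))) hβ.le
    nlinarith

end Model
end Crest.Agent.R339
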