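import Crest.Agent.R339.D1.Word

/-! # Row 339, block D1: Lipschitz dependence on the Gram matrix -/

set_option autoImplicit false
open MeasureTheory ProbabilityTheory Filter Topology Complex
open Crest.MathPhysics.SpinGlass

namespace Crest.Agent.R339
variable {E K : Type} [NormedAddCommGroup E] [InnerProductSpace ℂ E]
  [NormedAddCommGroup K] [InnerProductSpace ℂ K] [CompleteSpace K]
namespace Model
variable (M : Model E K)

theorem gl_exp_lip {z w : ℂ} (hz : z.re ≤ 0) (hw : w.re ≤ 0) : ‖cexp z - cexp w‖ ≤ ‖z - w‖ := by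
  have := (convex_halfSpace_re_le 0).norm_image_sub_le_of_norm_deriv_le (f := cexp) (C := 1)
    (fun x _ => differentiableAt_exp) (fun x hx => by
      rw [Complex.deriv_exp, Complex.norm_exp]; exact Real.exp_le_one_iff.2 hx) hw hz
  rwa [one_mul] at this

theorem gl_gauss (τ : ℝ) : ∫ l : ℝ, cexp (-(I * ((τ * l : ℝ) : ℂ))) ∂(gaussianReal 0 1) = cexp (-((τ : ℂ) ^ 2 / 2)) := by
  have h := charFun_gaussianReal (μ := 0) (v := 1) (-τ)
  rw [charFun_apply_real] at h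
  convert h using 3
  · push_cast; ring_nf
  · simp

/-- displacement, phase and label phase of a path -/
noncomputable def glD (a : ℕ → E) : List (ℕ × ℝ) → E
  | [] => 0
  | q :: p => glD a p + ((q.2 : ℝ) : ℂ) • a q.1
noncomputable def glPh (a : ℕ → E) : List (ℕ × ℝ) → ℝ
  | [] => 0
  | q :: p => glPh a p + q.2 * (inner ℂ (a q.1) (glD a p)).im
def glT (t : ℕ → ℝ) : List (ℕ × ℝ) → ℝ
  | [] => 0
  | q :: p => glT t p + q.2 * t q.1
noncomputable def glSt (a : ℕ → E) (b : Bool) (p : List (ℕ × ℝ)) : K :=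
  cexp (-(I * ((glPh a p : ℝ) : ℂ))) • M.atom b (glD a p)
noncomputable def glEx (a : ℕ → E) (p : List (ℕ × ℝ)) : ℂ := -(I * ((glPh a p : ℝ) : ℂ)) - (‖glD a p‖ : ℂ) ^ 2 / 2

def GlH (a b : ℕ → E) (t : ℕ → ℝ) (ε : ℝ) : Prop := (∀ i, ‖a i‖ ≤ 2 ∧ ‖b i‖ ≤ 2 ∧ |t i| ≤ 2) ∧
  ∀ i i', ‖inner ℂ (a i) (a i') - (inner ℂ (b i) (b i') + ((t i * t i' : ℝ) : ℂ))‖ ≤ ε

def GlOK (x : (ℕ → E) → K) (Pt : (ℕ → ℝ) → Prop) (w : List It) (c : Bool) (p : List (ℕ × ℝ)) : Prop :=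
  ∃ C : ℝ, 0 ≤ C ∧ ∀ (a b : ℕ → E) (t : ℕ → ℝ) (ε : ℝ), GlH a b t ε → Pt t →
    ‖inner ℂ (x a) (M.wd a w (M.glSt a c p)) - ∫ l, inner ℂ (x b) (M.wdL b t l w
      (cexp (-(I * ((glT t p * l : ℝ) : ℂ))) • M.glSt b c p)) ∂(gaussianReal 0 1)‖ ≤ C * ε

theorem glEx_cons (a : ℕ → E) (q : ℕ × ℝ) (p : List (ℕ × ℝ)) : glEx a (q :: p) =
    glEx a p - q.2 * inner ℂ (a q.1) (glD a p) - (q.2 : ℂ) ^ 2 / 2 * inner ℂ (a q.1) (a q.1) := by
  have h : ‖glD a p + ((q.2 : ℝ) : ℂ) • a q.1‖ ^ 2 =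
      ‖glD a p‖ ^ 2 + 2 * (q.2 * (inner ℂ (a q.1) (glD a p)).re) + q.2 ^ 2 * ‖a q.1‖ ^ 2 := by
    rw [@norm_add_sq ℂ, inner_smul_right, norm_smul, mul_pow, Complex.norm_real, Real.norm_eq_abs, sq_abs]
    have := inner_re_symm (𝕜 := ℂ) (glD a p) (a q.1)
    simp only [RCLike.re_to_complex] at this ⊢
    rw [re_ofReal_mul, this]
  have h' := congrArg (fun r : ℝ => (r : ℂ)) h
  simp only [glEx, glPh, glD, inner_self_eq_norm_sq_to_K]
  push_cast at h' ⊢
  rw [h']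
  conv_rhs => rw [← Complex.re_add_im (inner ℂ (a q.1) (glD a p))]
  simp only [coe_algebraMap]
  ring

theorem gl_lin (p : List (ℕ × ℝ)) : ∃ C : ℝ, 0 ≤ C ∧ ∀ (a b : ℕ → E) (t : ℕ → ℝ) (ε : ℝ), GlH a b t ε →
    ‖glD b p‖ ≤ C ∧
    (∀ i, ‖inner ℂ (a i) (glD a p) - (inner ℂ (b i) (glD b p) + ((t i * glT t p : ℝ) : ℂ))‖ ≤ C * ε) ∧
    ‖glEx a p - (glEx b p - ((glT t p : ℝ) : ℂ) ^ 2 / 2)‖ ≤ C * ε := by
  induction p with
  | nil => exact ⟨0, le_rfl, fun a b t ε _ => by simp [glD, glT, glEx, glPh]⟩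
  | cons q p ih =>
    obtain ⟨C, hC, ih⟩ := ih
    have hq := abs_nonneg q.2
    refine ⟨C + 2 * |q.2| + |q.2| * C + |q.2| ^ 2, by positivity, fun a b t ε h => ?_⟩
    obtain ⟨h1, h2, h3⟩ := ih a b t ε h
    have hε : 0 ≤ ε := (norm_nonneg _).trans (h.2 0 0)
    have hn : ‖((q.2 : ℝ) : ℂ)‖ = |q.2| := by rw [Complex.norm_real, Real.norm_eq_abs]
    have p1 := mul_nonneg hq hε
    have p2 := mul_nonneg (mul_nonneg hq hC) hε
    have p3 := mul_nonneg (sq_nonneg |q.2|) hε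
    refine ⟨(norm_add_le _ _).trans ?_, fun i => ?_, ?_⟩
    · rw [norm_smul, hn]
      nlinarith [mul_le_mul_of_nonneg_left (h.1 q.1).2.1 hq, mul_nonneg hq hC]
    · have e : inner ℂ (a i) (glD a (q :: p)) - (inner ℂ (b i) (glD b (q :: p)) + ((t i * glT t (q :: p) : ℝ) : ℂ)) =
          (inner ℂ (a i) (glD a p) - (inner ℂ (b i) (glD b p) + ((t i * glT t p : ℝ) : ℂ))) +
          q.2 * (inner ℂ (a i) (a q.1) - (inner ℂ (b i) (b q.1) + ((t i * t q.1 : ℝ) : ℂ))) := by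
        simp only [glD, glT, inner_add_right, inner_smul_right]; push_cast; ring
      rw [e]
      refine (norm_add_le _ _).trans ?_
      rw [norm_mul, hn]
      linarith [h2 i, mul_le_mul_of_nonneg_left (h.2 i q.1) hq]
    · have e : glEx a (q :: p) - (glEx b (q :: p) - ((glT t (q :: p) : ℝ) : ℂ) ^ 2 / 2) =
          (glEx a p - (glEx b p - ((glT t p : ℝ) : ℂ) ^ 2 / 2)) -
          q.2 * (inner ℂ (a q.1) (glD a p) - (inner ℂ (b q.1) (glD b p) + ((t q.1 * glT t p : ℝ) : ℂ))) -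
          (q.2 : ℂ) ^ 2 / 2 * (inner ℂ (a q.1) (a q.1) - (inner ℂ (b q.1) (b q.1) + ((t q.1 * t q.1 : ℝ) : ℂ))) := by
        simp only [glEx_cons, glT]; push_cast; ring
      rw [e]
      refine (norm_sub_le _ _).trans ((add_le_add_left (norm_sub_le _ _) _).trans ?_)
      rw [norm_mul, norm_mul, norm_div, norm_pow, hn, Complex.norm_two]
      linarith [mul_le_mul_of_nonneg_left (h2 q.1) hq,
        mul_le_mul_of_nonneg_left (h.2 q.1 q.1) (show 0 ≤ |q.2| ^ 2 / 2 by positivity)]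

theorem glEx_re (a : ℕ → E) (p : List (ℕ × ℝ)) (τ : ℝ) : (glEx a p - (τ : ℂ) ^ 2 / 2).re ≤ 0 := by
  have e : glEx a p - (τ : ℂ) ^ 2 / 2 = ((-(‖glD a p‖ ^ 2 / 2 + τ ^ 2 / 2) : ℝ) : ℂ) + ((-glPh a p : ℝ) : ℂ) * I := by
    rw [glEx]; push_cast; ring
  rw [e, add_re, ofReal_re, re_ofReal_mul, I_re, mul_zero, add_zero, neg_nonpos]
  positivity

theorem gl_close {a b : ℕ → E} {t : ℕ → ℝ} {p : List (ℕ × ℝ)} :
    ‖cexp (glEx a p) - cexp (glEx b p - ((glT t p : ℝ) : ℂ) ^ 2 / 2)‖ ≤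
      ‖glEx a p - (glEx b p - ((glT t p : ℝ) : ℂ) ^ 2 / 2)‖ :=
  gl_exp_lip (by simpa using glEx_re a p 0) (glEx_re b p _)

theorem gl_int0 (x y : K) (τ : ℝ) (b : ℕ → E) (t : ℕ → ℝ) : ∫ l, inner ℂ x (M.wdL b t l []
    (cexp (-(I * ((τ * l : ℝ) : ℂ))) • y)) ∂(gaussianReal 0 1) = cexp (-((τ : ℂ) ^ 2 / 2)) * inner ℂ x y := by
  simp only [wdL_nil, one_apply_eq_self, inner_smul_right]
  rw [integral_mul_const, gl_gauss]

theorem gl_base0 (c : Bool) (p : List (ℕ × ℝ)) : M.GlOK (fun _ => M.Ω) (fun _ => True) [] c p := by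
  obtain ⟨C, hC, H⟩ := gl_lin (E := E) p
  refine ⟨C, hC, fun a b t ε h _ => ?_⟩
  have e : ∀ a : ℕ → E, inner ℂ M.Ω (M.glSt a c p) = 1 / 2 * cexp (glEx a p) := fun a => by
    have h0 : M.Ω = M.atom false 0 + M.atom true 0 := by rw [M.atom_add, M.W_zero, one_apply_eq_self]
    rw [glSt, inner_smul_right, h0, inner_add_left, M.inner_atom, M.inner_atom, glEx, sub_eq_add_neg _ (_ / 2 : ℂ),
      sub_eq_add_neg _ (_ / 2 : ℂ), Complex.exp_add]
    cases c <;> simp [sub_eq_add_neg, Complex.exp_add] <;> ring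
  rw [gl_int0, wd_nil, one_apply_eq_self, e, e, mul_left_comm, ← Complex.exp_add, neg_add_eq_sub, ← mul_sub, norm_mul]
  have := gl_close.trans (H a b t ε h).2.2
  have hε : 0 ≤ C * ε := (norm_nonneg _).trans this
  simp only [one_div, norm_inv, Complex.norm_two]
  linarith

theorem gl_base1 (c : Bool) (p : List (ℕ × ℝ)) : M.GlOK (fun a => M.ι (a 0)) (fun t => t 0 = 0) [] c p := by
  obtain ⟨C, hC, H⟩ := gl_lin (E := E) p
  refine ⟨C + C * C, by positivity, fun a b t ε h h0 => ?_⟩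
  have e : ∀ a : ℕ → E, inner ℂ (M.ι (a 0)) (M.glSt a c p) =
      -I / 2 * (inner ℂ (a 0) (glD a p) * cexp (glEx a p)) := fun a => by
    rw [glSt, inner_smul_right, M.ι_atom, glEx, sub_eq_add_neg, Complex.exp_add]
    ring
  obtain ⟨h1, h2, h3⟩ := H a b t ε h
  have h4 := h2 0
  rw [h0, zero_mul, ofReal_zero, add_zero] at h4
  have h5 := gl_close.trans h3
  have h6 : ‖inner ℂ (b 0) (glD b p)‖ ≤ 2 * C :=
    (norm_inner_le_norm _ _).trans (mul_le_mul (h.1 0).2.1 h1 (norm_nonneg _) zero_le_two)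
  have h7 : ‖cexp (glEx a p)‖ ≤ 1 := by
    rw [Complex.norm_exp]; exact Real.exp_le_one_iff.2 (by simpa using glEx_re a p 0)
  have e2 : -I / 2 * (inner ℂ (a 0) (glD a p) * cexp (glEx a p)) - cexp (-(((glT t p : ℝ) : ℂ) ^ 2 / 2)) *
      (-I / 2 * (inner ℂ (b 0) (glD b p) * cexp (glEx b p))) =
      -I / 2 * ((inner ℂ (a 0) (glD a p) - inner ℂ (b 0) (glD b p)) * cexp (glEx a p) +
        inner ℂ (b 0) (glD b p) * (cexp (glEx a p) - cexp (glEx b p - ((glT t p : ℝ) : ℂ) ^ 2 / 2))) := by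
    rw [sub_eq_add_neg (glEx b p), Complex.exp_add]; ring
  have hε : 0 ≤ C * ε := (norm_nonneg _).trans h4
  rw [gl_int0, wd_nil, one_apply_eq_self, e, e, e2, norm_mul]
  have h8 := (norm_add_le _ _).trans (add_le_add
    ((norm_mul_le _ _).trans (mul_le_mul h4 h7 (norm_nonneg _) hε))
    ((norm_mul_le _ _).trans (mul_le_mul h6 h5 (norm_nonneg _) (by positivity))))
  simp only [norm_div, norm_neg, Complex.norm_I, Complex.norm_two]
  linarith

theorem gl_integrable (x y : K) (τ : ℝ) (b : ℕ → E) (t : ℕ → ℝ) (w : List It) : Integrable (fun l => inner ℂ x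
    (M.wdL b t l w (cexp (-(I * ((τ * l : ℝ) : ℂ))) • y))) (gaussianReal 0 1) := by
  have hc : Continuous fun l : ℝ => inner ℂ x (M.wdL b t l w (cexp (-(I * ((τ * l : ℝ) : ℂ))) • y)) :=
    continuous_const.inner ((M.continuous_wdL b t w).clm_apply (by fun_prop))
  refine Integrable.of_bound hc.aestronglyMeasurable (‖x‖ * ‖y‖) (Eventually.of_forall fun l => ?_)
  refine (norm_inner_le_norm _ _).trans_eq ?_
  rw [unit_norm (M.wdL_mem b t l w), norm_smul, Complex.norm_exp]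
  simp

theorem gl_comb {x : (ℕ → E) → K} {Pt : (ℕ → ℝ) → Prop} {w : List It} {c c' : Bool} {p : List (ℕ × ℝ)} (u u' : ℂ)
    (h : M.GlOK x Pt w c p) (h' : M.GlOK x Pt w c' p) :
    ∃ C : ℝ, 0 ≤ C ∧ ∀ (a b : ℕ → E) (t : ℕ → ℝ) (ε : ℝ), GlH a b t ε → Pt t →
    ‖inner ℂ (x a) (M.wd a w (u • M.glSt a c p + u' • M.glSt a c' p)) - ∫ l, inner ℂ (x b) (M.wdL b t l w
      (cexp (-(I * ((glT t p * l : ℝ) : ℂ))) • (u • M.glSt b c p + u' • M.glSt b c' p))) ∂(gaussianReal 0 1)‖ ≤ C * ε := by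
  obtain ⟨C, hC, h⟩ := h
  obtain ⟨C', hC', h'⟩ := h'
  refine ⟨‖u‖ * C + ‖u'‖ * C', by positivity, fun a b t ε h1 h2 => ?_⟩
  simp only [smul_add, smul_comm _ u, smul_comm _ u', map_add, inner_add_right, map_smul _ u, map_smul _ u',
    inner_smul_right _ _ u, inner_smul_right _ _ u']
  rw [integral_add ((M.gl_integrable _ _ _ _ _ _).const_mul _) ((M.gl_integrable _ _ _ _ _ _).const_mul _),
    integral_const_mul, integral_const_mul, add_sub_add_comm, ← mul_sub, ← mul_sub]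
  refine (norm_add_le _ _).trans ?_
  rw [norm_mul, norm_mul]
  linarith [mul_le_mul_of_nonneg_left (h a b t ε h1 h2) (norm_nonneg u),
    mul_le_mul_of_nonneg_left (h' a b t ε h1 h2) (norm_nonneg u')]

theorem gl_WZ (a : ℕ → E) (c : Bool) (p : List (ℕ × ℝ)) (i : ℕ) (s : ℝ) :
    M.WZ (((s : ℝ) : ℂ) • a i) (M.glSt a c p) = M.glSt a c ((i, spinSign c * s) :: p) := by
  simp only [glSt, glPh, glD]
  rw [map_smul, M.WZ_atom, smul_smul, smul_smul, ← Complex.exp_add, inner_smul_left, conj_ofReal, im_ofReal_mul]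
  push_cast
  congr 2
  ring

theorem gl_ind {x : (ℕ → E) → K} {Pt : (ℕ → ℝ) → Prop} (h : ∀ c p, M.GlOK x Pt [] c p) (w : List It) :
    ∀ c p, M.GlOK x Pt w c p := by
  induction w using List.reverseRecOn with
  | nil => exact h
  | append_singleton w ι ih =>
    intro c p
    simp only [GlOK, wd_append, wdL_append, wd_cons, wdL_cons, wd_nil, wdL_nil, mul_one, mul_apply_eq_comp]
    cases ι with
    | rx θ =>
      have e : ∀ a : ℕ → E, M.RX θ (M.glSt a c p) =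
          ((Real.cos θ : ℝ) : ℂ) • M.glSt a c p + (-(I * ((Real.sin θ : ℝ) : ℂ))) • M.glSt a (!c) p := fun a => by
        have hX : M.X (M.glSt a c p) = M.glSt a (!c) p := by rw [glSt, map_smul, M.X_atom]; rfl
        simp only [RX, sub_apply, smul_apply, one_apply_eq_self, hX, neg_smul, ← sub_eq_add_neg]
      simp only [itOp, itOpL, map_smul (M.RX θ), e]
      exact M.gl_comb _ _ (ih c p) (ih (!c) p)
    | z =>
      have e : ∀ a : ℕ → E, M.Z (M.glSt a c p) = ((spinSign c : ℝ) : ℂ) • M.glSt a c p + (0 : ℂ) • M.glSt a c p :=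
        fun a => by rw [zero_smul, add_zero, glSt, map_smul, M.Z_atom, smul_comm]
      simp only [itOp, itOpL, map_smul M.Z, e]
      exact M.gl_comb _ _ (ih c p) (ih c p)
    | w i s =>
      have e : ∀ (b : ℕ → E) (t : ℕ → ℝ) (l : ℝ), (M.WZ (((s : ℝ) : ℂ) • b i) * M.RZ (s * t i * l))
          (cexp (-(I * ((glT t p * l : ℝ) : ℂ))) • M.glSt b c p) =
          cexp (-(I * ((glT t ((i, spinSign c * s) :: p) * l : ℝ) : ℂ))) • M.glSt b c ((i, spinSign c * s) :: p) := by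
        intro b t l
        have h1 : M.RZ (s * t i * l) (M.glSt b c p) =
            cexp (-(I * ((s * t i * l * spinSign c : ℝ) : ℂ))) • M.glSt b c p := by
          rw [glSt, map_smul, atom, ← mul_apply_eq_comp, M.RZ_P, smul_apply, smul_comm]
        rw [map_smul, mul_apply_eq_comp, h1, map_smul, gl_WZ, smul_smul, ← Complex.exp_add, glT]
        push_cast
        congr 2
        ring
      simp only [itOp, itOpL, gl_WZ, e]
      exact ih c _


/-- Symbolic expansion: acting with a word on `atom b (Σ_i c_i • a i)` (`c` real, finitely supported)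
gives a finite sum of `coef • exp(i Q) • atom b' (Σ c'_i • a i)` where `coef`, `b'`, `c'` and the real
matrix of the form `Q = Σ q_{ii'} Im ⟪a i, a i'⟫` depend only on the word (`WZ_atom`, `X_atom`,
`Z_atom`); in the label model there is the extra factor `exp (-i l Σ c'_i t_i)` whose Gaussian
integral is `exp (-(Σ c'_i t_i)²/2)` (`RZ_P`, `charFun_gaussianReal`). `⟪Ω, atom b α⟫ = e^{-‖α‖²/2}/2`,
`ι_atom`. Both sides are the same smooth function of the bounded Gram matrices. -/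
theorem gl : M.S_GL := by
  intro w
  have hΩ : M.glSt = fun a b p => M.glSt a b p := rfl
  have e0 : ∀ a : ℕ → E, M.Ω = M.glSt a false [] + M.glSt a true [] := fun a => by
    simp [glSt, glPh, glD, M.atom_add, M.W_zero]
  have key : ∀ (x : (ℕ → E) → K) (Pt : (ℕ → ℝ) → Prop), (∀ b p, M.GlOK x Pt [] b p) →
      ∃ C : ℝ, 0 ≤ C ∧ ∀ (a b : ℕ → E) (t : ℕ → ℝ) (ε : ℝ), GlH a b t ε → Pt t →
        ‖inner ℂ (x a) (M.wd a w M.Ω) - ∫ l, inner ℂ (x b) (M.wdL b t l w M.Ω) ∂(gaussianReal 0 1)‖ ≤ C * ε := by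
    intro x Pt h
    obtain ⟨C, hC, H⟩ := M.gl_comb 1 1 (M.gl_ind h w false []) (M.gl_ind h w true [])
    refine ⟨C, hC, fun a b t ε h1 h2 => ?_⟩
    have := H a b t ε h1 h2
    simp only [one_smul, glT, ofReal_zero, zero_mul, mul_zero, neg_zero, Complex.exp_zero, ← e0] at this
    exact this
  obtain ⟨C, hC, H⟩ := key _ _ M.gl_base0
  obtain ⟨C', hC', H'⟩ := key _ _ M.gl_base1
  refine ⟨C + C', by linarith, fun a b t ε h1 h2 => ?_⟩
  have hε : 0 ≤ ε := (norm_nonneg _).trans (h2 0 0)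
  exact ⟨(H a b t ε ⟨h1, h2⟩ trivial).trans (by nlinarith), fun h => (H' a b t ε ⟨h1, h2⟩ h).trans (by nlinarith)⟩

end Model
end Crest.Agent.R339
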