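import Crest.Agent.R339.D1.Word

/-! # Row 339, block D1: Gram bookkeeping (statements frozen) -/

set_option autoImplicit false
open MeasureTheory ProbabilityTheory Filter Topology Complex
open Crest.MathPhysics.SpinGlass

namespace Crest.Agent.R339
variable {E K : Type} [NormedAddCommGroup E] [InnerProductSpace ℂ E]
  [NormedAddCommGroup K] [InnerProductSpace ℂ K] [CompleteSpace K]
namespace Model
variable (M : Model E K)
variable {j0 : K →ₗᵢ[ℂ] E} (j : Lp K 2 (gaussianReal 0 1) →ₗᵢ[ℂ] E) (Sp : M.Spike j0)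

theorem norm_jp (β : ℝ) (x : K) : ‖M.jp Sp β x‖ = ‖x‖ := by
  unfold jp
  rw [j0.norm_map, unit_norm (Unitary.star_mem (Sp.reach β).mem)]
theorem inner_jp (β : ℝ) (x y : K) : inner ℂ (M.jp Sp β x) (M.jp Sp β y) = inner ℂ x y := by
  unfold jp
  rw [j0.inner_map_map, unit_inner (Unitary.star_mem (Sp.reach β).mem)]
theorem jp_add (β : ℝ) (x y : K) : M.jp Sp β (x + y) = M.jp Sp β x + M.jp Sp β y := by
  simp only [jp, map_add]
theorem jp_sub (β : ℝ) (x y : K) : M.jp Sp β (x - y) = M.jp Sp β x - M.jp Sp β y := by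
  simp only [jp, map_sub]
theorem jp_smul (β : ℝ) (c : ℂ) (x : K) : M.jp Sp β (c • x) = c • M.jp Sp β x := by
  simp only [jp, map_smul]
theorem norm_xb (β : ℝ) : ‖M.xb Sp β‖ = 1 := by
  unfold xb
  rw [norm_smul, Sp.θ0_norm, unit_norm (M.WY_mem _), M.norm_Ω, one_mul]
theorem norm_pref (β : ℝ) (a : ℕ → E) (w' : List It) : ‖M.pref Sp β a w'‖ = 1 := by
  unfold pref
  rw [unit_norm (Unitary.star_mem (M.wd_mem a w')), unit_norm M.Z_mem, unit_norm (M.wd_mem a w'), norm_xb]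
theorem norm_fh {β : ℝ} (h0 : 0 < β) (h1 : β ≤ 1 / 2) : ‖M.fh Sp β‖ = 1 := by
  have hs : 0 < Real.sin β := Real.sin_pos_of_pos_of_lt_pi h0 (by linarith [Real.pi_gt_three])
  unfold fh xS
  rw [norm_smul, norm_jp, unit_norm M.Z_mem, Sp.norm_xS β h0 h1, Complex.norm_real, Real.norm_eq_abs,
    abs_of_pos (inv_pos.2 hs), inv_mul_cancel₀ hs.ne']
theorem xb_comb {β : ℝ} (h0 : 0 < β) (h1 : β ≤ 1 / 2) : M.Comb 8 3 (M.xb Sp β) := by
  have h2 := (GG_facts.1 β h0 (by linarith)).2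
  have h3 := Sp.κ_le β h0 h1
  have h4 : ‖Sp.κ β‖ ≤ 3 := by nlinarith
  have h5 := Comb.smul M (Comb.WY M M.comb_Ω (Sp.κ β)) (Sp.θ0_norm β).le
  exact Comb.mono M h5 (by norm_num) (by linarith)
theorem pref_comb (w' : List It) : ∃ (n : ℕ) (R : ℝ), ∀ β, 0 < β → β ≤ 1 / 2 → ∀ a : ℕ → E,
    (∀ i, ‖a i‖ ≤ 2) → M.Comb n R (M.pref Sp β a w') := by
  obtain ⟨n1, R1, -, h1⟩ := M.wd_comb w' 8 3
  obtain ⟨n2, R2, -, h2⟩ := M.wd_comb (winv w') n1 R1
  refine ⟨n2, R2, fun β h0 hβ a ha => ?_⟩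
  unfold pref
  rw [← M.wd_winv]
  exact h2 a ha _ (Comb.Z M (h1 a ha _ (M.xb_comb Sp h0 hβ)))
theorem pref_congr (β : ℝ) {a a' : ℕ → E} {n : ℕ} {w' : List It} (hw : WIn n w')
    (h : ∀ i, 2 ≤ i → i < n → a i = a' i) : M.pref Sp β a w' = M.pref Sp β a' w' := by
  unfold pref
  rw [M.wd_congr hw h]
theorem zsum_congr (β : ℝ) {a a' : ℕ → E} {n : ℕ} {zs : List (ℝ × List It)}
    (hw : ∀ z ∈ zs, WIn n z.2) (h : ∀ i, 2 ≤ i → i < n → a i = a' i) :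
    M.zsum Sp β a zs = M.zsum Sp β a' zs := by
  unfold zsum
  congr 1
  refine List.map_congr_left fun z hz => ?_
  rw [M.pref_congr Sp β (hw z hz) h]
theorem Tab.mono {D : SimData E} {β C C' : ℝ} {a : ℕ → E} (h : M.Tab Sp D β C a) (hβ : 0 ≤ β)
    (hC : C ≤ C') : M.Tab Sp D β C' a := by
  have hm : C * β ≤ C' * β := mul_le_mul_of_nonneg_right hC hβ
  exact ⟨h.a0, h.a1, h.null, h.bd, fun i i' => (h.gram i i').trans hm,
    fun i w' h1 h2 h3 => (h.cost i w' h1 h2 h3).trans hm, fun i h1 h2 h3 => (h.phase i h1 h2 h3).trans hm⟩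
theorem Ideal.bd {D : SimData E} {V : ℝ → K →L[ℂ] K} (hD : M.Ideal j D V) (i : ℕ) :
    ‖D.b i‖ ≤ 2 ∧ |D.t i| ≤ 2 := by
  by_cases hi : i < 2 ∨ D.n ≤ i
  · obtain ⟨h1, h2⟩ := hD.null i hi
    rw [h1, h2]; simp
  · push Not at hi
    rcases hk : D.kind i with _ | w'
    · obtain ⟨h1, h2⟩ := hD.phase i hi.1 hi.2 hk
      rw [h1, h2]; simp
    · obtain ⟨-, h1, h2⟩ := hD.cost i w' hi.1 hi.2 hk
      rw [h1, h2, M.norm_idir]; simp
theorem g2_gl (hgl : M.S_GL) {D : SimData E} {V : ℝ → K →L[ℂ] K} (hD : M.Ideal j D V)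
    (w : List It) (C : ℝ) : ∃ C' : ℝ, 0 ≤ C' ∧ ∀ β, 0 < β → ∀ a, M.Tab Sp D β C a →
      ‖inner ℂ M.Ω (M.wd a w M.Ω) -
        ∫ l, inner ℂ M.Ω (M.wdL D.b D.t l w M.Ω) ∂(gaussianReal 0 1)‖ ≤ C' * β := by
  obtain ⟨C0, hC0, h⟩ := hgl w
  refine ⟨C0 * |C|, by positivity, fun β hβ a ha => ?_⟩
  refine (h a D.b D.t (C * β) (fun i => ⟨ha.bd i, Ideal.bd M j hD i⟩) ha.gram).1.trans ?_
  rw [mul_assoc]
  exact mul_le_mul_of_nonneg_left (mul_le_mul_of_nonneg_right (le_abs_self C) hβ.le) hC0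

theorem g2_z (a : ℕ → E) : M.wd a [.z] = M.Z := by
  rw [wd_cons, wd_nil, mul_one]; rfl

theorem g2_zL (b : ℕ → E) (t : ℕ → ℝ) (l : ℝ) : M.wdL b t l [.z] = M.Z := by
  rw [wdL_cons, wdL_nil, mul_one]; rfl

theorem g2_wy {D : SimData E} {β C : ℝ} {a : ℕ → E} (ha : M.Tab Sp D β C a) :
    M.wd a [.rx (-(Real.pi / 4)), .w 1 1, .rx (Real.pi / 4)] = M.WY (Sp.κ β) := by
  rw [wd_WY, ha.a1]; simp

theorem g2_wyL {D : SimData E} {V : ℝ → K →L[ℂ] K} (hD : M.Ideal j D V) (l : ℝ) :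
    M.wdL D.b D.t l [.rx (-(Real.pi / 4)), .w 1 1, .rx (Real.pi / 4)] = 1 := by
  obtain ⟨h1, h2⟩ := hD.null 1 (Or.inl one_lt_two)
  rw [wdL_cons, wdL_cons, wdL_cons, wdL_nil]
  simp only [itOpL, h1, h2, smul_zero, mul_zero, zero_mul, WZ_zero, RZ_zero, mul_one, one_mul]
  exact M.a4_RX_inv'

theorem g2_sa (A : K →L[ℂ] K) (x y : K) :
    inner ℂ (star A (M.Z (A x))) y = inner ℂ x (star A (M.Z (A y))) := by
  rw [inner_star_left, inner_star_right]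
  conv_lhs => rw [← M.Z_star]
  rw [inner_star_left]

omit [CompleteSpace K] in
theorem g2_θ {θ : ℂ} (hθ : ‖θ‖ = 1) (x y : K) : inner ℂ (θ • x) (θ • y) = inner ℂ x y := by
  rw [inner_smul_left, inner_smul_right, ← mul_assoc, Complex.conj_mul', hθ]
  simp

theorem g2_pref (β : ℝ) (a : ℕ → E) (w : List It) : M.pref Sp β a w =
    Sp.θ0 β • star (M.wd a w) (M.Z (M.wd a w (M.WY (Sp.κ β) M.Ω))) := by
  simp only [pref, xb, map_smul]

/-- `S_GL` for the word `WY κ* (w₁* Z w₁)(w₂* Z w₂) WY κ` (`wd_WY` with index `1`, `winv`). -/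
theorem gram_pref (hgl : M.S_GL) {D : SimData E} {V : ℝ → K →L[ℂ] K} (hD : M.Ideal j D V)
    (w1 w2 : List It) (C : ℝ) : ∃ C' : ℝ, 0 ≤ C' ∧ ∀ β, 0 < β → β ≤ 1 / 2 → ∀ a,
      M.Tab Sp D β C a → ‖inner ℂ (M.pref Sp β a w1) (M.pref Sp β a w2) -
        inner ℂ (M.idir j D w1) (M.idir j D w2)‖ ≤ C' * β := by
  obtain ⟨wy, hwy⟩ : ∃ wy : List It, wy = [.rx (-(Real.pi / 4)), .w 1 1, .rx (Real.pi / 4)] := ⟨_, rfl⟩
  obtain ⟨C', hC', h⟩ := M.g2_gl j Sp hgl hD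
    (winv wy ++ (winv w1 ++ ([.z] ++ (w1 ++ (winv w2 ++ ([.z] ++ (w2 ++ wy))))))) C
  refine ⟨C', hC', fun β hβ _ a ha => ?_⟩
  have h1 := h β hβ a ha
  have e1 : M.wd a wy = M.WY (Sp.κ β) := hwy ▸ M.g2_wy Sp ha
  have e2 : ∀ l, M.wdL D.b D.t l wy = 1 := fun l => hwy ▸ M.g2_wyL j hD l
  simp only [wd_append, wdL_append, wd_winv, wdL_winv, g2_z, g2_zL, e1, e2, star_one, one_mul, mul_one,
    mul_apply_eq_comp] at h1
  rw [g2_pref, g2_pref, g2_θ (Sp.θ0_norm β), g2_sa, ← inner_star_right, idir, idir,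
    JJ_inner j (M.memLp_psi_wdL _ _ _) (M.memLp_psi_wdL _ _ _)]
  simp only [psi, g2_sa]
  exact h1
/-- `V0 YΩ = θ0 WY κ YΩ + O(β)`, `YΩ = -i ZΩ`, `WY κ Z = Z WY (-κ)`. -/
theorem gram_Y (hgl : M.S_GL) {D : SimData E} {V : ℝ → K →L[ℂ] K} (hD : M.Ideal j D V)
    (w1 : List It) (C : ℝ) : ∃ C' : ℝ, 0 ≤ C' ∧ ∀ β, 0 < β → β ≤ 1 / 2 → ∀ a,
      M.Tab Sp D β C a →
      |(inner ℂ (M.jp Sp β (M.pref Sp β a w1)) (j0 (M.Y M.Ω))).im +
        M.cL (fun l => M.wdL D.b D.t l w1)| ≤ C' * β := by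
  obtain ⟨wy, hwy⟩ : ∃ wy : List It, wy = [.rx (-(Real.pi / 4)), .w 1 1, .rx (Real.pi / 4)] := ⟨_, rfl⟩
  obtain ⟨C', hC', h⟩ := M.g2_gl j Sp hgl hD
    (winv wy ++ (winv w1 ++ ([.z] ++ (w1 ++ (wy ++ [.z]))))) C
  refine ⟨C' + 2, by positivity, fun β hβ hβ' a ha => ?_⟩
  have h1 := h β hβ a ha
  have e1 : M.wd a wy = M.WY (Sp.κ β) := hwy ▸ M.g2_wy Sp ha
  have e2 : ∀ l, M.wdL D.b D.t l wy = 1 := fun l => hwy ▸ M.g2_wyL j hD l
  simp only [wd_append, wdL_append, wd_winv, wdL_winv, g2_z, g2_zL, e1, e2, star_one, one_mul,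
    mul_apply_eq_comp] at h1
  have e3 : M.cL (fun l => M.wdL D.b D.t l w1) = (∫ l, inner ℂ M.Ω (star (M.wdL D.b D.t l w1)
      (M.Z (M.wdL D.b D.t l w1 (M.Z M.Ω)))) ∂(gaussianReal 0 1)).re := by
    rw [cL, ← Complex.conj_re, ← integral_conj]
    simp only [inner_conj_symm, psi, g2_sa]
  have h2 : ‖inner ℂ (M.pref Sp β a w1) (Sp.V0 β (M.Y M.Ω)) -
      inner ℂ (M.pref Sp β a w1) ((Sp.θ0 β • M.WY (Sp.κ β)) (M.Y M.Ω))‖ ≤ 2 * β := by
    rw [← inner_sub_right, ← sub_apply]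
    refine (norm_inner_le_norm _ _).trans ?_
    rw [norm_pref, one_mul]
    refine (ContinuousLinearMap.le_opNorm _ _).trans ?_
    rw [unit_norm M.Y_mem, M.norm_Ω, mul_one]
    exact Sp.op β hβ hβ'
  have e4 : inner ℂ (M.pref Sp β a w1) ((Sp.θ0 β • M.WY (Sp.κ β)) (M.Y M.Ω)) =
      -I * inner ℂ M.Ω (star (M.WY (Sp.κ β)) (star (M.wd a w1) (M.Z (M.wd a w1
        (M.WY (Sp.κ β) (M.Z M.Ω)))))) := by
    rw [g2_pref, smul_apply, g2_θ (Sp.θ0_norm β), Y_Ω, map_smul, inner_smul_right, g2_sa,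
      ← inner_star_right]
  rw [jp, LinearIsometry.inner_map_map, inner_star_left, e3]
  rw [e4] at h2
  have h3 := (Complex.abs_re_le_norm _).trans h1
  have h4 := (Complex.abs_im_le_norm _).trans h2
  simp only [Complex.sub_re, Complex.sub_im, Complex.mul_im, Complex.neg_re, Complex.neg_im, Complex.I_re,
    Complex.I_im, neg_zero, zero_mul, zero_add] at h3 h4
  rw [abs_le] at h3 h4 ⊢
  constructor <;> linarith [h3.1, h3.2, h4.1, h4.2]
theorem _root_.Crest.Agent.R339.g3_unif (P : ℕ → ℝ → ℝ → Prop)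
    (hm : ∀ i C C' β, 0 < β → C ≤ C' → P i C β → P i C' β)
    (h : ∀ i, ∃ C : ℝ, 0 ≤ C ∧ ∃ β0 > (0 : ℝ), ∀ β, 0 < β → β ≤ β0 → P i C β) (n : ℕ) :
    ∃ C : ℝ, 0 ≤ C ∧ ∃ β0 > (0 : ℝ), ∀ β, 0 < β → β ≤ β0 → ∀ i < n, P i C β := by
  induction n with
  | zero => exact ⟨0, le_rfl, 1, one_pos, fun β _ _ i hi => absurd hi (Nat.not_lt_zero i)⟩
  | succ n ih =>
    obtain ⟨C1, hC1, b1, hb1, h1⟩ := ih
    obtain ⟨C2, -, b2, hb2, h2⟩ := h n
    refine ⟨max C1 C2, le_max_of_le_left hC1, min b1 b2, lt_min hb1 hb2, fun β h0 hβ i hi => ?_⟩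
    rcases Nat.lt_succ_iff_lt_or_eq.1 hi with hi | rfl
    · exact hm _ _ _ _ h0 (le_max_left _ _) (h1 β h0 (hβ.trans (min_le_left _ _)) i hi)
    · exact hm _ _ _ _ h0 (le_max_right _ _) (h2 β h0 (hβ.trans (min_le_right _ _)))

theorem _root_.Crest.Agent.R339.g3_sin {β c : ℝ} (h0 : 0 < β) (h1 : β ≤ 1 / 2) (hc : 0 ≤ c) :
    ‖(((Real.sin β)⁻¹ : ℝ) : ℂ)‖ * (c * β ^ 2) ≤ 2 * c * β := by
  have h2 := Real.sin_gt_sub_cube h0
  have h3 : β / 2 ≤ Real.sin β := by nlinarith [mul_pos h0 h0]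
  have hs : 0 < Real.sin β := by linarith
  rw [Complex.norm_real, Real.norm_eq_abs, abs_of_pos (inv_pos.2 hs), inv_mul_le_iff₀ hs]
  have h4 : 0 ≤ c * β := mul_nonneg hc h0.le
  nlinarith

omit [CompleteSpace K] in
theorem _root_.Crest.Agent.R339.g3_split (x y x' y' : E) (z : ℂ) {A B c : ℝ} (hx : ‖x‖ ≤ 2)
    (hy : ‖y'‖ = 1) (h1 : ‖y - y'‖ ≤ A) (h2 : ‖x - x'‖ ≤ B) (h3 : ‖inner ℂ x' y' - z‖ ≤ c) :
    ‖inner ℂ x y - z‖ ≤ 2 * A + B + c := by
  have e : inner ℂ x y - z = inner ℂ x (y - y') + inner ℂ (x - x') y' + (inner ℂ x' y' - z) := by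
    rw [inner_sub_right, inner_sub_left]; ring
  rw [e]
  have a1 : ‖inner ℂ x (y - y')‖ ≤ 2 * A :=
    (norm_inner_le_norm _ _).trans (mul_le_mul hx h1 (norm_nonneg _) (by norm_num))
  have a2 : ‖inner ℂ (x - x') y'‖ ≤ B := (norm_inner_le_norm _ _).trans (by rw [hy, mul_one]; exact h2)
  exact (norm_add₃_le).trans (by linarith)

/-- the label direction is almost orthogonal to the cost directions. -/
theorem g3_fh (w' : List It) : ∃ C : ℝ, 0 ≤ C ∧ ∃ β0 > (0 : ℝ), ∀ β, 0 < β → β ≤ β0 → ∀ a : ℕ → E,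
    (∀ i, ‖a i‖ ≤ 2) → ‖inner ℂ (M.fh Sp β) (M.jp Sp β (M.pref Sp β a w'))‖ ≤ C * β := by
  obtain ⟨n, R, h1⟩ := M.pref_comb Sp w'
  obtain ⟨C, hC, b, hb, h2⟩ := Sp.cross n R
  refine ⟨2 * C, by positivity, min b (1 / 2), lt_min hb (by norm_num), fun β h0 hβ a ha => ?_⟩
  have hβ2 := hβ.trans (min_le_right _ _)
  have h3 := h2 β h0 (hβ.trans (min_le_left _ _)) _ (h1 β h0 hβ2 a ha)
  unfold fh xS
  rw [inner_smul_left, inner_jp, norm_mul, Complex.conj_ofReal]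
  exact (mul_le_mul_of_nonneg_left h3 (norm_nonneg _)).trans (g3_sin h0 hβ2 hC)

/-- Gram entries of a new cost direction (cases: null, `κ` (`Sp.κ_comb`), cost (`gram_pref`),
phase (`Sp.cross`, `sin β ≥ β/2`)). -/
theorem gram_new (hgl : M.S_GL) {D : SimData E} {V : ℝ → K →L[ℂ] K} (hD : M.Ideal j D V)
    (w' : List It) (C : ℝ) : ∃ C' : ℝ, 0 ≤ C' ∧ ∃ β0 > (0 : ℝ), ∀ β, 0 < β → β ≤ β0 → ∀ a d,
      M.Tab Sp D β C a → ‖d‖ = 1 → ‖d - M.jp Sp β (M.pref Sp β a w')‖ ≤ C * β →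
      ∀ i, ‖inner ℂ (a i) d - inner ℂ (D.b i) (M.idir j D w')‖ ≤ C' * β := by
  have hp : ∀ β a, ‖M.jp Sp β (M.pref Sp β a w')‖ = 1 := fun β a => by rw [norm_jp, norm_pref]
  have hC : ∀ β, 0 < β → C * β ≤ |C| * β := fun β h0 =>
    mul_le_mul_of_nonneg_right (le_abs_self C) h0.le
  have hC0 := abs_nonneg C
  obtain ⟨C', hC', β0, hβ0, h⟩ := g3_unif (fun i C' β => ∀ a d, M.Tab Sp D β C a →
      ‖d - M.jp Sp β (M.pref Sp β a w')‖ ≤ C * β → i < D.n →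
      ‖inner ℂ (a i) d - inner ℂ (D.b i) (M.idir j D w')‖ ≤ C' * β)
    (fun i C1 C2 β h0 h12 h a d ha hd hi =>
      (h a d ha hd hi).trans (mul_le_mul_of_nonneg_right h12 h0.le))
    (fun i => by
      rcases Nat.lt_or_ge i 2 with hi | hi
      · have hb := (hD.null i (Or.inl hi)).1
        interval_cases i
        · exact ⟨0, le_rfl, 1, one_pos, fun β _ _ a d ha _ _ => by simp [ha.a0, hb]⟩
        · obtain ⟨n, R, h1⟩ := M.pref_comb Sp w'
          obtain ⟨C1, hC1, b, hb0, h2⟩ := Sp.κ_comb n R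
          refine ⟨2 * |C| + C1, by positivity, min b (1 / 2), lt_min hb0 (by norm_num),
            fun β h0 hβ a d ha hd _ => ?_⟩
          have h3 := h2 β h0 (hβ.trans (min_le_left _ _)) _
            (h1 β h0 (hβ.trans (min_le_right _ _)) a ha.bd)
          have h4 := g3_split (a 1) d (Sp.κ β) _ 0 (B := 0) (c := C1 * β) (ha.bd 1) (hp β a)
            (hd.trans (hC β h0)) (by simp [ha.a1]) (by rw [sub_zero]; exact h3)
          rw [hb, inner_zero_left]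
          linarith
      · rcases hk : D.kind i with _ | w''
        · obtain ⟨C1, hC1, b, hb0, h2⟩ := M.g3_fh Sp w'
          refine ⟨3 * |C| + C1, by positivity, b, hb0, fun β h0 hβ a d ha hd hin => ?_⟩
          have h4 := g3_split (a i) d (M.fh Sp β) _ 0 (c := C1 * β) (ha.bd i) (hp β a)
            (hd.trans (hC β h0)) ((ha.phase i hi hin hk).trans (hC β h0))
            (by rw [sub_zero]; exact h2 β h0 hβ a ha.bd)
          rw [(hD.phase i hi hin hk).1, inner_zero_left]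
          linarith
        · obtain ⟨C1, hC1, h2⟩ := M.gram_pref j Sp hgl hD w'' w' C
          refine ⟨3 * |C| + C1, by positivity, 1 / 2, by norm_num, fun β h0 hβ a d ha hd hin => ?_⟩
          have h4 := g3_split (a i) d _ _ (inner ℂ (M.idir j D w'') (M.idir j D w')) (c := C1 * β)
            (ha.bd i) (hp β a) (hd.trans (hC β h0)) ((ha.cost i w'' hi hin hk).trans (hC β h0))
            (by rw [inner_jp]; exact h2 β h0 hβ a ha)
          rw [(hD.cost i w'' hi hin hk).2.2]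
          linarith) D.n
  refine ⟨C', hC', β0, hβ0, fun β h0 hβ a d ha _ hd i => ?_⟩
  rcases Nat.lt_or_ge i D.n with hi | hi
  · exact h β h0 hβ i hi a d ha hd hi
  · rw [ha.null i hi, (hD.null i (Or.inr hi)).1, inner_zero_left, inner_zero_left, sub_zero, norm_zero]
    positivity
/-- Gram entries of a new phase direction (`Sp.κ_xS`, `Sp.cross`). -/
theorem gram_newg {D : SimData E} {V : ℝ → K →L[ℂ] K} (hD : M.Ideal j D V) (C : ℝ) :
    ∃ C' : ℝ, 0 ≤ C' ∧ ∃ β0 > (0 : ℝ), ∀ β, 0 < β → β ≤ β0 → ∀ a g,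
      M.Tab Sp D β C a → ‖g - M.fh Sp β‖ ≤ C * β →
      ‖g‖ ≤ 2 ∧ ‖inner ℂ g g - 1‖ ≤ C' * β ∧
      ∀ i, ‖inner ℂ (a i) g - ((D.t i : ℝ) : ℂ)‖ ≤ C' * β := by
  have hC : ∀ β, 0 < β → C * β ≤ |C| * β := fun β h0 =>
    mul_le_mul_of_nonneg_right (le_abs_self C) h0.le
  have hC0 := abs_nonneg C
  have hff : ∀ β, 0 < β → β ≤ 1 / 2 → ‖inner ℂ (M.fh Sp β) (M.fh Sp β) - 1‖ ≤ 0 := fun β h0 h1 => by
    rw [inner_self_eq_norm_sq_to_K, M.norm_fh Sp h0 h1]; simp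
  obtain ⟨C', hC', β0, hβ0, h⟩ := g3_unif (fun i C' β => ∀ a g, M.Tab Sp D β C a →
      ‖g - M.fh Sp β‖ ≤ C * β → i < D.n → β ≤ 1 / 2 →
      ‖inner ℂ (a i) g - ((D.t i : ℝ) : ℂ)‖ ≤ C' * β)
    (fun i C1 C2 β h0 h12 h a d ha hd hi h2 =>
      (h a d ha hd hi h2).trans (mul_le_mul_of_nonneg_right h12 h0.le))
    (fun i => by
      rcases Nat.lt_or_ge i 2 with hi | hi
      · have hb := (hD.null i (Or.inl hi)).2
        interval_cases i
        · exact ⟨0, le_rfl, 1, one_pos, fun β _ _ a d ha _ _ _ => by simp [ha.a0, hb]⟩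
        · obtain ⟨C1, hC1, b, hb0, h2⟩ := Sp.κ_xS
          refine ⟨2 * |C| + 2 * C1, by positivity, b, hb0, fun β h0 hβ a g ha hd _ hβ2 => ?_⟩
          have h3 : ‖inner ℂ (Sp.κ β) (M.fh Sp β) - 0‖ ≤ 2 * C1 * β := by
            unfold fh xS jp
            rw [sub_zero, inner_smul_right, norm_mul]
            exact (mul_le_mul_of_nonneg_left (h2 β h0 hβ) (norm_nonneg _)).trans (g3_sin h0 hβ2 hC1)
          have h4 := g3_split (a 1) g (Sp.κ β) _ 0 (B := 0) (ha.bd 1) (M.norm_fh Sp h0 hβ2)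
            (hd.trans (hC β h0)) (by simp [ha.a1]) h3
          rw [hb, Complex.ofReal_zero]
          linarith
      · rcases hk : D.kind i with _ | w''
        · refine ⟨3 * |C|, by positivity, 1, one_pos, fun β h0 hβ a g ha hd hin hβ2 => ?_⟩
          have h4 := g3_split (a i) g (M.fh Sp β) _ 1 (ha.bd i) (M.norm_fh Sp h0 hβ2)
            (hd.trans (hC β h0)) ((ha.phase i hi hin hk).trans (hC β h0)) (hff β h0 hβ2)
          rw [(hD.phase i hi hin hk).2, Complex.ofReal_one]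
          linarith
        · obtain ⟨C1, hC1, b, hb0, h2⟩ := M.g3_fh Sp w''
          refine ⟨3 * |C| + C1, by positivity, b, hb0, fun β h0 hβ a g ha hd hin hβ2 => ?_⟩
          have h4 := g3_split (a i) g _ _ 0 (c := C1 * β) (ha.bd i) (M.norm_fh Sp h0 hβ2)
            (hd.trans (hC β h0)) ((ha.cost i w'' hi hin hk).trans (hC β h0))
            (by rw [sub_zero, norm_inner_symm]; exact h2 β h0 hβ a ha.bd)
          rw [(hD.cost i w'' hi hin hk).2.1, Complex.ofReal_zero]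
          linarith) D.n
  refine ⟨C' + 3 * |C|, by positivity, min β0 (min (1 / 2) (1 / (|C| + 1))),
    lt_min hβ0 (lt_min (by norm_num) (by positivity)), fun β h0 hβ a g ha hd => ?_⟩
  have hβ1 := hβ.trans (min_le_left _ _)
  have hβ2 := (hβ.trans (min_le_right _ _)).trans (min_le_left _ _)
  have hβ3 := (hβ.trans (min_le_right _ _)).trans (min_le_right _ _)
  have hd' := hd.trans (hC β h0)
  have h1 : |C| * β ≤ 1 := by
    rw [le_div_iff₀ (by positivity)] at hβ3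
    nlinarith
  have hg : ‖g‖ ≤ 2 := by
    have := norm_sub_norm_le g (M.fh Sp β)
    rw [M.norm_fh Sp h0 hβ2] at this
    linarith
  have h5 : 0 ≤ C' * β := mul_nonneg hC' h0.le
  have h6 : 0 ≤ |C| * β := mul_nonneg hC0 h0.le
  refine ⟨hg, ?_, fun i => ?_⟩
  · have h4 := g3_split g g _ _ 1 hg (M.norm_fh Sp h0 hβ2) hd' hd' (hff β h0 hβ2)
    linarith
  · rcases Nat.lt_or_ge i D.n with hi | hi
    · have := h β h0 hβ1 i hi a g ha hd hi hβ2
      linarith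
    · rw [ha.null i hi, (hD.null i (Or.inr hi)).2, inner_zero_left, Complex.ofReal_zero, sub_zero,
        norm_zero]
      linarith

end Model
end Crest.Agent.R339
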