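import Crest.Agent.R339.D1.Defs

/-! # Row 339, block D1: the selecting function -/

set_option autoImplicit false
open MeasureTheory ProbabilityTheory Filter Topology Complex
open Crest.MathPhysics.SpinGlass

namespace Crest.Agent.R339
variable {E K : Type} [NormedAddCommGroup E] [InnerProductSpace ℂ E]
  [NormedAddCommGroup K] [InnerProductSpace ℂ K] [CompleteSpace K]
namespace Model
variable (M : Model E K)

theorem sel_deriv (ω : ℝ) (L : List (ℝ × ℕ)) (h : ℝ) : HasDerivAt (cosF ω L) (dF ω L h) h := by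
  induction L with
  | nil => exact hasDerivAt_const h 0
  | cons t L ih =>
    have := ((((hasDerivAt_id h).const_mul (t.2 * ω : ℝ)).cos).const_mul t.1).add ih
    refine this.congr_deriv ?_
    simp only [dF, List.map_cons, List.sum_cons, id]
    ring

theorem sel_append (ω : ℝ) (L L' : List (ℝ × ℕ)) (h : ℝ) : cosF ω (L ++ L') h = cosF ω L h + cosF ω L' h := by
  simp [cosF]

theorem sel_mul (ω : ℝ) (L : List (ℝ × ℕ)) : ∃ L', ∀ h, cosF ω L' h = cosF ω L h * Real.cos (ω * h) := by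
  induction L with
  | nil => exact ⟨[], fun h => by simp [cosF]⟩
  | cons t L ih =>
    obtain ⟨L', hL'⟩ := ih
    obtain ⟨c, _ | n⟩ := t
    · refine ⟨(c, 1) :: L', fun h => ?_⟩
      have := hL' h
      simp only [cosF, List.map_cons, List.sum_cons] at this ⊢
      rw [this]
      simp [add_mul]
    · refine ⟨(c / 2, n + 2) :: (c / 2, n) :: L', fun h => ?_⟩
      have := hL' h
      simp only [cosF, List.map_cons, List.sum_cons] at this ⊢
      rw [this, show ((n + 2 : ℕ) : ℝ) * ω * h = ((n + 1 : ℕ) : ℝ) * ω * h + ω * h by push_cast; ring,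
        show (n : ℝ) * ω * h = ((n + 1 : ℕ) : ℝ) * ω * h - ω * h by push_cast; ring, Real.cos_add, Real.cos_sub]
      ring

theorem sel_list (ω : ℝ) (p : Polynomial ℝ) : ∃ L, ∀ h, cosF ω L h = p.eval (Real.cos (ω * h)) := by
  induction p using Polynomial.induction_on with
  | C a => exact ⟨[(a, 0)], fun h => by simp [cosF]⟩
  | add p q hp hq =>
    obtain ⟨L, hL⟩ := hp
    obtain ⟨L', hL'⟩ := hq
    exact ⟨L ++ L', fun h => by rw [sel_append, hL, hL', Polynomial.eval_add]⟩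
  | monomial n a ih =>
    obtain ⟨L, hL⟩ := ih
    obtain ⟨L', hL'⟩ := sel_mul ω L
    exact ⟨L', fun h => by rw [hL', hL, pow_succ, ← mul_assoc, Polynomial.eval_mul (q := Polynomial.X),
      Polynomial.eval_X]⟩

theorem sel_anti (q : Polynomial ℝ) : ∃ p : Polynomial ℝ, p.derivative = q := by
  induction q using Polynomial.induction_on' with
  | add p q hp hq =>
    obtain ⟨p, rfl⟩ := hp
    obtain ⟨q, rfl⟩ := hq
    exact ⟨p + q, map_add _ _ _⟩
  | monomial n a =>
    refine ⟨Polynomial.monomial (n + 1) (a / (n + 1)), ?_⟩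
    rw [Polynomial.derivative_monomial_succ, div_mul_cancel₀ _ (by positivity)]

theorem sel_mv {f f' : ℝ → ℝ} {a b ε : ℝ} (ha : -1 ≤ a) (hb : b ≤ 1) (hf : ∀ x, HasDerivAt f (f' x) x)
    (h : ∀ x ∈ Set.Icc a b, |f' x| ≤ ε) {x : ℝ} (hx : x ∈ Set.Icc a b) : |f x - f b| ≤ 2 * ε := by
  have h1 := (convex_Icc a b).norm_image_sub_le_of_norm_hasDerivWithin_le (fun x _ => (hf x).hasDerivWithinAt) h
    ⟨hx.1.trans hx.2, le_rfl⟩ hx
  have h2 : ‖x - b‖ ≤ 2 := abs_le.2 ⟨by linarith [hx.1], by linarith [hx.2]⟩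
  exact h1.trans ((mul_le_mul_of_nonneg_left h2 ((abs_nonneg _).trans (h x hx))).trans_eq (mul_comm _ _))

theorem sel_poly {c₂ c₁ ε : ℝ} (h2 : -1 ≤ c₂) (h21 : c₂ < c₁) (h1 : c₁ ≤ 1) (hε : 0 < ε) : ∃ p : Polynomial ℝ,
    (∀ x ∈ Set.Icc c₁ 1, |p.eval x| ≤ 2 * ε ∧ |p.derivative.eval x| ≤ ε) ∧
    (∀ x ∈ Set.Icc c₂ c₁, |p.eval x| ≤ 1 + 4 * ε ∧ |p.derivative.eval x| ≤ 3 / (2 * (c₁ - c₂)) + ε) ∧
    ∀ x ∈ Set.Icc (-1) c₂, |p.eval x - 1| ≤ 6 * ε ∧ |p.derivative.eval x| ≤ ε := by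
  have hd : 0 < c₁ - c₂ := sub_pos.2 h21
  set τ : ℝ → ℝ := fun x => (c₁ - x) / (c₁ - c₂) with hτ
  set ψ : ℝ → ℝ := fun x => -(6 * max 0 (τ x * (1 - τ x)) / (c₁ - c₂)) with hψ
  obtain ⟨q, hq⟩ := exists_polynomial_near_of_continuousOn (-1) 1 ψ (by fun_prop) ε hε
  obtain ⟨p₀, rfl⟩ := sel_anti q
  set p := p₀ - Polynomial.C (p₀.eval 1) with hp
  have hp' : p.derivative = p₀.derivative := by simp [hp]
  rw [← hp'] at hq
  have hp1 : p.eval 1 = 0 := by simp [hp]
  clear_value p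
  have hz : ∀ x, τ x * (1 - τ x) ≤ 0 → ψ x = 0 := fun x hx => by
    simp only [hψ, max_eq_left hx, mul_zero, zero_div, neg_zero]
  have a1 : ∀ x ∈ Set.Icc c₁ 1, |p.derivative.eval x| ≤ ε := fun x hx => by
    have := (hq x ⟨by linarith [hx.1], hx.2⟩).le
    have h0 : τ x ≤ 0 := div_nonpos_of_nonpos_of_nonneg (by linarith [hx.1]) hd.le
    rwa [hz x (mul_nonpos_of_nonpos_of_nonneg h0 (by linarith)), sub_zero] at this
  have a3 : ∀ x ∈ Set.Icc (-1) c₂, |p.derivative.eval x| ≤ ε := fun x hx => by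
    have := (hq x ⟨hx.1, by linarith [hx.2]⟩).le
    have h0 : 1 ≤ τ x := (one_le_div hd).2 (by linarith [hx.2])
    rwa [hz x (mul_nonpos_of_nonneg_of_nonpos (by linarith) (by linarith)), sub_zero] at this
  have hτ01 : ∀ x ∈ Set.Icc c₂ c₁, 0 ≤ τ x ∧ τ x ≤ 1 := fun x hx =>
    ⟨div_nonneg (by linarith [hx.2]) hd.le, (div_le_one hd).2 (by linarith [hx.1])⟩
  have a2 : ∀ x ∈ Set.Icc c₂ c₁, |p.derivative.eval x + 6 * (τ x * (1 - τ x)) / (c₁ - c₂)| ≤ ε := fun x hx => by
    have := (hq x ⟨by linarith [hx.1], by linarith [hx.2]⟩).le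
    have h0 := hτ01 x hx
    simpa only [hψ, max_eq_right (mul_nonneg h0.1 (sub_nonneg.2 h0.2)), sub_neg_eq_add] using this
  have b1 : ∀ x ∈ Set.Icc c₁ 1, |p.eval x| ≤ 2 * ε := fun x hx => by
    simpa [hp1] using sel_mv (by linarith) le_rfl p.hasDerivAt a1 hx
  have b2 : ∀ x ∈ Set.Icc c₂ c₁, |p.eval x - (3 * τ x ^ 2 - 2 * τ x ^ 3)| ≤ 4 * ε := fun x hx => by
    have hτd : ∀ y, HasDerivAt τ (-1 / (c₁ - c₂)) y := fun y => ((hasDerivAt_id y).const_sub c₁).div_const _
    have := sel_mv (f := fun y => p.eval y - (3 * τ y ^ 2 - 2 * τ y ^ 3)) h2 h1 (fun y =>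
      ((p.hasDerivAt y).sub ((((hτd y).pow 2).const_mul 3).sub (((hτd y).pow 3).const_mul 2))).congr_deriv (by
        norm_num; ring)) a2 hx
    have h3 := abs_le.1 (b1 c₁ ⟨le_rfl, h1⟩)
    have h4 : τ c₁ = 0 := by simp [hτ]
    simp only [h4] at this
    have := abs_le.1 this
    exact abs_le.2 ⟨by linarith, by linarith⟩
  refine ⟨p, fun x hx => ⟨b1 x hx, a1 x hx⟩, fun x hx => ⟨?_, ?_⟩, fun x hx => ⟨?_, a3 x hx⟩⟩
  · have h3 := abs_le.1 (b2 x hx)
    obtain ⟨t0, t1⟩ := hτ01 x hx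
    have h4 : 0 ≤ τ x ^ 2 * (3 - 2 * τ x) := mul_nonneg (sq_nonneg _) (by linarith)
    have h5 : 0 ≤ (1 - τ x) ^ 2 * (1 + 2 * τ x) := by positivity
    exact abs_le.2 ⟨by nlinarith, by nlinarith⟩
  · have h3 := abs_le.1 (a2 x hx)
    obtain ⟨t0, t1⟩ := hτ01 x hx
    have h4 : 0 ≤ 6 * (τ x * (1 - τ x)) / (c₁ - c₂) := div_nonneg (by nlinarith) hd.le
    have h5 : 6 * (τ x * (1 - τ x)) / (c₁ - c₂) ≤ 3 / (2 * (c₁ - c₂)) := by
      rw [← div_div]
      exact div_le_div_of_nonneg_right (by nlinarith [sq_nonneg (2 * τ x - 1)]) hd.le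
    exact abs_le.2 ⟨by linarith, by linarith⟩
  · have h3 := abs_le.1 (sel_mv le_rfl (by linarith) p.hasDerivAt a3 hx)
    have h4 := abs_le.1 (b2 c₂ ⟨le_rfl, h21.le⟩)
    have h5 : τ c₂ = 1 := div_self hd.ne'
    rw [h5] at h4
    exact abs_le.2 ⟨by linarith, by linarith⟩

/-- `F⋆` even, periodic of period `Pd = 2 Pm + 2`, `F⋆' ` continuous, piecewise linear, odd,
supported in `G/4 ≤ |h| ≤ G/2` (mod `Pd`), `|F⋆'| ≤ 8/G ≤ 1/2`. Approximate `F⋆'` uniformly by a real
trigonometric polynomial (`span_fourier_closure_eq_top` on `AddCircle Pd`, or Stone–Weierstrass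
in `cos (ω h)`: approximate `F⋆ = φ(cos ω h)` by `p(cos ω h)` with `p'` close to `φ'` on `[-1,1]`,
`Polynomial.Chebyshev`/induction turns `p(cos)` into a cosine list), take the odd part, integrate. -/
theorem _root_.Crest.Agent.R339.sel : S_SEL := by
  intro G Pm δ hG hP hδ
  have hPm : 0 < Pm := by linarith
  set ω := Pm⁻¹ with hω
  have hω0 : 0 < ω := inv_pos.2 hPm
  have hω1 : ω * Pm = 1 := inv_mul_cancel₀ hPm.ne'
  have hω2 : ω ≤ 1 := by nlinarith
  set a := ω * G / 4 with ha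
  have ha0 : 0 < a := by positivity
  have ha1 : a ≤ 1 / 4 := by nlinarith
  have hd : a ^ 2 ≤ Real.cos a - Real.cos (2 * a) := by
    have h1 := Real.one_sub_sq_div_two_le_cos (x := a)
    have h2 := (abs_le.1 (Real.cos_bound (x := 2 * a) (by rw [abs_of_pos (by linarith)]; linarith))).2
    rw [abs_of_pos (by linarith)] at h2
    have h3 : a ^ 2 ≤ 1 / 16 := by nlinarith
    nlinarith [mul_le_mul_of_nonneg_left h3 (sq_nonneg a)]
  have ha2 : 0 < a ^ 2 := by positivity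
  set ε := min δ 1 / 6 with hε
  have hε0 : 0 < ε := by positivity
  have hε1 : 6 * ε ≤ δ := by have := min_le_left δ 1; linarith
  have hε2 : 6 * ε ≤ 1 := by have := min_le_right δ 1; linarith
  obtain ⟨p, h1, h2, h3⟩ := sel_poly (Real.neg_one_le_cos (2 * a)) (by linarith) (Real.cos_le_one a) hε0
  obtain ⟨L, hL⟩ := sel_list ω p
  have hD : ∀ h, |dF ω L h| = ω * (|Real.sin (ω * h)| * |p.derivative.eval (Real.cos (ω * h))|) := fun h => by
    have e1 := sel_deriv ω L h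
    rw [show cosF ω L = fun h => p.eval (Real.cos (ω * h)) from funext hL] at e1
    have e2 := (p.hasDerivAt (Real.cos (ω * h))).comp h ((hasDerivAt_id h).const_mul ω).cos
    rw [e1.unique e2]
    simp only [abs_mul, abs_neg, id, mul_one, abs_of_pos hω0]
    ring
  have hs : ∀ h, |p.derivative.eval (Real.cos (ω * h))| ≤ ε → |dF ω L h| ≤ ε := fun h hp => by
    rw [hD]
    exact (mul_le_of_le_one_left (by positivity) hω2).trans
      ((mul_le_of_le_one_left (abs_nonneg _) (Real.abs_sin_le_one _)).trans hp)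
  refine ⟨ω, L, fun h => ?_, fun h hh => ?_, fun h hh hh' => ?_⟩
  · rw [hL]
    rcases le_total (Real.cos a) (Real.cos (ω * h)) with c1 | c1
    · have := h1 _ ⟨c1, Real.cos_le_one _⟩
      exact ⟨by linarith [this.1], (hs h this.2).trans (by linarith)⟩
    rcases le_total (Real.cos (ω * h)) (Real.cos (2 * a)) with c2 | c2
    · have := h3 _ ⟨Real.neg_one_le_cos _, c2⟩
      refine ⟨?_, (hs h this.2).trans (by linarith)⟩
      have := abs_le.1 this.1
      exact abs_le.2 ⟨by linarith, by linarith⟩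
    · have := h2 _ ⟨c2, c1⟩
      refine ⟨by linarith [this.1], ?_⟩
      have b1 : |Real.sin (ω * h)| ≤ 2 * a := by
        have b0 : 0 ≤ Real.cos (2 * a) := Real.cos_nonneg_of_neg_pi_div_two_le_of_le
          (by linarith [Real.pi_pos]) (by linarith [Real.pi_gt_three])
        refine abs_le_of_sq_le_sq' ?_ (by linarith) |> abs_le.2
        have b2 := Real.sin_sq_add_cos_sq (ω * h)
        have b3 := Real.sin_sq_add_cos_sq (2 * a)
        have b4 := Real.sin_sq_le_sq (x := 2 * a)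
        have b5 := pow_le_pow_left₀ b0 c2 2
        linarith
      have b2 : |p.derivative.eval (Real.cos (ω * h))| ≤ 3 / (2 * a ^ 2) + ε :=
        this.2.trans (by gcongr)
      rw [hD]
      calc _ ≤ ω * (2 * a * (3 / (2 * a ^ 2) + ε)) := by gcongr
        _ = 12 / G + ω * (2 * a * ε) := by
          rw [ha]
          field_simp
          ring
        _ ≤ 12 / 16 + 1 * (2 * (1 / 4) * ε) := by gcongr
        _ ≤ 1 := by linarith
  · have c1 : Real.cos a ≤ Real.cos (ω * h) := by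
      rw [← Real.cos_abs (ω * h), abs_mul, abs_of_pos hω0]
      refine Real.cos_le_cos_of_nonneg_of_le_pi (by positivity) (by linarith [Real.pi_gt_three]) ?_
      rw [ha, mul_div_assoc]
      gcongr
    have := h1 _ ⟨c1, Real.cos_le_one _⟩
    rw [hL]
    exact ⟨by linarith [this.1], (hs h this.2).trans (by linarith)⟩
  · have c2 : Real.cos (ω * h) ≤ Real.cos (2 * a) := by
      rw [← Real.cos_abs (ω * h), abs_mul, abs_of_pos hω0]
      have b1 : ω * |h| ≤ ω * Pm := by gcongr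
      have b2 : ω * (G / 2) ≤ ω * |h| := by gcongr
      exact Real.cos_le_cos_of_nonneg_of_le_pi (by positivity) (by linarith [Real.pi_gt_three]) (by linarith)
    have := h3 _ ⟨Real.neg_one_le_cos _, c2⟩
    rw [hL]
    exact ⟨by linarith [this.1], (hs h this.2).trans (by linarith)⟩

end Model
end Crest.Agent.R339
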