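import Crest.Agent.R339.D1.Ext
import Crest.Agent.R339.D1.Dir2

/-! # Row 339, block D1: simulation: start, cost gates, end -/

set_option autoImplicit false
open MeasureTheory ProbabilityTheory Filter Topology Complex
open Crest.MathPhysics.SpinGlass

namespace Crest.Agent.R339
variable {E K : Type} [NormedAddCommGroup E] [InnerProductSpace ℂ E]
  [NormedAddCommGroup K] [InnerProductSpace ℂ K] [CompleteSpace K]
namespace Model
variable (M : Model E K)
variable {j0 : K →ₗᵢ[ℂ] E} (j : Lp K 2 (gaussianReal 0 1) →ₗᵢ[ℂ] E) (Sp : M.Spike j0)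

theorem simc_GG {β : ℝ} (h0 : 0 < β) (h1 : β ≤ 1) : (β * GG β) ^ 2 ≤ β := by
  have h4 : GG β ^ 4 = β⁻¹ := by
    rw [GG, ← Real.rpow_natCast, ← Real.rpow_mul h0.le, ← Real.rpow_neg_one]
    norm_num
  refine (pow_le_pow_iff_left₀ (by positivity) h0.le two_ne_zero).1 ?_
  have : ((β * GG β) ^ 2) ^ 2 = β ^ 3 := by
    rw [← pow_mul, mul_pow, h4]; field_simp
  rw [this]
  exact pow_le_pow_of_le_one h0.le h1 (by norm_num)

/-- `n = 2`, empty word, `U = 1`, `a = update 0 1 κ`, `h = 0`. -/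
theorem sim_one : M.Sim j Sp (fun _ => 1) := by
  refine ⟨⟨2, [], fun _ => 0, fun _ => 0, fun _ => none, []⟩,
    ⟨le_rfl, fun l => (M.wdL_nil _ _ _).symm, fun i s hi => absurd hi (by simp), fun i _ => ⟨rfl, rfl⟩,
      fun i w' h1 h2 => absurd h2 (not_lt.2 h1), fun i h1 h2 => absurd h2 (not_lt.2 h1),
      fun z hz => absurd hz (by simp)⟩, fun R => ⟨9, by norm_num, 1 / 4, by norm_num, fun β h0 h1 => ?_⟩⟩
  have hκ : ‖Sp.κ β‖ ^ 2 ≤ 9 * β := by
    have h2 := Sp.κ_le β h0 (by linarith)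
    have h3 := simc_GG h0 (by linarith)
    calc ‖Sp.κ β‖ ^ 2 ≤ (3 * β * GG β) ^ 2 := by gcongr
      _ = 9 * (β * GG β) ^ 2 := by ring
      _ ≤ 9 * β := by gcongr
  have hκ2 : ‖Sp.κ β‖ ≤ 2 := by nlinarith [norm_nonneg (Sp.κ β)]
  refine ⟨1, Function.update (fun _ => 0) 1 (Sp.κ β), 0, one_mem _, by rw [one_mul]; exact Sp.reach β,
    ⟨by simp, by simp, fun i hi => ?_, fun i => ?_, fun i i' => ?_, fun i w' h1 h2 => absurd h2 (not_lt.2 h1),
      fun i h1 h2 => absurd h2 (not_lt.2 h1)⟩, ⟨1, norm_one, fun b α _ => ?_⟩,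
    fun s _ b => ⟨1, norm_one, ?_⟩, ?_⟩
  · have : i ≠ 1 := by
      have : 2 ≤ i := hi
      omega
    simp [this]
  · by_cases hi : i = 1
    · subst hi; simpa using hκ2
    · simp [hi]
  · by_cases hi : i = 1
    · by_cases hi' : i' = 1
      · subst hi hi'
        simpa [inner_self_eq_norm_sq_to_K] using hκ
      · simp only [Function.update_of_ne hi']
        simp; positivity
    · simp only [Function.update_of_ne hi]
      simp; positivity
  · simp only [M.wd_nil]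
    simp; positivity
  · simp only [M.WZ_zero]
    simp; positivity
  · simp only [zsum]
    simp; positivity

theorem simc_unit {T : K →L[ℂ] K} (hT : T ∈ unitary (K →L[ℂ] K)) (θ : ℂ) (x y : K) :
    ‖T x - θ • T y‖ = ‖x - θ • y‖ := by
  rw [← map_smul, ← map_sub, unit_norm hT]

/-- `U' = WZ (γ d) U`, `h' = γ d + h`, `d = j0 ψ (U V0)`. -/
theorem sim_cost (hgl : M.S_GL) {V : ℝ → K →L[ℂ] K} (h : M.Sim j Sp V) (γ : ℝ) :
    M.Sim j Sp (M.costL j γ V) := by
  obtain ⟨D, hD, hS⟩ := h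
  refine ⟨M.extC j D γ, M.ideal_extC j hD γ, fun R => ?_⟩
  obtain ⟨R0, hR0⟩ := M.dir_weak' Sp D.w
  obtain ⟨C, hC, β0, hβ0, H⟩ := hS (max R R0)
  obtain ⟨C', hC', hdw⟩ := hR0 C
  obtain ⟨C2, hC2, β1, hβ1, htab⟩ := M.tab_extC j Sp hgl hD γ (C + C')
  have hγ := abs_nonneg γ
  refine ⟨C2 + |γ|, by linarith, min (min β0 β1) (1 / 2), by positivity, fun β h0 h1 => ?_⟩
  have hb0 : β ≤ β0 := h1.trans ((min_le_left _ _).trans (min_le_left _ _))
  have hb1 : β ≤ β1 := h1.trans ((min_le_left _ _).trans (min_le_right _ _))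
  have hb2 : β ≤ 1 / 2 := h1.trans (min_le_right _ _)
  obtain ⟨U, a, h, hU⟩ := H β h0 hb0
  obtain ⟨θ, hθ, hbulk⟩ := hU.bulk
  set d : E := j0 (M.psi (U * Sp.V0 β)) with hd
  have hd1 : ‖d‖ = 1 := by rw [hd, j0.norm_map, M.norm_psi (PReach.mem M hU.reach)]
  have hd2 : ‖d - M.jp Sp β (M.pref Sp β a D.w)‖ ≤ C' * β :=
    hdw β h0 hb2 U 1 a θ hU.mem (one_mem _) (Commute.one_right _) hU.tab.bd hθ
      fun b α hα => hbulk b α (hα.trans (le_max_right _ _))
  have hup : ∀ i, 2 ≤ i → i < D.n → Function.update a D.n d i = a i := fun i _ hi =>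
    Function.update_of_ne hi.ne _ _
  have hCC : C ≤ C2 + |γ| := by linarith
  refine ⟨M.WZ (((γ : ℝ) : ℂ) • d) * U, Function.update a D.n d, ((γ : ℝ) : ℂ) • d + h,
    mul_mem (M.WZ_mem _) hU.mem, by rw [mul_assoc]; exact PReach.cost M hU.reach γ,
    Tab.mono M Sp (htab β h0 hb1 a d (Tab.mono M Sp hU.tab h0.le (by linarith)) hd1
      (hd2.trans (by gcongr; linarith))) h0.le (by linarith), ⟨θ, hθ, fun b α hα => ?_⟩, fun s hs b => ?_, ?_⟩
  · have e : M.wd (Function.update a D.n d) (M.extC j D γ).w = M.WZ (((γ : ℝ) : ℂ) • d) * M.wd a D.w := by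
      show M.wd _ (.w D.n γ :: D.w) = _
      rw [M.wd_cons, M.wd_congr hD.win hup]
      simp [itOp]
    rw [e, mul_apply_eq_comp, mul_apply_eq_comp, simc_unit (M.WZ_mem _)]
    exact (hbulk b α (hα.trans (le_max_left _ _))).trans (by gcongr)
  · obtain ⟨θ', hθ', hsp⟩ := hU.spike s hs b
    refine ⟨θ' * cexp (-(I * ((inner ℂ (((γ : ℝ) : ℂ) • d) h).im : ℂ))), by rw [norm_mul, hθ', a6_exp_norm, one_mul], ?_⟩
    have e := congrArg (fun T : K →L[ℂ] K => T (M.atom b s.2.2)) (M.WZ_mul (((γ : ℝ) : ℂ) • d) h)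
    simp only [mul_apply_eq_comp, smul_apply] at e
    rw [mul_smul, ← e, mul_apply_eq_comp, simc_unit (M.WZ_mem _)]
    exact hsp.trans (by gcongr)
  · have e : M.zsum Sp β (Function.update a D.n d) (M.extC j D γ).zs = M.zsum Sp β a D.zs :=
      M.zsum_congr Sp β hD.zs_in hup
    rw [e, smul_add, add_sub_assoc]
    refine (norm_add_le _ _).trans ?_
    have h3 : ‖((Real.sin β : ℝ) : ℂ) • ((γ : ℝ) : ℂ) • d‖ ≤ |γ| * β := by
      rw [norm_smul, norm_smul, hd1, mul_one, Complex.norm_real, Complex.norm_real, Real.norm_eq_abs,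
        Real.norm_eq_abs, mul_comm]
      gcongr
      exact Real.abs_sin_le_abs.trans (abs_of_pos h0).le
    have h4 := hU.hz
    nlinarith

/-- final mixer: `dir_weak'` for `extR D θ`, `energy_close`, `β` small. -/
theorem sim_fin (hgl : M.S_GL) {V : ℝ → K →L[ℂ] K} (h : M.Sim j Sp V) (θ ε : ℝ) (hε : 0 < ε) :
    ∃ w, M.EnL j θ V - ε ≤ M.En0 j0 (M.prun j0 w) := by
  obtain ⟨D, hD, hS⟩ := h
  obtain ⟨R0, hR0⟩ := M.dir_weak' Sp (extR D θ).w
  obtain ⟨C, hC, β0, hβ0, H⟩ := hS R0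
  obtain ⟨C', hC', hdw⟩ := hR0 C
  obtain ⟨C2, hC2, β1, hβ1, hen⟩ := M.energy_close j Sp hgl (M.ideal_extR j hD θ) (C + C')
  obtain ⟨β, h0, hb0, hb1, hb2, hb3⟩ : ∃ β : ℝ, 0 < β ∧ β ≤ β0 ∧ β ≤ β1 ∧ β ≤ 1 / 2 ∧ β ≤ ε / (C2 + 1) :=
    ⟨min (min β0 β1) (min (1 / 2) (ε / (C2 + 1))), by positivity, (min_le_left _ _).trans (min_le_left _ _),
      (min_le_left _ _).trans (min_le_right _ _), (min_le_right _ _).trans (min_le_left _ _),
      (min_le_right _ _).trans (min_le_right _ _)⟩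
  obtain ⟨U, a, h, hU⟩ := H β h0 hb0
  obtain ⟨θ', hθ', hbulk⟩ := hU.bulk
  have hre : M.PReach j0 (M.RX θ * U * Sp.V0 β) := by rw [mul_assoc]; exact PReach.rot M hU.reach θ
  have hd := hdw β h0 hb2 (M.RX θ * U) 1 a θ' (mul_mem (M.RX_mem _) hU.mem) (one_mem _) (Commute.one_right _)
    hU.tab.bd hθ' fun b α hα => by
      have e : M.wd a (extR D θ).w = M.RX θ * M.wd a D.w := by
        show M.wd _ (.rx θ :: D.w) = _
        rw [M.wd_cons]; rfl
      rw [e, one_apply_eq_self, mul_apply_eq_comp, mul_apply_eq_comp,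
        simc_unit (M.RX_mem _)]
      exact hbulk b α hα
  have h1 := hen β h0 hb1 a _ (M.tab_extR Sp (Tab.mono M Sp hU.tab h0.le (by linarith)) θ) (M.norm_psi (PReach.mem M hre))
    (hd.trans (by gcongr; linarith))
  obtain ⟨w, hw⟩ := hre
  refine ⟨w, ?_⟩
  rw [← hw]
  have h2 : C2 * β ≤ ε := by
    rw [le_div_iff₀ (by positivity)] at hb3
    nlinarith
  have h3 := (abs_le.1 h1).1
  unfold EnL En0
  linarith

end Model
end Crest.Agent.R339
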