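import Crest.Agent.R339.D1.Ext
import Crest.Agent.R339.D1.Dir2

/-! # Row 339, block D1: simulation: global mixers -/

set_option autoImplicit false
open MeasureTheory ProbabilityTheory Filter Topology Complex
open Crest.MathPhysics.SpinGlass

namespace Crest.Agent.R339
variable {E K : Type} [NormedAddCommGroup E] [InnerProductSpace ℂ E]
  [NormedAddCommGroup K] [InnerProductSpace ℂ K] [CompleteSpace K]
namespace Model
variable (M : Model E K)
variable {j0 : K →ₗᵢ[ℂ] E} (j : Lp K 2 (gaussianReal 0 1) →ₗᵢ[ℂ] E) (Sp : M.Spike j0)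

theorem simr_RX (θ : ℝ) (b : Bool) (p : E) : M.RX θ (M.atom b p) =
    ((Real.cos θ : ℝ) : ℂ) • M.atom b p - (I * ((Real.sin θ : ℝ) : ℂ)) • M.atom (!b) p := by
  rw [← M.X_atom]
  rfl

theorem simr_cos (θ : ℝ) : ‖((Real.cos θ : ℝ) : ℂ)‖ ≤ 1 := by
  rw [norm_real]
  exact Real.abs_cos_le_one θ

theorem simr_sin (θ : ℝ) : ‖I * ((Real.sin θ : ℝ) : ℂ)‖ ≤ 1 := by
  rw [norm_mul, norm_I, one_mul, norm_real]
  exact Real.abs_sin_le_one θ

theorem simr_le {x y z : ℂ} {β : ℝ} (hx : ‖x‖ ≤ β) (hy : ‖y‖ = 1) (hz : ‖z‖ ≤ 1) : ‖x * y * z‖ ≤ β := by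
  rw [norm_mul, norm_mul, hy, mul_one]
  exact (mul_le_of_le_one_right (norm_nonneg _) hz).trans hx

/-- the atoms of `RX θ U x_S` -/
theorem simr_list (θ : ℝ) (U : K →L[ℂ] K) (h : E) {β e : ℝ} (L : List (ℂ × Bool × E))
    (hL : ∀ s ∈ L, ‖s.1‖ ≤ β ∧ ∃ θ' : ℂ, ‖θ'‖ = 1 ∧
      ‖U (M.atom s.2.1 s.2.2) - θ' • M.WZ h (M.atom s.2.1 s.2.2)‖ ≤ e) :
    ∃ L' : List (ℂ × Bool × E), L'.length ≤ 4 * L.length ∧
      (∀ t ∈ L', ‖t.1‖ ≤ β ∧ ∃ s ∈ L, ∃ b : Bool, t.2.2 = s.2.2 + ((spinSign b : ℝ) : ℂ) • h) ∧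
      (∀ s ∈ L, ∀ b : Bool, ∃ t ∈ L', t.2.2 = s.2.2 + ((spinSign b : ℝ) : ℂ) • h) ∧
      ‖M.RX θ (U (M.atoms L)) - M.atoms L'‖ ≤ L.length * (β * e) := by
  induction L with
  | nil => exact ⟨[], le_rfl, by simp, by simp, by simp [M.atoms_nil]⟩
  | cons s L ih =>
    obtain ⟨L', h1, h2, h3, h4⟩ := ih fun s hs => hL s (List.mem_cons_of_mem _ hs)
    obtain ⟨hs, θ', hθ', he⟩ := hL s List.mem_cons_self
    rw [M.WZ_atom, smul_smul] at he
    set c := θ' * cexp (-(I * ((spinSign s.2.1 * (inner ℂ h s.2.2).im : ℝ) : ℂ))) with hc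
    have hc1 : ‖c‖ = 1 := by rw [hc, norm_mul, hθ', a6_exp_norm, mul_one]
    set p := s.2.2 + ((spinSign s.2.1 : ℝ) : ℂ) • h with hp
    have hβ : 0 ≤ β := (norm_nonneg _).trans hs
    refine ⟨(s.1 * c * ((Real.cos θ : ℝ) : ℂ), s.2.1, p) :: (-(s.1 * c * (I * ((Real.sin θ : ℝ) : ℂ))), !s.2.1, p) ::
      (0, false, s.2.2 + ((spinSign false : ℝ) : ℂ) • h) :: (0, false, s.2.2 + ((spinSign true : ℝ) : ℂ) • h) :: L',
      by simp only [List.length_cons]; omega, ?_, ?_, ?_⟩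
    · simp only [List.forall_mem_cons, norm_neg, norm_zero]
      refine ⟨⟨simr_le hs hc1 (simr_cos θ), s, List.mem_cons_self, _, hp⟩,
        ⟨simr_le hs hc1 (simr_sin θ), s, List.mem_cons_self, _, hp⟩, ⟨hβ, s, List.mem_cons_self, _, rfl⟩,
        ⟨hβ, s, List.mem_cons_self, _, rfl⟩, fun t ht => ?_⟩
      obtain ⟨h5, s', hs', h6⟩ := h2 t ht
      exact ⟨h5, s', List.mem_cons_of_mem _ hs', h6⟩
    · rw [List.forall_mem_cons]
      refine ⟨fun b => ?_, fun s' hs' b => ?_⟩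
      · cases b
        · exact ⟨_, List.mem_cons_of_mem _ (List.mem_cons_of_mem _ List.mem_cons_self), rfl⟩
        · exact ⟨_, List.mem_cons_of_mem _ (List.mem_cons_of_mem _ (List.mem_cons_of_mem _ List.mem_cons_self)), rfl⟩
      · obtain ⟨t, ht, h5⟩ := h3 s' hs' b
        exact ⟨t, by simp [ht], h5⟩
    · have e1 : M.RX θ (U (M.atoms (s :: L))) - M.atoms ((s.1 * c * ((Real.cos θ : ℝ) : ℂ), s.2.1, p) ::
          (-(s.1 * c * (I * ((Real.sin θ : ℝ) : ℂ))), !s.2.1, p) ::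
          (0, false, s.2.2 + ((spinSign false : ℝ) : ℂ) • h) :: (0, false, s.2.2 + ((spinSign true : ℝ) : ℂ) • h) :: L') =
          s.1 • M.RX θ (U (M.atom s.2.1 s.2.2) - c • M.atom s.2.1 p) + (M.RX θ (U (M.atoms L)) - M.atoms L') := by
        simp only [M.atoms_cons, map_add, map_smul, map_sub, M.simr_RX θ s.2.1 p]
        module
      rw [e1, List.length_cons, Nat.cast_succ, add_mul, one_mul, add_comm (_ * _)]
      refine (norm_add_le _ _).trans (add_le_add ?_ h4)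
      rw [norm_smul, unit_norm (M.RX_mem θ)]
      exact mul_le_mul hs he (norm_nonneg _) hβ

/-- `U₁ = RX θ U`, then `S_FLOW` with `τ = -θ`, `H = 0`, `vb = θ_b • wd a (rx θ :: w) xb`
(`wd_comb`), spike list = the atoms of `RX θ U x_S` (at most 8, displacements
`α_s + sign b • h`) plus zero-coefficient entries for all `(s, b)`; positions by `pos` for
`extR D θ` with `γ = 0` and `dir_weak`. -/
theorem sim_rot (hgl : M.S_GL) (hfl : M.S_FLOW j0) {V : ℝ → K →L[ℂ] K} (h : M.Sim j Sp V) (θ : ℝ)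
    (hc : 1 / 2 ≤ M.cL (fun l => M.RX θ * V l)) : M.Sim j Sp (fun l => M.RX θ * V l) := by
  obtain ⟨D, hD, hS⟩ := h
  refine ⟨extR D θ, M.ideal_extR j hD θ, fun R => ?_⟩
  obtain ⟨R0, hdir⟩ := M.dir_weak' Sp (extR D θ).w
  obtain ⟨C, hC, β1, hβ1, hS⟩ := hS (max (max R R0) 3)
  obtain ⟨n1, R2, -, hcomb⟩ := M.wd_comb (extR D θ).w 8 (max (max R R0) 3)
  obtain ⟨C1, hC1, hdir⟩ := hdir C
  obtain ⟨Λ, hΛ, β2, hβ2, hpos⟩ := M.pos j Sp hgl (M.ideal_extR j hD θ) hc 0 (C + C1)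
  obtain ⟨C3, hC3, β3, hβ3, hfl⟩ := hfl (n1 + 16) R2 (Λ + 1 + 12 * C) (-θ)
  refine ⟨C + n1 * C3 + 2 * C3, by positivity, min (min β1 β2) (min β3 (1 / 2)), by positivity, fun β h0 hb => ?_⟩
  simp only [le_min_iff] at hb
  obtain ⟨⟨hb1, hb2⟩, hb3, hb4⟩ := hb
  obtain ⟨U, a, h, hU, hreach, htab, ⟨θb, hθb, hbulk⟩, hspike, hz⟩ := hS β h0 hb1
  have hRX := M.RX_mem θ
  have hle : C ≤ C + n1 * C3 + 2 * C3 := by
    have : 0 ≤ n1 * C3 := by positivity
    linarith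
  have hb1' : ∀ b α, ‖α‖ ≤ max (max R R0) 3 →
      ‖(M.RX θ * U) (M.atom b α) - (θb • M.wd a (extR D θ).w) (M.atom b α)‖ ≤ C * β ^ 2 := fun b α hα => by
    have e : (M.RX θ * U) (M.atom b α) - (θb • M.wd a (extR D θ).w) (M.atom b α) =
        M.RX θ (U (M.atom b α) - θb • M.wd a D.w (M.atom b α)) := by
      rw [show (extR D θ).w = .rx θ :: D.w from rfl, M.wd_cons, map_sub, map_smul]
      rfl
    rw [e, unit_norm hRX]
    exact hbulk b α hα
  have hd := hdir β h0 hb4 (M.RX θ * U) 1 a θb (mul_mem hRX hU) (one_mem _) (Commute.one_right _) htab.bd hθb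
    fun b α hα => hb1' b α (hα.trans ((le_max_right _ _).trans (le_max_left _ _)))
  have hp := hpos β h0 hb2 a _ h (Tab.mono M Sp (M.tab_extR Sp htab θ) h0.le (by linarith))
    (hd.trans (by nlinarith)) (by
      rw [ofReal_zero, zero_smul, sub_zero]
      exact hz.trans (by nlinarith))
  obtain ⟨L', l1, l2, l3, l4⟩ := M.simr_list θ U h (Sp.LS β) fun s hs =>
    ⟨(Sp.shape β h0 hb4 s hs).1, hspike s hs s.2.1⟩
  have hlen := Sp.len β
  have hxb : M.Comb 8 (max (max R R0) 3) (M.xb Sp β) := Comb.mono M (M.xb_comb Sp h0 hb4) le_rfl (le_max_right _ _)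
  have hΛ' : Λ / β ≤ (Λ + 1 + 12 * C) / β := div_le_div_of_nonneg_right (by linarith) h0.le
  obtain ⟨T, hT, hTr, θ1, θ2, hθ1, hθ2, t1, t2⟩ := hfl β h0 hb3 (M.RX θ * U * Sp.V0 β) 0
    (θb • M.wd a (extR D θ).w (M.xb Sp β)) L' (by rw [mul_assoc]; exact PReach.rot M hreach θ)
    (Comb.mono M (Comb.smul M (hcomb a htab.bd _ hxb) hθb.le) (by omega) le_rfl) (by rw [abs_zero]; positivity) (by omega)
    (fun t ht => by
      obtain ⟨h1, s, hs, b, e⟩ := l2 t ht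
      rw [e]
      exact ⟨h1, (hp s hs b).1.trans hΛ', (hp s hs b).2⟩)
    (by
      rw [ofReal_zero, zero_smul, M.WZ_zero]
      have e : (M.RX θ * U * Sp.V0 β) M.Ω - (1 : K →L[ℂ] K) (θb • M.wd a (extR D θ).w (M.xb Sp β)) - M.atoms L' =
          (M.RX θ * U) (Sp.V0 β M.Ω - Sp.θ0 β • M.WY (Sp.κ β) M.Ω - M.atoms (Sp.LS β)) +
          ((M.RX θ * U) (M.xb Sp β) - (θb • M.wd a (extR D θ).w) (M.xb Sp β)) +
          (M.RX θ (U (M.atoms (Sp.LS β))) - M.atoms L') := by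
        rw [map_sub, map_sub]
        simp only [mul_apply_eq_comp, one_apply_eq_self, smul_apply, xb]
        abel
      have a1 := Sp.split β h0 hb4
      have a2 := Comb.close M hxb _ _ (by positivity) hb1'
      have a3 : ((Sp.LS β).length : ℝ) * (β * (C * β)) ≤ 4 * (β * (C * β)) :=
        mul_le_mul_of_nonneg_right (by exact_mod_cast hlen) (by positivity)
      rw [← unit_norm (mul_mem hRX hU)] at a1
      rw [e]
      refine (norm_add₃_le).trans ?_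
      rw [Nat.cast_ofNat] at a2
      nlinarith [mul_nonneg hΛ (sq_nonneg β)])
  rw [ofReal_zero, zero_smul, M.WZ_zero] at t1
  refine ⟨T * (M.RX θ * U), a, h, mul_mem hT (mul_mem hRX hU), by rw [mul_assoc]; exact hTr,
    Tab.mono M Sp (M.tab_extR Sp htab θ) h0.le hle, ⟨θb * θ1, by rw [norm_mul, hθb, hθ1, mul_one], fun b α hα => ?_⟩,
    fun s hs b => ?_, hz.trans (mul_le_mul_of_nonneg_right hle h0.le)⟩
  · have hα' : ‖α‖ ≤ max (max R R0) 3 := hα.trans ((le_max_left _ _).trans (le_max_left _ _))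
    have a1 := hb1' b α hα'
    have a2 := Comb.close M (hcomb a htab.bd _ (Comb.mono M (M.comb_atom b hα') (by omega) le_rfl)) T
      (θ1 • (1 : K →L[ℂ] K)) (by positivity) t1
    have e : (T * (M.RX θ * U)) (M.atom b α) - (θb * θ1) • M.wd a (extR D θ).w (M.atom b α) =
        T ((M.RX θ * U) (M.atom b α) - (θb • M.wd a (extR D θ).w) (M.atom b α)) +
        θb • (T (M.wd a (extR D θ).w (M.atom b α)) - (θ1 • (1 : K →L[ℂ] K)) (M.wd a (extR D θ).w (M.atom b α))) := by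
      simp only [mul_apply_eq_comp, one_apply_eq_self, smul_apply, map_sub,
        map_smul]
      module
    rw [e]
    refine (norm_add_le _ _).trans ?_
    rw [unit_norm hT, norm_smul, hθb, one_mul]
    nlinarith [mul_nonneg hC3 (sq_nonneg β)]
  · obtain ⟨θ', hθ', a1⟩ := hspike s hs b
    obtain ⟨t, ht, e0⟩ := l3 s hs b
    have a2 := t2 t ht b
    have a3 := t2 t ht (!b)
    rw [e0] at a2 a3
    refine ⟨θ' * θ2, by rw [norm_mul, hθ', hθ2, mul_one], ?_⟩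
    rw [M.WZ_atom, smul_smul] at a1 ⊢
    set p := s.2.2 + ((spinSign b : ℝ) : ℂ) • h
    set c := cexp (-(I * ((spinSign b * (inner ℂ h s.2.2).im : ℝ) : ℂ))) with hc'
    have hc1 : ‖c‖ = 1 := a6_exp_norm _
    have e1 : M.RX (-θ) (M.RX θ (M.atom b p)) = M.atom b p := by
      rw [← M.RX_star]
      exact unit_star_apply hRX _
    have e : (T * (M.RX θ * U)) (M.atom b s.2.2) - (θ' * θ2 * c) • M.atom b p =
        T (M.RX θ (U (M.atom b s.2.2) - (θ' * c) • M.atom b p)) + (θ' * c) •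
          (((Real.cos θ : ℝ) : ℂ) • (T (M.atom b p) - θ2 • M.RX (-θ) (M.atom b p)) -
            (I * ((Real.sin θ : ℝ) : ℂ)) • (T (M.atom (!b) p) - θ2 • M.RX (-θ) (M.atom (!b) p))) := by
      conv_lhs => rw [← e1]
      simp only [mul_apply_eq_comp, map_sub, map_smul, M.simr_RX θ b p]
      module
    rw [e]
    refine (norm_add_le _ _).trans ?_
    rw [unit_norm hT, unit_norm hRX, norm_smul, norm_mul, hθ', hc1, one_mul, one_mul]
    have a4 := norm_sub_le_of_le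
      ((norm_smul_le _ _).trans (mul_le_mul (simr_cos θ) a2 (norm_nonneg _) zero_le_one))
      ((norm_smul_le _ _).trans (mul_le_mul (simr_sin θ) a3 (norm_nonneg _) zero_le_one))
    have : 0 ≤ n1 * C3 * β := by positivity
    nlinarith

end Model
end Crest.Agent.R339
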