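import Crest.Agent.R339.D1.Gram

/-! # Row 339, block D1: the flip of the spikes (helper of `sim_zph`) -/

set_option autoImplicit false
set_option linter.deprecated false
open MeasureTheory ProbabilityTheory Filter Topology Complex
open Crest.MathPhysics.SpinGlass

namespace Crest.Agent.R339
variable {E K : Type} [NormedAddCommGroup E] [InnerProductSpace ℂ E]
  [NormedAddCommGroup K] [InnerProductSpace ℂ K] [CompleteSpace K]
namespace Model
variable (M : Model E K)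
variable {j0 : K →ₗᵢ[ℂ] E} (Sp : M.Spike j0)

theorem sz_zero (L : List (ℂ × Bool × E)) (f : ℂ × Bool × E → E) :
    M.atoms (L.map fun s => ((0 : ℂ), false, f s)) = 0 := by
  induction L with
  | nil => simp [M.atoms_nil]
  | cons s L ih => rw [List.map_cons, M.atoms_cons, ih]; simp

theorem sz_list (L : List (ℂ × Bool × E)) (W : K →L[ℂ] K) (θ : ℂ × Bool × E → ℂ)
    (b : ℂ × Bool × E → Bool) (p : ℂ × Bool × E → E) {c e : ℝ}
    (h : ∀ s ∈ L, ‖s.1‖ ≤ c ∧ ‖W (M.atom s.2.1 s.2.2) - θ s • M.atom (b s) (p s)‖ ≤ e) :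
    ‖W (M.atoms L) - M.atoms (L.map fun s => (s.1 * θ s, b s, p s))‖ ≤ L.length * (c * e) := by
  induction L with
  | nil => simp [M.atoms_nil]
  | cons s L ih =>
    rw [List.map_cons, M.atoms_cons, M.atoms_cons, map_add, map_smul]
    have h1 := h s (by simp)
    have h2 := ih fun t ht => h t (by simp [ht])
    have e1 : s.1 • W (M.atom s.2.1 s.2.2) + W (M.atoms L) -
        ((s.1 * θ s) • M.atom (b s) (p s) + M.atoms (L.map fun s => (s.1 * θ s, b s, p s))) =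
        s.1 • (W (M.atom s.2.1 s.2.2) - θ s • M.atom (b s) (p s)) +
        (W (M.atoms L) - M.atoms (L.map fun s => (s.1 * θ s, b s, p s))) := by
      rw [smul_sub, mul_smul]; abel
    rw [e1]
    refine (norm_add_le _ _).trans ?_
    rw [norm_smul, List.length_cons]
    have h3 : ‖s.1‖ * ‖W (M.atom s.2.1 s.2.2) - θ s • M.atom (b s) (p s)‖ ≤ c * e :=
      mul_le_mul h1.1 h1.2 (norm_nonneg _) ((norm_nonneg _).trans h1.1)
    push_cast
    linarith

theorem sz_flip (hfl : M.S_FLOW j0) (w : List It) (R C Λ : ℝ) (hR : 3 ≤ R) (hC : 0 ≤ C) :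
    ∃ C' : ℝ, 0 ≤ C' ∧ ∃ β0 > (0 : ℝ), ∀ β, 0 < β → β ≤ β0 →
    ∀ (W : K →L[ℂ] K) (a : ℕ → E) (H : ℝ) (k : E) (σ : Bool) (θ : ℂ),
      M.PReach j0 (W * Sp.V0 β) → W ∈ unitary (K →L[ℂ] K) → (∀ i, ‖a i‖ ≤ 2) → |H| ≤ Λ / β →
      ‖θ‖ = 1 →
      (∀ b α, ‖α‖ ≤ R → ‖W (M.atom b α) - θ • M.WZ (((H : ℝ) : ℂ) • j0 (M.psi (W * Sp.V0 β)))
        (M.wd a w (M.atom b α))‖ ≤ C * β ^ 2) →
      (∀ s ∈ Sp.LS β, ∀ b, ∃ θ' : ℂ, ‖θ'‖ = 1 ∧ ‖W (M.atom b s.2.2) -
        θ' • M.atom (xor σ b) (s.2.2 + ((spinSign b : ℝ) : ℂ) • k)‖ ≤ C * β) →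
      (∀ s ∈ Sp.LS β, ∀ b : Bool, ‖s.2.2 + ((spinSign b : ℝ) : ℂ) • k‖ ≤ Λ / β ∧
        GG β ≤ |2 * (inner ℂ (j0 (M.psi (W * Sp.V0 β)))
          (s.2.2 + ((spinSign b : ℝ) : ℂ) • k)).im|) →
      ∃ T ∈ unitary (K →L[ℂ] K), M.PReach j0 (T * W * Sp.V0 β) ∧ ∃ θ2 : ℂ, ‖θ2‖ = 1 ∧
        (∀ b α, ‖α‖ ≤ R → ‖(T * W) (M.atom b α) -
          θ2 • M.WZ (((H : ℝ) : ℂ) • j0 (M.psi (W * Sp.V0 β))) (M.wd a w (M.atom b α))‖ ≤
            C' * β ^ 2) ∧
        (∀ s ∈ Sp.LS β, ∀ b, ∃ θ' : ℂ, ‖θ'‖ = 1 ∧ ‖(T * W) (M.atom b s.2.2) -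
          θ' • M.atom (xor (!σ) b) (s.2.2 + ((spinSign b : ℝ) : ℂ) • k)‖ ≤ C' * β) := by
  obtain ⟨n1, R1, -, hcomb⟩ := M.wd_comb w 8 R
  obtain ⟨Cf, hCf, β1, hβ1, hF⟩ := hfl (n1 + 12) R1 (|Λ| + 1 + 12 * C) (Real.pi / 2)
  refine ⟨C + n1 * Cf + Cf, by positivity, min β1 (1 / 2), by positivity, ?_⟩
  intro β h0 hβ W a H k σ θ hreach hW ha hH hθ hbulk hsp hpos
  have hb1 : β ≤ β1 := hβ.trans (min_le_left _ _)
  have hb2 : β ≤ 1 / 2 := hβ.trans (min_le_right _ _)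
  set d := j0 (M.psi (W * Sp.V0 β)) with hd
  set Hop := M.WZ (((H : ℝ) : ℂ) • d) with hHop
  have hHm : Hop ∈ unitary (K →L[ℂ] K) := M.WZ_mem _
  have hΛ : Λ / β ≤ (|Λ| + 1 + 12 * C) / β :=
    div_le_div_of_nonneg_right (by have := le_abs_self Λ; linarith) h0.le
  choose! θf hθf using hsp
  have hxb : M.Comb 8 R (M.xb Sp β) := (M.xb_comb Sp h0 hb2).mono M le_rfl hR
  have hvb : M.Comb (n1 + 12) R1 (θ • M.wd a w (M.xb Sp β)) :=
    ((hcomb a ha _ hxb).smul M hθ.le).mono M (by omega) le_rfl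
  set L0 := (Sp.LS β).map fun s => (s.1 * θf s s.2.1, xor σ s.2.1,
    s.2.2 + ((spinSign s.2.1 : ℝ) : ℂ) • k) with hL0
  set L1 := (Sp.LS β).map fun s => ((0 : ℂ), false, s.2.2 + ((spinSign false : ℝ) : ℂ) • k) with hL1
  set L2 := (Sp.LS β).map fun s => ((0 : ℂ), false, s.2.2 + ((spinSign true : ℝ) : ℂ) • k) with hL2
  have hlen := Sp.len β
  have hat : M.atoms (L0 ++ L1 ++ L2) = M.atoms L0 := by
    rw [M.atoms_append, M.atoms_append, hL1, hL2, M.sz_zero, M.sz_zero]; simp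
  have hsh := Sp.shape β h0 hb2
  obtain ⟨T, hT, hTr, θ1, θ1', hθ1, hθ1', hTb, hTs⟩ := hF β h0 hb1 (W * Sp.V0 β) H
    (θ • M.wd a w (M.xb Sp β)) (L0 ++ L1 ++ L2) hreach hvb (hH.trans hΛ)
    (by simp only [hL0, hL1, hL2, List.length_append, List.length_map]; omega)
    (by
      intro t ht
      simp only [hL0, hL1, hL2, List.mem_append, List.mem_map] at ht
      rcases ht with (⟨s, hs, rfl⟩ | ⟨s, hs, rfl⟩) | ⟨s, hs, rfl⟩
      · refine ⟨?_, (hpos s hs _).1.trans hΛ, (hpos s hs _).2⟩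
        rw [norm_mul, (hθf s hs _).1, mul_one]; exact (hsh s hs).1
      · exact ⟨by simpa using h0.le, (hpos s hs _).1.trans hΛ, (hpos s hs _).2⟩
      · exact ⟨by simpa using h0.le, (hpos s hs _).1.trans hΛ, (hpos s hs _).2⟩)
    (by
      rw [hat]
      have e1 := Sp.split β h0 hb2
      have e2 : ‖W (M.xb Sp β) - (θ • (Hop * M.wd a w)) (M.xb Sp β)‖ ≤ (8 : ℕ) * (C * β ^ 2) :=
        hxb.close M W (θ • (Hop * M.wd a w)) (by positivity) fun b α hα => by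
          simpa using hbulk b α hα
      have e3 := M.sz_list (Sp.LS β) W (fun s => θf s s.2.1) (fun s => xor σ s.2.1)
        (fun s => s.2.2 + ((spinSign s.2.1 : ℝ) : ℂ) • k) (c := β) (e := C * β)
        fun s hs => ⟨(hsh s hs).1, (hθf s hs _).2⟩
      have e4 : (W * Sp.V0 β) M.Ω - Hop (θ • M.wd a w (M.xb Sp β)) - M.atoms L0 =
          W (Sp.V0 β M.Ω - Sp.θ0 β • M.WY (Sp.κ β) M.Ω - M.atoms (Sp.LS β)) +
          (W (M.xb Sp β) - (θ • (Hop * M.wd a w)) (M.xb Sp β)) +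
          (W (M.atoms (Sp.LS β)) - M.atoms L0) := by
        change _ = W (Sp.V0 β M.Ω - M.xb Sp β - M.atoms (Sp.LS β)) + _ + _
        simp only [map_sub, map_smul, ContinuousLinearMap.mul_apply,
          ContinuousLinearMap.smul_apply]
        abel
      rw [e4]
      refine (norm_add_le _ _).trans ?_
      refine (add_le_add (norm_add_le _ _) le_rfl).trans ?_
      rw [unit_norm hW]
      have e5 : ((Sp.LS β).length : ℝ) * (β * (C * β)) ≤ 4 * (β * (C * β)) :=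
        mul_le_mul_of_nonneg_right (by exact_mod_cast hlen) (by positivity)
      have e6 : 0 ≤ |Λ| * β ^ 2 := by positivity
      push_cast at e2
      have e7 : ‖W (M.atoms (Sp.LS β)) - M.atoms L0‖ ≤ 4 * (β * (C * β)) := e3.trans e5
      have e8 : (|Λ| + 1 + 12 * C) * β ^ 2 =
          |Λ| * β ^ 2 + β ^ 2 + 8 * (C * β ^ 2) + 4 * (β * (C * β)) := by ring
      rw [e8]
      exact add_le_add (add_le_add (e1.trans (le_add_of_nonneg_left e6)) e2) e7)
  refine ⟨T, hT, by rwa [mul_assoc], θ1 * θ, by rw [norm_mul, hθ1, hθ, mul_one], ?_, ?_⟩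
  · intro b α hα
    have hv : M.Comb n1 R1 (M.wd a w (M.atom b α)) :=
      hcomb a ha _ ((M.comb_atom b hα).mono M (by omega) le_rfl)
    have e1 := hv.close M (T * Hop) (θ1 • Hop) (e := Cf * β ^ 2) (by positivity)
      fun b α hα => hTb b α hα
    have e2 : (T * W) (M.atom b α) - (θ1 * θ) • Hop (M.wd a w (M.atom b α)) =
        T (W (M.atom b α) - θ • Hop (M.wd a w (M.atom b α))) +
        θ • ((T * Hop) (M.wd a w (M.atom b α)) - (θ1 • Hop) (M.wd a w (M.atom b α))) := by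
      simp only [map_sub, map_smul, ContinuousLinearMap.mul_apply,
        ContinuousLinearMap.smul_apply, smul_sub, mul_comm θ1 θ, mul_smul]
      abel
    rw [e2]
    refine (norm_add_le _ _).trans ?_
    rw [unit_norm hT, norm_smul, hθ, one_mul]
    have e3 := hbulk b α hα
    have e6 : 0 ≤ Cf * β ^ 2 := by positivity
    nlinarith
  · intro s hs b
    have hmem : ∃ t ∈ L0 ++ L1 ++ L2, t.2.2 = s.2.2 + ((spinSign b : ℝ) : ℂ) • k := by
      cases b
      · exact ⟨_, List.mem_append_left _ (List.mem_append_right _ (List.mem_map_of_mem hs)), rfl⟩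
      · exact ⟨_, List.mem_append_right _ (List.mem_map_of_mem hs), rfl⟩
    obtain ⟨t, ht, htp⟩ := hmem
    have e1 := hTs t ht (xor σ b)
    rw [htp, M.RX_pi_div_two, ContinuousLinearMap.smul_apply, M.X_atom] at e1
    have hx : (!(xor σ b)) = xor (!σ) b := by cases σ <;> cases b <;> rfl
    rw [hx] at e1
    refine ⟨θf s b * (θ1' * -I), by simp [(hθf s hs b).1, hθ1'], ?_⟩
    set p := s.2.2 + ((spinSign b : ℝ) : ℂ) • k
    have e2 : (T * W) (M.atom b s.2.2) - (θf s b * (θ1' * -I)) • M.atom (xor (!σ) b) p =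
        T (W (M.atom b s.2.2) - θf s b • M.atom (xor σ b) p) +
        θf s b • (T (M.atom (xor σ b) p) - θ1' • (-I) • M.atom (xor (!σ) b) p) := by
      simp only [map_sub, map_smul, ContinuousLinearMap.mul_apply, smul_sub, mul_smul]
      abel
    rw [e2]
    refine (norm_add_le _ _).trans ?_
    rw [unit_norm hT, norm_smul, (hθf s hs b).1, one_mul]
    have e3 := (hθf s hs b).2
    have e6 : 0 ≤ n1 * Cf * β := by positivity
    nlinarith

end Model
end Crest.Agent.R339
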