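import Crest.Agent.R339.D1.Ext
import Crest.Agent.R339.D1.Dir
import Crest.Agent.R339.D1.SimZa

/-! # Row 339, block D1: simulation of label phases (helper of `sim_zph`) -/

set_option autoImplicit false
set_option linter.deprecated false
open MeasureTheory ProbabilityTheory Filter Topology Complex
open Crest.MathPhysics.SpinGlass

namespace Crest.Agent.R339
variable {E K : Type} [NormedAddCommGroup E] [InnerProductSpace ℂ E]
  [NormedAddCommGroup K] [InnerProductSpace ℂ K] [CompleteSpace K]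
namespace Model
variable (M : Model E K)
variable {j0 : K →ₗᵢ[ℂ] E} (j : Lp K 2 (gaussianReal 0 1) →ₗᵢ[ℂ] E) (Sp : M.Spike j0)

theorem sz_sin {β : ℝ} (h0 : 0 < β) (h1 : β ≤ 1 / 2) : β / 2 ≤ Real.sin β ∧ Real.sin β ≤ β := by
  refine ⟨?_, Real.sin_le h0.le⟩
  have := Real.sin_gt_sub_cube h0
  have h2 : β ^ 3 ≤ β := by
    have : β ^ 2 ≤ 1 := by nlinarith
    nlinarith
  linarith

/-- `WZ` moves an atom up to a phase. -/
theorem sz_WZ (h : E) (b : Bool) (α : E) : ∃ θ : ℂ, ‖θ‖ = 1 ∧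
    M.WZ h (M.atom b α) = θ • M.atom b (α + ((spinSign b : ℝ) : ℂ) • h) :=
  ⟨_, a6_exp_norm _, M.WZ_atom h b α⟩

/-- left multiplication by `WZ f` of an approximate identity. -/
theorem sz_shift {x : K} {θ : ℂ} (hθ : ‖θ‖ = 1) (b : Bool) (p f : E) {e : ℝ}
    (h : ‖x - θ • M.atom b p‖ ≤ e) : ∃ θ' : ℂ, ‖θ'‖ = 1 ∧
      ‖M.WZ f x - θ' • M.atom b (p + ((spinSign b : ℝ) : ℂ) • f)‖ ≤ e := by
  obtain ⟨θ1, h1, h2⟩ := M.sz_WZ f b p
  refine ⟨θ * θ1, by rw [norm_mul, hθ, h1, mul_one], ?_⟩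
  rw [mul_smul, ← h2, ← map_smul, ← map_sub, unit_norm (M.WZ_mem f)]
  exact h

/-- the statement of `dir_strong` with the radius chosen first. -/
def SzDir (w' : List It) : Prop :=
  ∃ R0 : ℝ, ∀ C : ℝ, ∃ C' : ℝ, 0 ≤ C' ∧ ∀ β, 0 < β → β ≤ 1 / 2 →
    ∀ (U Hop : K →L[ℂ] K) (a : ℕ → E) (θ : ℂ) (σ : Bool), U ∈ unitary (K →L[ℂ] K) →
      Hop ∈ unitary (K →L[ℂ] K) → Commute M.Z Hop → (∀ i, ‖a i‖ ≤ 2) → ‖θ‖ = 1 →
      (∀ b α, ‖α‖ ≤ R0 → ‖U (M.atom b α) - θ • Hop (M.wd a w' (M.atom b α))‖ ≤ C * β ^ 2) →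
      (∀ s ∈ Sp.LS β, ∃ (θ' : ℂ) (p : E),
        ‖U (M.atom s.2.1 s.2.2) - θ' • M.atom (xor σ s.2.1) p‖ ≤ C * β) →
      ‖j0 (M.psi (U * Sp.V0 β)) - M.jp Sp β (M.pref Sp β a w' +
        ((spinSign σ : ℝ) : ℂ) • M.Z (M.xS Sp β))‖ ≤ C' * β ^ 2

theorem sz_normB {β : ℝ} (h0 : 0 < β) (h1 : β ≤ 1 / 2) :
    ‖M.jp Sp β (M.Z (M.xS Sp β))‖ ≤ β := by
  rw [M.norm_jp, unit_norm M.Z_mem, xS, Sp.norm_xS β h0 h1]
  exact (sz_sin h0 h1).2

/-- weak form from the strong form. -/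
theorem sz_weak {β C : ℝ} (h0 : 0 < β) (h1 : β ≤ 1 / 2) (hC : 0 ≤ C) {d : E} {x : K} (σ : Bool)
    (h : ‖d - M.jp Sp β (x + ((spinSign σ : ℝ) : ℂ) • M.Z (M.xS Sp β))‖ ≤ C * β ^ 2) :
    ‖d - M.jp Sp β x‖ ≤ (C + 1) * β := by
  rw [M.jp_add, M.jp_smul] at h
  have e : d - M.jp Sp β x = (d - (M.jp Sp β x + ((spinSign σ : ℝ) : ℂ) •
      M.jp Sp β (M.Z (M.xS Sp β)))) + ((spinSign σ : ℝ) : ℂ) • M.jp Sp β (M.Z (M.xS Sp β)) := by
    abel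
  rw [e]
  refine (norm_add_le _ _).trans ?_
  have h2 : ‖((spinSign σ : ℝ) : ℂ) • M.jp Sp β (M.Z (M.xS Sp β))‖ ≤ β := by
    rw [norm_smul]
    have : ‖((spinSign σ : ℝ) : ℂ)‖ = 1 := by cases σ <;> simp [spinSign]
    rw [this, one_mul]; exact M.sz_normB Sp h0 h1
  have h3 : C * β ^ 2 ≤ C * β := mul_le_mul_of_nonneg_left (by nlinarith) hC
  linarith

theorem sz_g {β C C' : ℝ} (h0 : 0 < β) (h1 : β ≤ 1 / 2) {d d' : E} {x : K}
    (h : ‖d - M.jp Sp β (x + ((spinSign false : ℝ) : ℂ) • M.Z (M.xS Sp β))‖ ≤ C * β ^ 2)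
    (h' : ‖d' - M.jp Sp β (x + ((spinSign true : ℝ) : ℂ) • M.Z (M.xS Sp β))‖ ≤ C' * β ^ 2) :
    ‖(((2 * Real.sin β)⁻¹ : ℝ) : ℂ) • (d - d') - M.fh Sp β‖ ≤ (C + C') * β := by
  rw [M.jp_add, M.jp_smul] at h h'
  obtain ⟨s1, s2⟩ := sz_sin h0 h1
  have hs : 0 < Real.sin β := by linarith
  set A := M.jp Sp β x
  set B := M.jp Sp β (M.Z (M.xS Sp β)) with hB
  have e : (((2 * Real.sin β)⁻¹ : ℝ) : ℂ) • (d - d') - M.fh Sp β =
      (((2 * Real.sin β)⁻¹ : ℝ) : ℂ) • ((d - (A + ((spinSign false : ℝ) : ℂ) • B)) -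
        (d' - (A + ((spinSign true : ℝ) : ℂ) • B))) := by
    have e1 : (((Real.sin β)⁻¹ : ℝ) : ℂ) = (((2 * Real.sin β)⁻¹ : ℝ) : ℂ) * 2 := by
      have : ((Real.sin β : ℝ) : ℂ) ≠ 0 := by exact_mod_cast hs.ne'
      rw [ofReal_inv, ofReal_inv, ofReal_mul]
      field_simp
      norm_num
    rw [fh, ← hB, e1, mul_smul, ← smul_sub]
    congr 1
    simp only [spinSign, Bool.false_eq_true, if_false, if_true, ofReal_one, ofReal_neg, one_smul,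
      neg_smul, two_smul]
    abel
  rw [e, norm_smul, norm_real, Real.norm_eq_abs, abs_of_pos (by positivity)]
  have h3 := (norm_sub_le _ _).trans (add_le_add h h')
  have h4 : (2 * Real.sin β)⁻¹ ≤ β⁻¹ := inv_anti₀ h0 (by linarith)
  calc _ ≤ β⁻¹ * (C * β ^ 2 + C' * β ^ 2) :=
        mul_le_mul h4 h3 (norm_nonneg _) (by positivity)
    _ = (C + C') * β := by field_simp

set_option maxHeartbeats 1600000 in
theorem sz_main (hgl : M.S_GL) (hfl : M.S_FLOW j0) (hds : ∀ w', M.SzDir Sp w')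
    {V : ℝ → K →L[ℂ] K} (h : M.Sim j Sp V) (γ : ℝ)
    (hc : 1 / 2 ≤ M.cL V) : M.Sim j Sp (fun l => M.RZ (γ * l) * V l) := by
  obtain ⟨D, hD, hS⟩ := h
  refine ⟨extZ D γ, M.ideal_extZ j hD γ, fun R => ?_⟩
  obtain ⟨R0, hR0⟩ := hds D.w
  set R' := max R (max 3 R0) with hR'
  have hRR : R ≤ R' := le_max_left _ _
  have hR3 : 3 ≤ R' := (le_max_left _ _).trans (le_max_right _ _)
  have hR0' : R0 ≤ R' := (le_max_right _ _).trans (le_max_right _ _)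
  obtain ⟨C, hC, β0, hβ0, hS⟩ := hS R'
  obtain ⟨C1, hC1, hd1⟩ := hR0 C
  have hγ : 0 ≤ |γ| := abs_nonneg γ
  obtain ⟨Λ1, hΛ1, β1, hβ1, hp1⟩ := M.pos j Sp hgl hD hc (γ / 2) (C + (1 + |γ|) * (C1 + 1))
  obtain ⟨C3, hC3, β3, hβ3, hf1⟩ := M.sz_flip Sp hfl D.w R' C (Λ1 + |γ|) hR3 hC
  obtain ⟨C4, hC4, hd2⟩ := hR0 C3
  set C5 := C + (1 + |γ|) * (C1 + C4 + 2) with hC5
  obtain ⟨Λ2, hΛ2, β2, hβ2, hp2⟩ := M.pos j Sp hgl hD hc γ C5
  obtain ⟨C7, hC7, β7, hβ7, ht⟩ := M.tab_extZ j Sp hD γ C5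
  obtain ⟨C8, hC8, β8, hβ8, hf2⟩ := M.sz_flip Sp hfl (.w D.n γ :: D.w) R' C3 Λ2 hR3 hC3
  have hCC5 : C ≤ C5 := by rw [hC5]; nlinarith
  have hC70 : 0 ≤ C7 := hC.trans (hCC5.trans hC7)
  refine ⟨C7 + C8, by positivity,
    min (min (min β0 β1) (min β3 β2)) (min (min β7 β8) (1 / 2)), by positivity, ?_⟩
  intro β h0 hβ
  simp only [le_min_iff] at hβ
  obtain ⟨⟨⟨hb0, hb1⟩, hb3, hb2⟩, ⟨hb7, hb8⟩, hb⟩ := hβ
  obtain ⟨U, a, h, hU⟩ := hS β h0 hb0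
  obtain ⟨s1, s2⟩ := sz_sin h0 hb
  have hs : 0 < Real.sin β := by linarith
  obtain ⟨θ, hθ, hbulk⟩ := hU.bulk
  set d := j0 (M.psi (U * Sp.V0 β)) with hd
  set A := M.jp Sp β (M.pref Sp β a D.w) with hA
  set H : ℝ := γ * (2 * Real.sin β)⁻¹ with hH
  have hHs : ((Real.sin β : ℝ) : ℂ) * (H : ℂ) = ((γ / 2 : ℝ) : ℂ) := by
    rw [← ofReal_mul, hH]; congr 1; field_simp
  have hHb : |H| ≤ |γ| / β := by
    rw [hH, abs_mul, abs_of_pos (a := (2 * Real.sin β)⁻¹) (by positivity), div_eq_mul_inv]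
    exact mul_le_mul_of_nonneg_left (inv_anti₀ h0 (by linarith)) hγ
  -- spikes of `U`
  have hsp0 : ∀ s ∈ Sp.LS β, ∀ b, ∃ θ' : ℂ, ‖θ'‖ = 1 ∧ ‖U (M.atom b s.2.2) -
      θ' • M.atom b (s.2.2 + ((spinSign b : ℝ) : ℂ) • h)‖ ≤ C * β := by
    intro s hs b
    obtain ⟨θ1, h1, h2⟩ := hU.spike s hs b
    obtain ⟨θ2, h3, h4⟩ := M.sz_WZ h b s.2.2
    refine ⟨θ1 * θ2, by rw [norm_mul, h1, h3, mul_one], ?_⟩
    rwa [mul_smul, ← h4]
  have e1 := hd1 β h0 hb U 1 a θ false hU.mem (one_mem _) (Commute.one_right _) hU.tab.bd hθ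
    (fun b α hα => hbulk b α (hα.trans hR0'))
    (fun s hs => by
      obtain ⟨θ1, -, h2⟩ := hsp0 s hs s.2.1
      exact ⟨θ1, _, by simpa using h2⟩)
  have e1w : ‖d - A‖ ≤ (C1 + 1) * β := M.sz_weak Sp h0 hb hC1 false e1
  -- first cost gate
  set W1 := M.WZ ((H : ℂ) • d) * U with hW1
  have hW1m : W1 ∈ unitary (K →L[ℂ] K) := mul_mem (M.WZ_mem _) hU.mem
  have hW1r : M.PReach j0 (W1 * Sp.V0 β) := by
    rw [hW1, mul_assoc]; exact hU.reach.cost M H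
  have hW1p : j0 (M.psi (W1 * Sp.V0 β)) = d := by
    rw [hW1, mul_assoc, M.psi_mul_of_commute (M.WZ_mem _) (M.Z_WZ _)]
  set k1 : E := h + (H : ℂ) • d with hk1
  have hz1 : ((Real.sin β : ℝ) : ℂ) • k1 - M.zsum Sp β a D.zs - ((γ / 2 : ℝ) : ℂ) • A =
      (((Real.sin β : ℝ) : ℂ) • h - M.zsum Sp β a D.zs) + ((γ / 2 : ℝ) : ℂ) • (d - A) := by
    rw [hk1, smul_add, smul_smul, hHs, smul_sub]; abel
  have hγ2 : ‖((γ / 2 : ℝ) : ℂ)‖ ≤ |γ| := by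
    rw [norm_real, Real.norm_eq_abs, abs_div, abs_two]; linarith
  have hz1' : ‖((Real.sin β : ℝ) : ℂ) • k1 - M.zsum Sp β a D.zs - ((γ / 2 : ℝ) : ℂ) • A‖ ≤
      C * β + |γ| * ((C1 + 1) * β) := by
    rw [hz1]
    refine (norm_add_le _ _).trans (add_le_add hU.hz ?_)
    rw [norm_smul]
    exact mul_le_mul hγ2 e1w (norm_nonneg _) hγ
  have hx1 : 0 ≤ (C1 + 1) * β := by positivity
  have hx2 : 0 ≤ C * β := by positivity
  have hx3 : 0 ≤ |γ| * ((C1 + 1) * β) := by positivity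
  have hq1 := hp1 β h0 hb1 a d k1 (hU.tab.mono M Sp h0.le (by nlinarith))
    (e1w.trans (by nlinarith)) (hz1'.trans (by nlinarith))
  obtain ⟨T1, hT1, hT1r, θ2, hθ2, hb2', hs2⟩ := hf1 β h0 hb3 W1 a H k1 false θ hW1r hW1m
    hU.tab.bd (hHb.trans (div_le_div_of_nonneg_right (by linarith) h0.le)) hθ
    (fun b α hα => by
      rw [hW1p, hW1, ContinuousLinearMap.mul_apply, ← map_smul (M.WZ ((H : ℂ) • d)), ← map_sub,
        unit_norm (M.WZ_mem _)]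
      exact hbulk b α hα)
    (fun s hs b => by
      obtain ⟨θ1, h1, h2⟩ := hsp0 s hs b
      obtain ⟨θ3, h3, h4⟩ := M.sz_shift h1 b _ ((H : ℂ) • d) h2
      refine ⟨θ3, h3, ?_⟩
      rw [hk1, smul_add, ← add_assoc, Bool.false_xor]
      exact h4)
    (fun s hs b => by
      rw [hW1p]
      exact ⟨(hq1 s hs b).1.trans (div_le_div_of_nonneg_right (by linarith) h0.le),
        (hq1 s hs b).2⟩)
  rw [hW1p] at hb2'
  set U2 := T1 * W1 with hU2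
  have hU2m : U2 ∈ unitary (K →L[ℂ] K) := mul_mem hT1 hW1m
  set d' := j0 (M.psi (U2 * Sp.V0 β)) with hd'
  have e2 := hd2 β h0 hb U2 (M.WZ ((H : ℂ) • d)) a θ2 true hU2m (M.WZ_mem _) (M.Z_WZ _)
    hU.tab.bd hθ2 (fun b α hα => hb2' b α (hα.trans hR0'))
    (fun s hs => by
      obtain ⟨θ1, -, h2⟩ := hs2 s hs s.2.1
      exact ⟨θ1, _, h2⟩)
  have e2w : ‖d' - A‖ ≤ (C4 + 1) * β := M.sz_weak Sp h0 hb hC4 true e2
  set g : E := (((2 * Real.sin β)⁻¹ : ℝ) : ℂ) • (d - d') with hg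
  have hgf : ‖g - M.fh Sp β‖ ≤ (C1 + C4) * β := M.sz_g Sp h0 hb e1 e2
  have hx4 : 0 ≤ (C4 + 1) * β := by positivity
  have hx5 : 0 ≤ |γ| * ((C4 + 1) * β) := by positivity
  have hC5β : C5 * β = C * β + (C1 + 1) * β + (C4 + 1) * β + |γ| * ((C1 + 1) * β) +
      |γ| * ((C4 + 1) * β) := by rw [hC5]; ring
  have htab5 := hU.tab.mono M Sp h0.le hCC5
  set a' := Function.update a D.n g with ha'
  have htab : M.Tab Sp (extZ D γ) β C7 a' := ht β h0 hb7 a g htab5 (hgf.trans (by nlinarith))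
  have haa : ∀ i, 2 ≤ i → i < D.n → a' i = a i := fun i _ hi =>
    Function.update_of_ne hi.ne _ _
  -- second cost gate
  set W3 := M.WZ (((-H : ℝ) : ℂ) • d') * U2 with hW3
  have hW3m : W3 ∈ unitary (K →L[ℂ] K) := mul_mem (M.WZ_mem _) hU2m
  have hW3r : M.PReach j0 (W3 * Sp.V0 β) := by
    rw [hW3, mul_assoc]; exact hT1r.cost M (-H)
  have hW3p : j0 (M.psi (W3 * Sp.V0 β)) = d' := by
    rw [hW3, mul_assoc, M.psi_mul_of_commute (M.WZ_mem _) (M.Z_WZ _)]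
  set k2 : E := k1 + (H : ℂ) • d' with hk2
  have hz2 : ((Real.sin β : ℝ) : ℂ) • k2 - M.zsum Sp β a D.zs - (γ : ℂ) • A =
      (((Real.sin β : ℝ) : ℂ) • k1 - M.zsum Sp β a D.zs - ((γ / 2 : ℝ) : ℂ) • A) +
        ((γ / 2 : ℝ) : ℂ) • (d' - A) := by
    have : (γ : ℂ) • A = ((γ / 2 : ℝ) : ℂ) • A + ((γ / 2 : ℝ) : ℂ) • A := by
      rw [← add_smul, ← ofReal_add, add_halves]
    rw [hk2, smul_add, smul_smul, hHs, smul_sub, this]; abel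
  have hz2' : ‖((Real.sin β : ℝ) : ℂ) • k2 - M.zsum Sp β a D.zs - (γ : ℂ) • A‖ ≤ C5 * β := by
    rw [hz2]
    refine (norm_add_le _ _).trans ?_
    have : ‖((γ / 2 : ℝ) : ℂ) • (d' - A)‖ ≤ |γ| * ((C4 + 1) * β) := by
      rw [norm_smul]
      exact mul_le_mul hγ2 e2w (norm_nonneg _) hγ
    linarith
  have hq2 := hp2 β h0 hb2 a d' k2 htab5 (e2w.trans (by linarith)) hz2'
  have hwd : M.wd a' (.w D.n γ :: D.w) = M.WZ ((γ : ℂ) • g) * M.wd a D.w := by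
    rw [M.wd_cons, M.wd_congr hD.win haa]
    simp only [itOp, ha', Function.update_self]
  have hsum : ((-H : ℝ) : ℂ) • d' + (H : ℂ) • d = (γ : ℂ) • g := by
    rw [hg, smul_smul, ← ofReal_mul, ← hH, smul_sub, ofReal_neg, neg_smul]; abel
  obtain ⟨T2, hT2, hT2r, θ4, hθ4, hb4, hs4⟩ := hf2 β h0 hb8 W3 a' 0 k2 true
    (θ2 * cexp (-(I * ((inner ℂ (((-H : ℝ) : ℂ) • d') ((H : ℂ) • d)).im : ℂ)))) hW3r hW3m htab.bd
    (by rw [abs_zero]; positivity) (by rw [norm_mul, hθ2, a6_exp_norm, mul_one])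
    (fun b α hα => by
      have := hb2' b α hα
      rw [← unit_norm (M.WZ_mem (((-H : ℝ) : ℂ) • d')), map_sub, map_smul,
        ← ContinuousLinearMap.mul_apply (M.WZ _) (M.WZ _), M.WZ_mul, hsum] at this
      rw [ofReal_zero, zero_smul, M.WZ_zero, hwd, mul_smul]
      exact this)
    (fun s hs b => by
      obtain ⟨θ1, h1, h2⟩ := hs2 s hs b
      obtain ⟨θ3, h3, h4⟩ := M.sz_shift h1 _ _ (((-H : ℝ) : ℂ) • d') h2
      refine ⟨θ3, h3, ?_⟩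
      have : s.2.2 + ((spinSign b : ℝ) : ℂ) • k2 = s.2.2 + ((spinSign b : ℝ) : ℂ) • k1 +
          ((spinSign (xor (!false) b) : ℝ) : ℂ) • ((-H : ℝ) : ℂ) • d' := by
        rw [hk2, smul_add, ← add_assoc]
        congr 1
        cases b <;> simp [spinSign]
      rw [this]
      exact h4)
    (fun s hs b => by rw [hW3p]; exact hq2 s hs b)
  have hy1 : 0 ≤ C7 * β := by positivity
  have hy2 : 0 ≤ C8 * β := by positivity
  have hy3 : 0 ≤ C7 * β ^ 2 := by positivity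
  refine ⟨T2 * W3, a', k2, mul_mem hT2 hW3m, hT2r, htab.mono M Sp h0.le (by linarith),
    ⟨θ4, hθ4, fun b α hα => ?_⟩, fun s hs b => ?_, ?_⟩
  · have := hb4 b α (hα.trans hRR)
    rw [ofReal_zero, zero_smul, M.WZ_zero] at this
    exact this.trans (by linarith)
  · obtain ⟨θ1, h1, h2⟩ := hs4 s hs b
    obtain ⟨θ3, h3, h4⟩ := M.sz_WZ k2 b s.2.2
    have h5 : θ3 ≠ 0 := by rintro rfl; simp at h3
    refine ⟨θ1 * θ3⁻¹, by rw [norm_mul, norm_inv, h1, h3]; simp, ?_⟩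
    rw [h4, smul_smul, mul_assoc θ1, inv_mul_cancel₀ h5, mul_one]
    have h6 : xor (!true) b = b := by simp
    rw [h6] at h2
    exact h2.trans (by linarith)
  · have : M.zsum Sp β a' (extZ D γ).zs = (γ : ℂ) • A + M.zsum Sp β a D.zs := by
      rw [← M.zsum_congr Sp β hD.zs_in haa, hA, ← M.pref_congr Sp β hD.win haa]
      simp [zsum, extZ]
    rw [this, add_comm, ← sub_sub]
    exact hz2'.trans ((mul_le_mul_of_nonneg_right hC7 h0.le).trans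
      (by rw [add_mul]; exact le_add_of_nonneg_right hy2))

end Model
end Crest.Agent.R339
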