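import Crest.Agent.R339.D1.Ext
import Crest.Agent.R339.D1.Dir2
import Crest.Agent.R339.D1.SimZb

/-! # Row 339, block D1: simulation: label phases -/

set_option autoImplicit false
open MeasureTheory ProbabilityTheory Filter Topology Complex
open Crest.MathPhysics.SpinGlass

namespace Crest.Agent.R339
variable {E K : Type} [NormedAddCommGroup E] [InnerProductSpace ℂ E]
  [NormedAddCommGroup K] [InnerProductSpace ℂ K] [CompleteSpace K]
namespace Model
variable (M : Model E K)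
variable {j0 : K →ₗᵢ[ℂ] E} (j : Lp K 2 (gaussianReal 0 1) →ₗᵢ[ℂ] E) (Sp : M.Spike j0)

/-- `H = γ/(2 sin β)`. `U₁ = WZ (H d) U`; `S_FLOW` (`τ = π/2`, this `H`; `pos` with `γ/2`,
`h + H d`); `d' = j0 ψ (U₂ V0) ≈ jp (pref - Z x_S)` and `d ≈ jp (pref + Z x_S)` up to `O(β²)`
(`dir_strong`); `U₃ = WZ (-H d') U₂`, on the bulk `WZ (-H d') WZ (H d) = phase • WZ (γ g)`,
`g = (2 sin β)⁻¹ (d - d')`, `‖g - fh‖ = O(β)` (`tab_extZ`); second `S_FLOW` (`τ = π/2`, `H = 0`;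
`pos` with `γ`, `h' = h + H (d + d')`, direction `d'`); `RX_pi_div_two`, `X_atom`, `WZ_atom`. -/
theorem sim_zph (hgl : M.S_GL) (hfl : M.S_FLOW j0) {V : ℝ → K →L[ℂ] K} (h : M.Sim j Sp V) (γ : ℝ)
    (hc : 1 / 2 ≤ M.cL V) : M.Sim j Sp (fun l => M.RZ (γ * l) * V l) :=
  M.sz_main j Sp hgl hfl (fun w' => M.dir_strong' Sp w') h γ hc

end Model
end Crest.Agent.R339
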