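import Crest.Agent.R339.D1.Word

/-! # Row 339, block D1: spectral bounds -/

set_option autoImplicit false
open MeasureTheory ProbabilityTheory Filter Topology Complex
open Crest.MathPhysics.SpinGlass

namespace Crest.Agent.R339
variable {E K : Type} [NormedAddCommGroup E] [InnerProductSpace ℂ E]
  [NormedAddCommGroup K] [InnerProductSpace ℂ K] [CompleteSpace K]
namespace Model
variable (M : Model E K)

/-- trigonometric polynomials of the field `φ d` with frequencies in `± ℕ ω`, with their symbols. -/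
inductive SpRep (ω : ℝ) (d : E) : (K →L[ℂ] K) → (ℝ → ℂ) → Prop
  | w (s : ℝ) (hs : ∃ k : ℕ, s = k * ω ∨ s = -(k * ω)) :
      SpRep ω d (M.W (((s : ℝ) : ℂ) • d)) (fun h => cexp (-(I * ((s * h : ℝ) : ℂ))))
  | zero : SpRep ω d 0 (fun _ => 0)
  | add {T T' : K →L[ℂ] K} {g g' : ℝ → ℂ} : SpRep ω d T g → SpRep ω d T' g' →
      SpRep ω d (T + T') (fun h => g h + g' h)
  | smul (c : ℂ) {T : K →L[ℂ] K} {g : ℝ → ℂ} : SpRep ω d T g →
      SpRep ω d (c • T) (fun h => c * g h)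

variable {M}

theorem SpRep.congr {ω : ℝ} {d : E} {T T' : K →L[ℂ] K} {g g' : ℝ → ℂ} (h : M.SpRep ω d T g)
    (hT : T = T') (hg : ∀ x, g x = g' x) : M.SpRep ω d T' g' := by
  have : g = g' := funext hg
  subst this hT
  exact h

theorem SpRep.bdd {ω : ℝ} {d : E} {T : K →L[ℂ] K} {g : ℝ → ℂ} (h : M.SpRep ω d T g) :
    Continuous g ∧ ∃ C, ∀ x, ‖g x‖ ≤ C := by
  induction h with
  | w s hs => exact ⟨by fun_prop, 1, fun x => (a6_exp_norm _).le⟩
  | zero => exact ⟨continuous_const, 0, fun _ => by simp⟩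
  | add _ _ h1 h2 =>
    obtain ⟨c1, C1, b1⟩ := h1
    obtain ⟨c2, C2, b2⟩ := h2
    exact ⟨c1.add c2, C1 + C2, fun x => (norm_add_le _ _).trans (add_le_add (b1 x) (b2 x))⟩
  | smul c _ h1 =>
    obtain ⟨c1, C1, b1⟩ := h1
    refine ⟨continuous_const.mul c1, ‖c‖ * C1, fun x => ?_⟩
    rw [norm_mul]
    exact mul_le_mul_of_nonneg_left (b1 x) (norm_nonneg _)

theorem SpRep.commute_P {ω : ℝ} {d : E} {T : K →L[ℂ] K} {g : ℝ → ℂ} (h : M.SpRep ω d T g)
    (b : Bool) : Commute (M.P b) T := by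
  induction h with
  | w s hs => exact M.P_W b _
  | zero => exact Commute.zero_right _
  | add _ _ h1 h2 => exact h1.add_right h2
  | smul c _ h1 => exact h1.smul_right c

omit [CompleteSpace K] in
theorem sp_im (d : E) (s s' : ℝ) :
    (inner ℂ (((s : ℝ) : ℂ) • d) (((s' : ℝ) : ℂ) • d) : ℂ).im = 0 := by
  rw [inner_smul_left, inner_smul_right, inner_self_eq_norm_sq_to_K, Complex.conj_ofReal]
  have : ((s : ℂ) * ((s' : ℂ) * ((‖d‖ : ℝ) : ℂ) ^ 2)) = ((s * (s' * ‖d‖ ^ 2) : ℝ) : ℂ) := by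
    push_cast; ring
  exact (congrArg Complex.im this).trans (Complex.ofReal_im _)

variable (M)

theorem sp_pow (ω : ℝ) (d : E) (k : ℕ) :
    M.W (((k * ω : ℝ) : ℂ) • d) = M.W (((ω : ℝ) : ℂ) • d) ^ k := by
  induction k with
  | zero => simp [M.W_zero]
  | succ k ih =>
    rw [pow_succ, ← ih, ← M.W_add_of_im (sp_im d _ _), ← add_smul]
    congr 2
    push_cast; ring

variable {M}

theorem SpRep.cfc {ω : ℝ} {d : E} {T : K →L[ℂ] K} {g : ℝ → ℂ} (h : M.SpRep ω d T g) :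
    ∃ F : ℂ → ℂ, Continuous F ∧ T = cfc F (M.W (((ω : ℝ) : ℂ) • d)) ∧
      ∀ x : ℝ, F (cexp (-(I * ((ω * x : ℝ) : ℂ)))) = g x := by
  have hn : IsStarNormal (M.W (((ω : ℝ) : ℂ) • d)) :=
    Unitary.coe_isStarNormal ⟨_, M.W_mem _⟩
  induction h with
  | w s hs =>
    obtain ⟨k, rfl | rfl⟩ := hs
    · refine ⟨fun z => z ^ k, by fun_prop, ?_, fun x => ?_⟩
      · rw [cfc_pow_id _ k, M.sp_pow]
      · beta_reduce
        rw [← Complex.exp_nat_mul]
        congr 1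
        push_cast; ring
    · refine ⟨fun z => star (z ^ k), by fun_prop, ?_, fun x => ?_⟩
      · rw [cfc_star (fun z : ℂ => z ^ k), cfc_pow_id _ k, ← M.sp_pow, M.W_star, ← neg_smul]
        congr 2
        push_cast; ring
      · beta_reduce
        rw [← Complex.exp_nat_mul, Complex.star_def, ← Complex.exp_conj]
        congr 1
        simp only [map_mul, map_neg, map_natCast, Complex.conj_I, Complex.conj_ofReal]
        push_cast; ring
  | zero => exact ⟨fun _ => 0, continuous_const, (cfc_const_zero ℂ _).symm, fun _ => rfl⟩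
  | add _ _ h1 h2 =>
    obtain ⟨F1, c1, e1, s1⟩ := h1
    obtain ⟨F2, c2, e2, s2⟩ := h2
    refine ⟨fun z => F1 z + F2 z, c1.add c2, ?_, fun x => by simp only [s1, s2]⟩
    rw [cfc_add _ F1 F2 c1.continuousOn c2.continuousOn, ← e1, ← e2]
  | smul c _ h1 =>
    obtain ⟨F1, c1, e1, s1⟩ := h1
    refine ⟨fun z => c * F1 z, continuous_const.mul c1, ?_, fun x => by simp only [s1]⟩
    rw [cfc_const_mul c F1 _ c1.continuousOn, ← e1]

theorem SpRep.norm_le {ω : ℝ} {d : E} {T : K →L[ℂ] K} {g : ℝ → ℂ} (h : M.SpRep ω d T g)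
    {B : ℝ} (hB : ∀ x, ‖g x‖ ≤ B) : ‖T‖ ≤ B := by
  obtain ⟨F, -, e, s⟩ := h.cfc
  rw [e]
  refine norm_cfc_le ((norm_nonneg _).trans (hB 0)) fun z hz => ?_
  have : ∃ x : ℝ, z = cexp (-(I * ((ω * x : ℝ) : ℂ))) := by
    by_cases hω : ω = 0
    · refine ⟨0, ?_⟩
      subst hω
      simp only [Complex.ofReal_zero, zero_smul, M.W_zero] at hz
      simp only [mul_zero, Complex.ofReal_zero, neg_zero, Complex.exp_zero]
      by_contra hne
      apply spectrum.mem_iff.1 hz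
      have : algebraMap ℂ (K →L[ℂ] K) z - 1 = algebraMap ℂ (K →L[ℂ] K) (z - 1) := by
        rw [map_sub, map_one]
      rw [this]
      exact (IsUnit.mk0 _ (sub_ne_zero.2 hne)).map _
    · have h1 : ‖z‖ = 1 := by
        simpa using spectrum.subset_circle_of_unitary (M.W_mem _) hz
      refine ⟨-(arg z) / ω, ?_⟩
      have h2 := Complex.norm_mul_exp_arg_mul_I z
      rw [h1, Complex.ofReal_one, one_mul] at h2
      have h3 : ω * (-(arg z) / ω) = -(arg z) := by field_simp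
      rw [h3]
      refine h2.symm.trans ?_
      congr 1
      push_cast; ring
  obtain ⟨x, rfl⟩ := this
  rw [s]
  exact hB x

variable (M)

theorem sp_base (d α : E) (s s' : ℝ) :
    inner ℂ (M.W (((s : ℝ) : ℂ) • d) (M.W α M.Ω)) (M.W (((s' : ℝ) : ℂ) • d) (M.W α M.Ω)) =
      ∫ x : ℝ, (starRingEnd ℂ) (cexp (-(I * ((s * (2 * (inner ℂ d α : ℂ).im + ‖d‖ * x) : ℝ) : ℂ)))) *
        cexp (-(I * ((s' * (2 * (inner ℂ d α : ℂ).im + ‖d‖ * x) : ℝ) : ℂ))) ∂(gaussianReal 0 1) := by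
  set m : ℝ := (inner ℂ d α : ℂ).im with hm
  have hR : ∀ x : ℝ, (starRingEnd ℂ) (cexp (-(I * ((s * (2 * m + ‖d‖ * x) : ℝ) : ℂ)))) *
      cexp (-(I * ((s' * (2 * m + ‖d‖ * x) : ℝ) : ℂ))) =
      cexp (I * (((s - s') * (2 * m) : ℝ) : ℂ)) * cexp ((((s - s') * ‖d‖ : ℝ) : ℂ) * x * I) := by
    intro x
    rw [← Complex.exp_conj, ← Complex.exp_add, ← Complex.exp_add]
    congr 1
    simp only [map_mul, map_neg, Complex.conj_I, Complex.conj_ofReal]
    push_cast; ring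
  simp only [hR]
  rw [integral_const_mul, ← charFun_apply_real, charFun_gaussianReal]
  -- left side
  have e1 : star (M.W α) * (star (M.W (((s : ℝ) : ℂ) • d)) * M.W (((s' : ℝ) : ℂ) • d)) * M.W α =
      cexp (I * (((s - s') * (2 * m) : ℝ) : ℂ)) • M.W (((s' - s : ℝ) : ℂ) • d) := by
    rw [M.W_star, M.W_star, ← neg_smul, ← Complex.ofReal_neg, ← M.W_add_of_im (sp_im d _ _),
      ← add_smul, ← Complex.ofReal_add, mul_assoc, M.W_comm _ α, mul_smul_comm, ← mul_assoc,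
      ← M.W_star, (Unitary.mem_iff.1 (M.W_mem α)).1, one_mul, show -s + s' = s' - s by ring]
    congr 2
    rw [inner_smul_left, Complex.conj_ofReal, Complex.im_ofReal_mul, ← hm]
    push_cast; ring
  have e2 : inner ℂ (M.W (((s : ℝ) : ℂ) • d) (M.W α M.Ω))
      (M.W (((s' : ℝ) : ℂ) • d) (M.W α M.Ω)) = inner ℂ M.Ω ((star (M.W α) *
        (star (M.W (((s : ℝ) : ℂ) • d)) * M.W (((s' : ℝ) : ℂ) • d)) * M.W α) M.Ω) := by
    simp only [ContinuousLinearMap.mul_apply]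
    rw [inner_star_right, inner_star_right]
  rw [e2, e1, ContinuousLinearMap.smul_apply, inner_smul_right, M.vac, norm_smul,
    Complex.norm_real, Real.norm_eq_abs]
  congr 2
  have : ((|s' - s| * ‖d‖ : ℝ) : ℂ) ^ 2 = (((s - s') * ‖d‖ : ℝ) : ℂ) ^ 2 := by
    rw [← Complex.ofReal_pow, ← Complex.ofReal_pow, mul_pow, mul_pow, sq_abs]
    congr 1; ring
  rw [this]
  simp

variable {M}

theorem SpRep.integrable {ω : ℝ} {d : E} {T T' : K →L[ℂ] K} {g g' : ℝ → ℂ} (h : M.SpRep ω d T g)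
    (h' : M.SpRep ω d T' g') (a σ : ℝ) :
    Integrable (fun x : ℝ => (starRingEnd ℂ) (g (a + σ * x)) * g' (a + σ * x))
      (gaussianReal 0 1) := by
  obtain ⟨c1, C1, b1⟩ := h.bdd
  obtain ⟨c2, C2, b2⟩ := h'.bdd
  have hc : Continuous fun x : ℝ => (starRingEnd ℂ) (g (a + σ * x)) * g' (a + σ * x) := by
    have hl : Continuous fun x : ℝ => a + σ * x := by fun_prop
    exact (Complex.continuous_conj.comp (c1.comp hl)).mul (c2.comp hl)
  refine Integrable.of_bound hc.aestronglyMeasurable (C1 * C2) (ae_of_all _ fun x => ?_)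
  rw [norm_mul, Complex.norm_conj]
  exact mul_le_mul (b1 _) (b2 _) (norm_nonneg _) ((norm_nonneg _).trans (b1 0))

theorem SpRep.inner_w {ω : ℝ} {d : E} (α : E) (s : ℝ) (hs : ∃ k : ℕ, s = k * ω ∨ s = -(k * ω))
    {T' : K →L[ℂ] K} {g' : ℝ → ℂ} (h' : M.SpRep ω d T' g') :
    inner ℂ (M.W (((s : ℝ) : ℂ) • d) (M.W α M.Ω)) (T' (M.W α M.Ω)) =
      ∫ x : ℝ, (starRingEnd ℂ) (cexp (-(I * ((s * (2 * (inner ℂ d α : ℂ).im + ‖d‖ * x) : ℝ) : ℂ)))) *
        g' (2 * (inner ℂ d α : ℂ).im + ‖d‖ * x) ∂(gaussianReal 0 1) := by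
  induction h' with
  | w s' hs' => exact M.sp_base d α s s'
  | zero => simp
  | add r1 r2 h1 h2 =>
    rw [ContinuousLinearMap.add_apply, inner_add_right, h1, h2,
      ← integral_add ((SpRep.w s hs).integrable r1 _ _) ((SpRep.w s hs).integrable r2 _ _)]
    simp only [mul_add]
  | smul c r1 h1 =>
    rw [ContinuousLinearMap.smul_apply, inner_smul_right, h1, ← integral_const_mul]
    simp only [mul_left_comm]

theorem SpRep.inner_eq {ω : ℝ} {d : E} (α : E) {T T' : K →L[ℂ] K} {g g' : ℝ → ℂ}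
    (h : M.SpRep ω d T g) (h' : M.SpRep ω d T' g') :
    inner ℂ (T (M.W α M.Ω)) (T' (M.W α M.Ω)) =
      ∫ x : ℝ, (starRingEnd ℂ) (g (2 * (inner ℂ d α : ℂ).im + ‖d‖ * x)) *
        g' (2 * (inner ℂ d α : ℂ).im + ‖d‖ * x) ∂(gaussianReal 0 1) := by
  induction h with
  | w s hs => exact h'.inner_w α s hs
  | zero => simp
  | add r1 r2 h1 h2 =>
    rw [ContinuousLinearMap.add_apply, inner_add_left, h1, h2,
      ← integral_add (r1.integrable h' _ _) (r2.integrable h' _ _)]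
    simp only [map_add, add_mul]
  | smul c r1 h1 =>
    rw [ContinuousLinearMap.smul_apply, inner_smul_left, h1, ← integral_const_mul]
    simp only [map_mul, mul_assoc]

theorem sp_gauss_exp (t : ℝ) :
    ∫ x : ℝ, Real.exp (t * x) ∂(gaussianReal 0 1) = Real.exp (t ^ 2 / 2) := by
  have := congrFun (mgf_fun_id_gaussianReal (μ := 0) (v := 1)) t
  simpa [mgf] using this

theorem SpRep.atom_le {ω : ℝ} {d : E} {T : K →L[ℂ] K} {g : ℝ → ℂ} (h : M.SpRep ω d T g)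
    (hd : ‖d‖ ≤ 1) (b : Bool) (α : E) {ρ δ B : ℝ} (hρ : 0 ≤ ρ) (hB : ∀ x, ‖g x‖ ≤ B)
    (hδ : ∀ x, |x - 2 * (inner ℂ d α : ℂ).im| ≤ ρ → ‖g x‖ ≤ δ) :
    ‖T (M.atom b α)‖ ≤ δ + 2 * B * Real.exp (-(ρ ^ 2 / 4)) := by
  set a : ℝ := 2 * (inner ℂ d α : ℂ).im with ha
  have hB0 : 0 ≤ B := (norm_nonneg _).trans (hB 0)
  have hδ0 : 0 ≤ δ := (norm_nonneg _).trans (hδ a (by simpa using hρ))
  have h1 : ‖T (M.atom b α)‖ ≤ ‖T (M.W α M.Ω)‖ := by
    have : T (M.atom b α) = M.P b (T (M.W α M.Ω)) := by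
      rw [atom, ← ContinuousLinearMap.mul_apply, ← (h.commute_P b).eq,
        ContinuousLinearMap.mul_apply]
    rw [this]
    exact a6_contr (M.norm_P b) _
  have h2 : ‖T (M.W α M.Ω)‖ ^ 2 = ∫ x : ℝ, ‖g (a + ‖d‖ * x)‖ ^ 2 ∂(gaussianReal 0 1) := by
    have e := h.inner_eq α h
    rw [inner_self_eq_norm_sq_to_K, ← ha] at e
    simp only [Complex.conj_mul', ← Complex.ofReal_pow] at e
    rw [integral_complex_ofReal] at e
    have e' : ((‖T (M.W α M.Ω)‖ ^ 2 : ℝ) : ℂ) =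
        ((∫ x : ℝ, ‖g (a + ‖d‖ * x)‖ ^ 2 ∂(gaussianReal 0 1) : ℝ) : ℂ) := by
      rw [← e]; push_cast; rfl
    exact Complex.ofReal_injective e'
  have hi : ∀ t : ℝ, Integrable (fun x : ℝ => Real.exp (t * x)) (gaussianReal 0 1) :=
    fun t => integrable_exp_mul_gaussianReal t
  set c : ℝ := B ^ 2 * Real.exp (-(ρ ^ 2)) with hc
  have hc0 : 0 ≤ c := by positivity
  have h3 : ∀ x : ℝ, ‖g (a + ‖d‖ * x)‖ ^ 2 ≤
      δ ^ 2 + (c * Real.exp (ρ * x) + c * Real.exp (-ρ * x)) := by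
    intro x
    have p1 : 0 ≤ c * Real.exp (ρ * x) := by positivity
    have p2 : 0 ≤ c * Real.exp (-ρ * x) := by positivity
    have key : ∀ y : ℝ, ρ ≤ y → B ^ 2 ≤ c * Real.exp (ρ * y) := by
      intro y hy
      rw [hc, mul_assoc, ← Real.exp_add]
      refine le_mul_of_one_le_right (sq_nonneg _) (Real.one_le_exp ?_)
      nlinarith
    have hgB : ‖g (a + ‖d‖ * x)‖ ^ 2 ≤ B ^ 2 := pow_le_pow_left₀ (norm_nonneg _) (hB _) 2
    by_cases hx : |x| ≤ ρ
    · have : ‖g (a + ‖d‖ * x)‖ ≤ δ := by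
        refine hδ _ ?_
        rw [add_sub_cancel_left, abs_mul, abs_norm]
        exact (mul_le_of_le_one_left (abs_nonneg _) hd).trans hx
      have := pow_le_pow_left₀ (norm_nonneg _) this 2
      linarith
    · rcases le_abs'.1 (not_le.1 hx).le with hx | hx
      · have := key (-x) (by linarith)
        rw [show ρ * -x = -ρ * x by ring] at this
        nlinarith [sq_nonneg δ]
      · have := key x hx
        nlinarith [sq_nonneg δ]
  have h4 : ∫ x : ℝ, ‖g (a + ‖d‖ * x)‖ ^ 2 ∂(gaussianReal 0 1) ≤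
      δ ^ 2 + 2 * B ^ 2 * Real.exp (-(ρ ^ 2 / 4)) ^ 2 := by
    have hs : Integrable (fun x : ℝ => c * Real.exp (ρ * x) + c * Real.exp (-ρ * x))
        (gaussianReal 0 1) := ((hi ρ).const_mul c).add ((hi (-ρ)).const_mul c)
    refine (integral_mono_of_nonneg (ae_of_all _ fun x => sq_nonneg _)
      ((integrable_const (δ ^ 2)).add hs) (ae_of_all _ h3)).trans (le_of_eq ?_)
    simp only [Pi.add_apply]
    rw [integral_add (integrable_const _) hs,
      integral_add ((hi ρ).const_mul c) ((hi (-ρ)).const_mul c), integral_const_mul,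
      integral_const_mul, sp_gauss_exp, sp_gauss_exp, neg_sq, hc, mul_assoc, ← Real.exp_add,
      ← Real.exp_nat_mul]
    simp only [integral_const, probReal_univ, smul_eq_mul, one_mul]
    rw [show -ρ ^ 2 + ρ ^ 2 / 2 = ((2 : ℕ) : ℝ) * -(ρ ^ 2 / 4) by push_cast; ring]
    ring
  refine h1.trans (abs_le_of_sq_le_sq' ?_ (by positivity)).2
  rw [h2]
  refine h4.trans ?_
  have q : 0 ≤ B * Real.exp (-(ρ ^ 2 / 4)) := by positivity
  nlinarith [mul_nonneg hδ0 q, sq_nonneg (B * Real.exp (-(ρ ^ 2 / 4)))]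

variable (M)

theorem sp_cos (ω : ℝ) (d : E) (k : ℕ) :
    M.SpRep ω d (M.cosW (((k * ω : ℝ) : ℂ) • d)) fun h => ((Real.cos (k * ω * h) : ℝ) : ℂ) := by
  refine (((SpRep.w (M := M) (d := d) (-(k * ω)) ⟨k, Or.inr rfl⟩).add
    (SpRep.w (k * ω) ⟨k, Or.inl rfl⟩)).smul (1 / 2)).congr ?_ fun x => ?_
  · rw [cosW, ← neg_smul, ← Complex.ofReal_neg]
  · rw [a2_exp, a2_exp, neg_mul, Real.cos_neg, Real.sin_neg]
    push_cast; ring

theorem sp_sin (ω : ℝ) (d : E) (k : ℕ) :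
    M.SpRep ω d (M.sinW (((k * ω : ℝ) : ℂ) • d)) fun h => ((Real.sin (k * ω * h) : ℝ) : ℂ) := by
  refine (((SpRep.w (M := M) (d := d) (-(k * ω)) ⟨k, Or.inr rfl⟩).add
    ((SpRep.w (k * ω) ⟨k, Or.inl rfl⟩).smul (-1))).smul (1 / (2 * I))).congr ?_ fun x => ?_
  · rw [sinW, ← neg_smul, ← Complex.ofReal_neg, neg_one_smul, ← sub_eq_add_neg]
  · rw [a2_exp, a2_exp, neg_mul, Real.cos_neg, Real.sin_neg]
    push_cast
    field_simp
    ring

theorem sp_cosP (ω : ℝ) (L : List (ℝ × ℕ)) (d : E) :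
    M.SpRep ω d (M.cosP ω L d) fun h => ((cosF ω L h : ℝ) : ℂ) := by
  induction L with
  | nil => exact SpRep.zero.congr (by simp [cosP]) fun x => by simp [cosF]
  | cons t L ih =>
    refine (((M.sp_cos ω d t.2).smul ((t.1 : ℝ) : ℂ)).add ih).congr ?_ fun x => ?_
    · simp only [cosP, List.map_cons, List.sum_cons]
    · simp only [cosF, List.map_cons, List.sum_cons, Complex.ofReal_add, Complex.ofReal_mul]

theorem sp_dP (ω : ℝ) (L : List (ℝ × ℕ)) (d : E) :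
    M.SpRep ω d (M.dP ω L d) fun h => ((dF ω L h : ℝ) : ℂ) := by
  induction L with
  | nil => exact SpRep.zero.congr (by simp [dP]) fun x => by simp [dF]
  | cons t L ih =>
    refine (((M.sp_sin ω d t.2).smul ((-(t.1 * (t.2 * ω)) : ℝ) : ℂ)).add ih).congr ?_ fun x => ?_
    · simp only [dP, List.map_cons, List.sum_cons]
    · simp only [dF, List.map_cons, List.sum_cons, Complex.ofReal_add, Complex.ofReal_mul]

theorem sp_cosP_sub (ω : ℝ) (L : List (ℝ × ℕ)) (d : E) (c : ℝ) :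
    M.SpRep ω d (M.cosP ω L d - ((c : ℝ) : ℂ) • 1) fun h => ((cosF ω L h - c : ℝ) : ℂ) := by
  refine ((M.sp_cosP ω L d).add ((SpRep.w (M := M) (ω := ω) (d := d) 0
    ⟨0, Or.inl (by simp)⟩).smul (-((c : ℝ) : ℂ)))).congr ?_ fun x => ?_
  · simp [M.W_zero, sub_eq_add_neg]
  · simp [sub_eq_add_neg]

/-- Operator norms: `cosW ((kω) • d) = (u^k + star u^k)/2` with `u = W (ω • d)` unitary; continuous
functional calculus (`cfc`, `norm_cfc_le`; spectrum in the unit circle, `z = exp(-i ω h)`), or any other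
route. On an atom: `‖P b y‖ ≤ ‖y‖` and `⟪W α Ω, W (s • d) W α Ω⟫ = exp(-i s a - s²‖d‖²/2)`,
`a = 2 Im⟪d,α⟫`, which is `∫ exp(-i s (a + ‖d‖x)) dγ(x)`; hence `‖p(φ) W α Ω‖² = ∫ |p(a+‖d‖x)|² dγ`
for trigonometric polynomials; Gaussian tail `γ{|x| > ρ} ≤ 2 exp(-ρ²/2)`. -/
theorem spec : M.S_SPEC := by
  intro ω L d
  refine ⟨fun B hB => (M.sp_cosP ω L d).norm_le fun x => ?_,
    fun B hB => (M.sp_dP ω L d).norm_le fun x => ?_,
    fun hd b α ρ δ B c hρ => ⟨fun hB hδ => ?_, fun hB hδ => ?_⟩⟩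
  · rw [Complex.norm_real]; exact hB x
  · rw [Complex.norm_real]; exact hB x
  · exact (M.sp_cosP_sub ω L d c).atom_le hd b α hρ
      (fun x => by rw [Complex.norm_real]; exact hB x)
      (fun x hx => by rw [Complex.norm_real]; exact hδ x hx)
  · exact (M.sp_dP ω L d).atom_le hd b α hρ
      (fun x => by rw [Complex.norm_real]; exact hB x)
      (fun x hx => by rw [Complex.norm_real]; exact hδ x hx)

end Model
end Crest.Agent.R339
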