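import Crest.Agent.R339.D1.Word

/-! # Row 339, block D1: the spike source -/

set_option autoImplicit false
open MeasureTheory ProbabilityTheory Filter Topology Complex
open Crest.MathPhysics.SpinGlass

namespace Crest.Agent.R339
variable {E K : Type} [NormedAddCommGroup E] [InnerProductSpace ℂ E]
  [NormedAddCommGroup K] [InnerProductSpace ℂ K] [CompleteSpace K]
namespace Model
variable (M : Model E K)

theorem sp_WY_Ω (α : E) : M.WY α M.Ω = cexp (-(I * ((Real.pi / 4 : ℝ) : ℂ))) •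
    M.RX (-(Real.pi / 4)) (M.atom false α + M.atom true (-α)) := by
  have h1 : M.WY α M.Ω = M.RX (-(Real.pi / 4)) (M.WZ α (M.RX (Real.pi / 4) M.Ω)) := rfl
  rw [h1, M.RX_Ω, map_smul, map_smul]
  rfl

theorem sp_exists_LS (c : ℂ) (α : E) : ∃ L : List (ℂ × Bool × E), L.length ≤ 4 ∧
    M.atoms L = c • M.X (M.WY α M.Ω) ∧ ∀ s ∈ L, ‖s.1‖ ≤ ‖c‖ ∧ (s.2.2 = α ∨ s.2.2 = -α) := by
  set e : ℂ := cexp (-(I * ((Real.pi / 4 : ℝ) : ℂ))) with he
  have hen : ‖e‖ = 1 := a6_exp_norm _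
  set u : ℂ := ((Real.cos (-(Real.pi / 4)) : ℝ) : ℂ) with hu
  set v : ℂ := -(I * ((Real.sin (-(Real.pi / 4)) : ℝ) : ℂ)) with hv
  have hun : ‖u‖ ≤ 1 := by
    rw [hu, Complex.norm_real]; exact Real.abs_cos_le_one _
  have hvn : ‖v‖ ≤ 1 := by
    rw [hv, norm_neg, norm_mul, Complex.norm_I, one_mul, Complex.norm_real]
    exact Real.abs_sin_le_one _
  have hR : ∀ y : K, M.RX (-(Real.pi / 4)) y = u • y + v • M.X y := by
    intro y
    simp only [RX, hu, hv, neg_smul, sub_eq_add_neg]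
    rfl
  refine ⟨[(c * e * u, true, α), (c * e * v, false, α), (c * e * u, false, -α),
    (c * e * v, true, -α)], by simp, ?_, ?_⟩
  · rw [M.sp_WY_Ω, hR]
    simp only [atoms_cons, atoms_nil, map_smul, map_add, M.X_atom, Bool.not_false,
      Bool.not_true, ← he]
    module
  · have h1 : ‖c * e * u‖ ≤ ‖c‖ := by
      rw [norm_mul, norm_mul, hen, mul_one]; exact mul_le_of_le_one_right (norm_nonneg _) hun
    have h2 : ‖c * e * v‖ ≤ ‖c‖ := by
      rw [norm_mul, norm_mul, hen, mul_one]; exact mul_le_of_le_one_right (norm_nonneg _) hvn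
    intro s hs
    simp only [List.mem_cons, List.not_mem_nil, or_false] at hs
    rcases hs with rfl | rfl | rfl | rfl
    exacts [⟨h1, Or.inl rfl⟩, ⟨h2, Or.inl rfl⟩, ⟨h1, Or.inr rfl⟩, ⟨h2, Or.inr rfl⟩]

theorem sp_far_atom {n : ℕ} {R : ℝ} {x : K} (hx : M.Comb n R x) (b : Bool) {p : E} {r : ℝ}
    (hr : 0 ≤ r) (hp : R + r ≤ ‖p‖) :
    ‖inner ℂ (M.atom b p) x‖ ≤ n * Real.exp (-(r ^ 2 / 2)) := by
  obtain ⟨L, hL, hb, rfl⟩ := hx
  have key : ∀ L : List (ℂ × Bool × E), (∀ t ∈ L, ‖t.1‖ ≤ 1 ∧ ‖t.2.2‖ ≤ R) →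
      ‖inner ℂ (M.atom b p) (M.atoms L)‖ ≤ L.length * Real.exp (-(r ^ 2 / 2)) := by
    intro L
    induction L with
    | nil => intro _; simp [atoms_nil]
    | cons t L ih =>
      intro h
      have h1 := h t (by simp)
      have h2 := ih fun s hs => h s (by simp [hs])
      rw [atoms_cons, inner_add_right, inner_smul_right]
      have h3 : ‖inner ℂ (M.atom b p) (M.atom t.2.1 t.2.2)‖ ≤ Real.exp (-(r ^ 2 / 2)) := by
        refine (M.norm_inner_atom _ _ _ _).trans (Real.exp_le_exp.2 ?_)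
        have h4 : r ≤ ‖p - t.2.2‖ := by
          have := norm_sub_norm_le p t.2.2
          linarith [h1.2]
        have := pow_le_pow_left₀ hr h4 2
        linarith
      have h5 : ‖t.1 * inner ℂ (M.atom b p) (M.atom t.2.1 t.2.2)‖ ≤ Real.exp (-(r ^ 2 / 2)) := by
        rw [norm_mul]
        calc _ ≤ 1 * Real.exp (-(r ^ 2 / 2)) :=
              mul_le_mul h1.1 h3 (norm_nonneg _) zero_le_one
          _ = _ := one_mul _
      refine (norm_add_le _ _).trans ?_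
      simp only [List.length_cons, Nat.cast_add, Nat.cast_one]
      linarith
  refine (key L hb).trans (mul_le_mul_of_nonneg_right ?_ (Real.exp_pos _).le)
  exact_mod_cast hL

theorem sp_far {n : ℕ} {R : ℝ} {x : K} (hx : M.Comb n R x) {α : E} {r : ℝ}
    (hr : 0 ≤ r) (hp : R + r ≤ ‖α‖) :
    ‖inner ℂ (M.WY α M.Ω) x‖ ≤ 4 * n * Real.exp (-(r ^ 2 / 2)) := by
  rw [M.sp_WY_Ω, inner_smul_left, norm_mul, RCLike.norm_conj, a6_exp_norm, one_mul,
    ← M.RX_star, inner_star_left, inner_add_left]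
  have h1 := M.sp_far_atom (Comb.RX M hx (Real.pi / 4)) false hr hp
  have h2 := M.sp_far_atom (Comb.RX M hx (Real.pi / 4)) true (p := -α) hr (by rwa [norm_neg])
  refine (norm_add_le _ _).trans ?_
  push_cast at h1 h2
  linarith

theorem sp_reach_WY {j0 : K →ₗᵢ[ℂ] E} {V : K →L[ℂ] K} (h : M.PReach j0 V) (γ : ℝ) :
    M.PReach j0 (M.WY (((γ : ℝ) : ℂ) • j0 (star V (M.Y (V M.Ω)))) * V) := by
  have h1 := PReach.rot M (PReach.cost M (PReach.rot M h (Real.pi / 4)) γ) (-(Real.pi / 4))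
  have h2 : M.psi (M.RX (Real.pi / 4) * V) = star V (M.Y (V M.Ω)) := by
    rw [M.psi_RX, show 2 * (Real.pi / 4) = Real.pi / 2 by ring, Real.cos_pi_div_two,
      Real.sin_pi_div_two]
    simp
  rw [h2] at h1
  simpa only [WY, mul_assoc] using h1

section defs
variable (j0 : K →ₗᵢ[ℂ] E)

noncomputable def spE : E := j0 (M.Y M.Ω)
noncomputable def spV1 (β : ℝ) : K →L[ℂ] K := M.RX β * M.WY (((GG β : ℝ) : ℂ) • M.spE j0)
noncomputable def spXi (β : ℝ) : K := M.Z (M.WY (((2 * GG β : ℝ) : ℂ) • M.spE j0) M.Ω)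
noncomputable def spD (β : ℝ) : K :=
  ((Real.cos (2 * β) - 1 : ℝ) : ℂ) • M.Y M.Ω - ((Real.sin (2 * β) : ℝ) : ℂ) • M.spXi j0 β
noncomputable def spK (β : ℝ) : E := ((-GG β : ℝ) : ℂ) • j0 (M.spD j0 β)
noncomputable def spV0 (β : ℝ) : K →L[ℂ] K :=
  M.WY (((-GG β : ℝ) : ℂ) • j0 (star (M.spV1 j0 β) (M.Y (M.spV1 j0 β M.Ω)))) * M.spV1 j0 β
noncomputable def spA (β : ℝ) : E := ((2 * GG β : ℝ) : ℂ) • M.spE j0 - M.spK j0 β

theorem sp_reach (β : ℝ) : M.PReach j0 (M.spV0 j0 β) := by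
  refine M.sp_reach_WY ?_ _
  have h := M.sp_reach_WY (M.preach_one j0) (GG β)
  simp only [star_one, mul_one, ContinuousLinearMap.one_apply] at h
  exact PReach.rot M h β

theorem sp_WY_two (f : E) (s : ℝ) :
    M.WY (((s : ℝ) : ℂ) • f) * M.WY (((s : ℝ) : ℂ) • f) = M.WY (((2 * s : ℝ) : ℂ) • f) := by
  rw [M.WY_mul, inner_self_eq_norm_sq_to_K]
  have : ((‖((s : ℝ) : ℂ) • f‖ : ℂ) ^ 2).im = 0 := by
    rw [← Complex.ofReal_pow, Complex.ofReal_im]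
  simp only [coe_algebraMap] at *
  rw [this, ← add_smul]
  simp only [ofReal_zero, mul_zero, neg_zero, exp_zero, one_smul]
  congr 2
  push_cast; ring

theorem sp_psi (β : ℝ) :
    star (M.spV1 j0 β) (M.Y (M.spV1 j0 β M.Ω)) = M.Y M.Ω + M.spD j0 β := by
  set f : E := ((GG β : ℝ) : ℂ) • M.spE j0 with hf
  have h1 : star (M.spV1 j0 β) (M.Y (M.spV1 j0 β M.Ω)) =
      (star (M.WY f) * (star (M.RX β) * M.Y * M.RX β) * M.WY f) M.Ω := by
    simp only [spV1, star_mul]; rfl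
  have hY : star (M.WY f) * M.Y * M.WY f = M.Y := by
    rw [mul_assoc, (M.Y_WY f).eq, ← mul_assoc, (Unitary.mem_iff.1 (M.WY_mem f)).1, one_mul]
  have hZ : star (M.WY f) * M.Z * M.WY f = M.Z * M.WY (((2 * GG β : ℝ) : ℂ) • M.spE j0) := by
    rw [M.WY_star, ← M.Z_WY, mul_assoc, hf, M.sp_WY_two]
  rw [h1, M.RX_conj_Y, mul_sub, sub_mul, mul_smul_comm, smul_mul_assoc, mul_smul_comm,
    smul_mul_assoc, hY, hZ]
  simp only [spD, spXi, ContinuousLinearMap.sub_apply, ContinuousLinearMap.smul_apply,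
    ContinuousLinearMap.mul_apply]
  push_cast
  module

theorem sp_V0 (β : ℝ) : ∃ θ : ℂ, ‖θ‖ = 1 ∧ M.spV0 j0 β = θ • (M.WY (M.spK j0 β) *
    (((Real.cos β : ℝ) : ℂ) • (1 : K →L[ℂ] K) - (I * ((Real.sin β : ℝ) : ℂ)) •
      (M.X * M.WY (((2 * GG β : ℝ) : ℂ) • M.spE j0)))) := by
  set f : E := ((GG β : ℝ) : ℂ) • M.spE j0 with hf
  set g : E := ((-GG β : ℝ) : ℂ) • j0 (star (M.spV1 j0 β) (M.Y (M.spV1 j0 β M.Ω))) with hg
  have hk : g + f = M.spK j0 β := by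
    rw [hg, hf, M.sp_psi, map_add, spK, spE]
    push_cast
    module
  refine ⟨cexp (-(I * ((inner ℂ g f).im : ℂ))), a6_exp_norm _, ?_⟩
  have h1 : M.RX β * M.WY f = M.WY f * (((Real.cos β : ℝ) : ℂ) • (1 : K →L[ℂ] K) -
      (I * ((Real.sin β : ℝ) : ℂ)) • (M.X * M.WY (((2 * GG β : ℝ) : ℂ) • M.spE j0))) := by
    have h2 : M.WY f * M.X = M.X * M.WY (-f) := by rw [M.X_WY, neg_neg]
    have h3 : M.WY f * (M.X * M.WY (((2 * GG β : ℝ) : ℂ) • M.spE j0)) = M.X * M.WY f := by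
      rw [← mul_assoc, h2, ← M.sp_WY_two, ← hf, mul_assoc, ← mul_assoc (M.WY (-f)), ← M.WY_star,
        (Unitary.mem_iff.1 (M.WY_mem f)).1, one_mul]
    rw [mul_sub, mul_smul_comm, mul_smul_comm, h3, RX, sub_mul, smul_mul_assoc, smul_mul_assoc,
      one_mul, mul_one]
  have h4 : M.spV0 j0 β = M.WY g * (M.RX β * M.WY f) := rfl
  rw [h4, h1, ← mul_assoc, M.WY_mul, hk, smul_mul_assoc]

theorem sp_phase (β : ℝ) : ∃ φ : ℂ, ‖φ‖ = 1 ∧
    M.WY (-M.spK j0 β) * M.WY (((2 * GG β : ℝ) : ℂ) • M.spE j0) = φ • M.WY (M.spA j0 β) := by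
  exact ⟨_, a6_exp_norm _, by rw [M.WY_mul, spA, neg_add_eq_sub]⟩

theorem sp_norm_WY (f : E) (x : K) : ‖M.WY f x‖ = ‖x‖ := unit_norm (M.WY_mem f) x

theorem sp_norm_Xi (β : ℝ) : ‖M.spXi j0 β‖ = 1 := by
  rw [spXi, unit_norm M.Z_mem, M.sp_norm_WY, M.norm_Ω]

theorem sp_norm_E : ‖M.spE j0‖ = 1 := by
  rw [spE, j0.norm_map, unit_norm M.Y_mem, M.norm_Ω]

theorem spk_cos (t : ℝ) : |Real.cos t - 1| ≤ t ^ 2 / 2 := by
  rw [abs_le]
  constructor
  · linarith [Real.one_sub_sq_div_two_le_cos (x := t)]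
  · nlinarith [Real.cos_le_one t, sq_nonneg t]

theorem sp_GG_nonneg {β : ℝ} (h : 0 < β) : 0 ≤ GG β := Real.rpow_nonneg h.le _

theorem sp_norm_K {β : ℝ} (h0 : 0 < β) (h1 : β ≤ 1 / 2) : ‖M.spK j0 β‖ ≤ 3 * β * GG β := by
  have hG := sp_GG_nonneg h0
  have h2 : ‖M.spD j0 β‖ ≤ 3 * β := by
    refine (norm_sub_le _ _).trans ?_
    rw [norm_smul, norm_smul, M.sp_norm_Xi, unit_norm M.Y_mem, M.norm_Ω, Complex.norm_real,
      Complex.norm_real, Real.norm_eq_abs, Real.norm_eq_abs]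
    have a1 := spk_cos (2 * β)
    have a2 : |Real.sin (2 * β)| ≤ |2 * β| := Real.abs_sin_le_abs
    rw [abs_of_pos (by linarith : 0 < 2 * β)] at a2
    nlinarith
  rw [spK, norm_smul, j0.norm_map, Complex.norm_real, Real.norm_eq_abs, abs_neg, abs_of_nonneg hG]
  nlinarith

theorem sp_norm_A {β : ℝ} (h0 : 0 < β) (h1 : β ≤ 1 / 3) : GG β ≤ ‖M.spA j0 β‖ := by
  have hG := sp_GG_nonneg h0
  have h2 := M.sp_norm_K j0 h0 (by linarith)
  have h3 := norm_sub_norm_le (((2 * GG β : ℝ) : ℂ) • M.spE j0) (M.spK j0 β)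
  rw [norm_smul, M.sp_norm_E, Complex.norm_real, Real.norm_eq_abs,
    abs_of_nonneg (by linarith : 0 ≤ 2 * GG β)] at h3
  rw [spA]
  nlinarith

/-- the overlap of `κ` with `j0 (V0* y)`. -/
theorem sp_K_inner {β : ℝ} (h0 : 0 < β) (y : K) :
    ‖inner ℂ (M.spK j0 β) (j0 (star (M.spV0 j0 β) y))‖ ≤ GG β *
      (4 * β ^ 2 * ‖y‖ + 2 * β * ‖inner ℂ (M.WY (M.spA j0 β) M.Ω) (M.Z y)‖) := by
  have hG := sp_GG_nonneg h0
  have hmem := PReach.mem M (M.sp_reach j0 β)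
  obtain ⟨θ, hθ, hV⟩ := M.sp_V0 j0 β
  obtain ⟨φ, hφ, hA⟩ := M.sp_phase j0 β
  have hs : |Real.sin β| ≤ β := by
    have : |Real.sin β| ≤ |β| := Real.abs_sin_le_abs
    rwa [abs_of_pos h0] at this
  have h1 : M.WY (M.spK j0 β) (M.spXi j0 β) = φ • M.Z (M.WY (M.spA j0 β) M.Ω) := by
    have h2 : M.WY (M.spK j0 β) * M.Z = M.Z * M.WY (-M.spK j0 β) := by rw [M.Z_WY, neg_neg]
    have h3 : M.WY (M.spK j0 β) (M.spXi j0 β) = (M.WY (M.spK j0 β) * M.Z *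
      M.WY (((2 * GG β : ℝ) : ℂ) • M.spE j0)) M.Ω := rfl
    rw [h3, h2, mul_assoc, hA, mul_smul_comm]
    rfl
  have hZ : inner ℂ (M.Z (M.WY (M.spA j0 β) M.Ω)) y = inner ℂ (M.WY (M.spA j0 β) M.Ω) (M.Z y) := by
    rw [← inner_star_left, M.Z_star]
  have h4 : ‖inner ℂ (M.spV0 j0 β (M.spXi j0 β)) y‖ ≤
      ‖inner ℂ (M.WY (M.spA j0 β) M.Ω) (M.Z y)‖ + β * ‖y‖ := by
    have h5 : M.spV0 j0 β (M.spXi j0 β) = (θ * ((Real.cos β : ℝ) : ℂ) * φ) •
        M.Z (M.WY (M.spA j0 β) M.Ω) - (θ * (I * ((Real.sin β : ℝ) : ℂ))) • M.WY (M.spK j0 β)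
          (M.X (M.WY (((2 * GG β : ℝ) : ℂ) • M.spE j0) (M.spXi j0 β))) := by
      rw [hV]
      simp only [ContinuousLinearMap.smul_apply, ContinuousLinearMap.mul_apply,
        ContinuousLinearMap.sub_apply, ContinuousLinearMap.one_apply, map_sub, map_smul, h1]
      module
    rw [h5, inner_sub_left, inner_smul_left, inner_smul_left, hZ]
    refine (norm_sub_le _ _).trans (add_le_add ?_ ?_)
    · rw [norm_mul, RCLike.norm_conj, norm_mul, norm_mul, hθ, hφ, Complex.norm_real, one_mul,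
        mul_one]
      exact mul_le_of_le_one_left (norm_nonneg _) (Real.abs_cos_le_one _)
    · rw [norm_mul, RCLike.norm_conj, norm_mul, norm_mul, hθ, Complex.norm_I, Complex.norm_real,
        one_mul, one_mul]
      refine mul_le_mul hs ((norm_inner_le_norm _ _).trans ?_) (norm_nonneg _) h0.le
      rw [M.sp_norm_WY, unit_norm M.X_mem, M.sp_norm_WY, M.sp_norm_Xi, one_mul]
  have h6 : ‖inner ℂ (M.spV0 j0 β (M.Y M.Ω)) y‖ ≤ ‖y‖ := by
    refine (norm_inner_le_norm _ _).trans ?_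
    rw [unit_norm hmem, unit_norm M.Y_mem, M.norm_Ω, one_mul]
  rw [spK, inner_smul_left, j0.inner_map_map, inner_star_right, norm_mul, RCLike.norm_conj,
    Complex.norm_real, Real.norm_eq_abs, abs_neg, abs_of_nonneg hG]
  refine mul_le_mul_of_nonneg_left ?_ hG
  rw [spD, map_sub, map_smul, map_smul, inner_sub_left, inner_smul_left, inner_smul_left]
  refine (norm_sub_le _ _).trans ?_
  rw [norm_mul, norm_mul, RCLike.norm_conj, RCLike.norm_conj, Complex.norm_real, Complex.norm_real,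
    Real.norm_eq_abs, Real.norm_eq_abs]
  have a1 := spk_cos (2 * β)
  have a2 : |Real.sin (2 * β)| ≤ |2 * β| := Real.abs_sin_le_abs
  rw [abs_of_pos (by linarith : 0 < 2 * β)] at a2
  have b1 := mul_le_mul a1 h6 (norm_nonneg _) (by positivity)
  have b2 := mul_le_mul a2 h4 (norm_nonneg _) (by positivity)
  nlinarith

theorem sp_small (R : ℝ) : ∃ β0 > (0 : ℝ), ∀ β, 0 < β → β ≤ β0 → β ≤ 1 / 3 ∧ β * GG β ≤ 1 ∧
    ∀ (n : ℕ) (x : K), M.Comb n R x → ∀ α : E, GG β ≤ ‖α‖ →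
      ‖inner ℂ (M.WY α M.Ω) x‖ ≤ 4 * n * β ^ 3 := by
  obtain ⟨g1, g2, -, g4⟩ := GG_facts
  obtain ⟨β1, hβ1, h1⟩ := g4 (1 / 8) (by norm_num)
  have h2 := g2.eventually (eventually_ge_atTop (2 * R))
  obtain ⟨β2, hβ2, h2⟩ := (nhdsGT_basis (0 : ℝ)).eventually_iff.1 h2
  refine ⟨min (min β1 (β2 / 2)) (1 / 3), by positivity, fun β h0 hβ => ?_⟩
  have a1 : β ≤ β1 := hβ.trans ((min_le_left _ _).trans (min_le_left _ _))
  have a2 : β ≤ β2 / 2 := hβ.trans ((min_le_left _ _).trans (min_le_right _ _))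
  have a3 : β ≤ 1 / 3 := hβ.trans (min_le_right _ _)
  refine ⟨a3, (g1 β h0 (by linarith)).2, fun n x hx α hα => ?_⟩
  have a4 : 2 * R ≤ GG β := h2 ⟨h0, by linarith⟩
  have hG := sp_GG_nonneg h0
  refine (M.sp_far hx (r := GG β / 2) (by linarith) (by linarith)).trans ?_
  refine mul_le_mul_of_nonneg_left ?_ (by positivity)
  rw [show -((GG β / 2) ^ 2 / 2) = -(1 / 8 * GG β ^ 2) by ring]
  exact h1 β h0 a1

end defs

set_option maxHeartbeats 1000000 in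
/-- `e = j0 (YΩ)`, `V1 = RX β * WY (G e)`, `ψ' = V1* Y V1 Ω = cos 2β YΩ - sin 2β ξ`,
`ξ = Z WY (2Ge) Ω`, `δ = j0 ψ' - e`, `κ = -G δ`, `V0 = WY (-G j0 ψ') * V1`
`= θ0 • WY κ * (cos β - i sin β X WY (2Ge))`. `x_S = c • X WY α Ω`, `α = 2Ge - κ`, `|c| = sin β`. -/
theorem exists_spike (j0 : K →ₗᵢ[ℂ] E) : Nonempty (M.Spike j0) := by
  choose θ hθ hV using M.sp_V0 j0
  choose φ hφ hA using M.sp_phase j0
  choose LS hlen hat hsh using fun β : ℝ =>
    M.sp_exists_LS (-(θ β * (I * ((Real.sin β : ℝ) : ℂ)) * φ β)) (M.spA j0 β)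
  have hsin : ∀ β : ℝ, 0 < β → β ≤ 1 / 2 → 0 ≤ Real.sin β ∧ Real.sin β ≤ β := fun β h0 h1 =>
    ⟨Real.sin_nonneg_of_nonneg_of_le_pi h0.le (by linarith [Real.pi_gt_three]),
      Real.sin_le h0.le⟩
  have hc : ∀ β : ℝ, 0 < β → β ≤ 1 / 2 →
      ‖-(θ β * (I * ((Real.sin β : ℝ) : ℂ)) * φ β)‖ = Real.sin β := fun β h0 h1 => by
    rw [norm_neg, norm_mul, norm_mul, norm_mul, hθ, hφ, Complex.norm_I, Complex.norm_real,
      Real.norm_eq_abs, abs_of_nonneg (hsin β h0 h1).1]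
    ring
  have hn : ∀ β : ℝ, 0 < β → β ≤ 1 / 2 → ‖M.atoms (LS β)‖ = Real.sin β := fun β h0 h1 => by
    rw [hat, norm_smul, hc β h0 h1, unit_norm M.X_mem, M.sp_norm_WY, M.norm_Ω, mul_one]
  have hZZ : ∀ y : K, M.Z (M.Z y) = y := fun y => congrArg (fun T : K →L[ℂ] K => T y) M.Z_Z
  refine ⟨⟨M.spV0 j0, M.spK j0, θ, LS, M.sp_reach j0, hθ, fun β => M.sp_norm_K j0, ?_, ?_, hlen,
    hn, ?_, ?_, ?_, ?_⟩⟩
  · intro β h0 h1
    have h2 : M.spV0 j0 β - θ β • M.WY (M.spK j0 β) = θ β • (M.WY (M.spK j0 β) *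
        (((Real.cos β - 1 : ℝ) : ℂ) • (1 : K →L[ℂ] K) - (I * ((Real.sin β : ℝ) : ℂ)) •
          (M.X * M.WY (((2 * GG β : ℝ) : ℂ) • M.spE j0)))) := by
      rw [hV]
      simp only [mul_sub, mul_smul_comm, mul_one]
      push_cast
      module
    rw [h2, norm_smul, hθ, one_mul]
    refine (norm_mul_le _ _).trans ?_
    refine (mul_le_of_le_one_left (norm_nonneg _) (unit_opnorm (M.WY_mem _))).trans ?_
    refine (norm_sub_le _ _).trans ?_
    rw [norm_smul, norm_smul, norm_mul, Complex.norm_I, Complex.norm_real, Complex.norm_real,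
      Real.norm_eq_abs, Real.norm_eq_abs, abs_of_nonneg (hsin β h0 h1).1, one_mul]
    have a1 := spk_cos β
    have a2 := unit_opnorm (mul_mem M.X_mem (M.WY_mem (((2 * GG β : ℝ) : ℂ) • M.spE j0)))
    have a3 : ‖(1 : K →L[ℂ] K)‖ ≤ 1 := unit_opnorm (one_mem _)
    have b1 := mul_le_mul a1 a3 (norm_nonneg _) (by positivity)
    have b2 := mul_le_mul (hsin β h0 h1).2 a2 (norm_nonneg _) h0.le
    nlinarith
  · intro β h0 h1
    have h3 : M.WY (M.spK j0 β) (M.X (M.WY (((2 * GG β : ℝ) : ℂ) • M.spE j0) M.Ω)) =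
        φ β • M.X (M.WY (M.spA j0 β) M.Ω) := by
      have h4 : M.WY (M.spK j0 β) * M.X = M.X * M.WY (-M.spK j0 β) := by rw [M.X_WY, neg_neg]
      have h5 : M.WY (M.spK j0 β) (M.X (M.WY (((2 * GG β : ℝ) : ℂ) • M.spE j0) M.Ω)) =
        (M.WY (M.spK j0 β) * M.X * M.WY (((2 * GG β : ℝ) : ℂ) • M.spE j0)) M.Ω := rfl
      rw [h5, h4, mul_assoc, hA, mul_smul_comm]
      rfl
    have h2 : M.spV0 j0 β M.Ω - θ β • M.WY (M.spK j0 β) M.Ω - M.atoms (LS β) =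
        (θ β * ((Real.cos β - 1 : ℝ) : ℂ)) • M.WY (M.spK j0 β) M.Ω := by
      rw [hV, hat]
      simp only [ContinuousLinearMap.smul_apply, ContinuousLinearMap.mul_apply,
        ContinuousLinearMap.sub_apply, ContinuousLinearMap.one_apply, map_sub, map_smul, h3]
      push_cast
      module
    rw [h2, norm_smul, norm_mul, hθ, M.sp_norm_WY, M.norm_Ω, Complex.norm_real, Real.norm_eq_abs]
    have a1 := spk_cos β
    nlinarith [sq_nonneg β]
  · intro β h0 h1 s hs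
    obtain ⟨a1, a2⟩ := hsh β s hs
    rw [hc β h0 h1] at a1
    exact ⟨a1.trans (hsin β h0 h1).2, a2⟩
  · intro n R
    obtain ⟨β0, hβ0, h⟩ := M.sp_small R
    refine ⟨12 * n, by positivity, β0, hβ0, fun β h0 h1 x hx => ?_⟩
    obtain ⟨a1, a2, a3⟩ := h β h0 h1
    have b1 := a3 n _ (Comb.Z M hx) _ (M.sp_norm_A j0 h0 a1)
    have b2 := Comb.norm_le M hx
    have hG := sp_GG_nonneg h0
    have hn0 : (0 : ℝ) ≤ n := Nat.cast_nonneg n
    refine (M.sp_K_inner j0 h0 x).trans ?_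
    have b3 : 4 * β ^ 2 * ‖x‖ + 2 * β * ‖inner ℂ (M.WY (M.spA j0 β) M.Ω) (M.Z x)‖ ≤
        β * (12 * n * β) := by
      have c1 : β ^ 3 ≤ β := by nlinarith [sq_nonneg β, mul_pos h0 h0]
      have c2 : 4 * n * β ^ 3 ≤ 4 * n * β := mul_le_mul_of_nonneg_left c1 (by positivity)
      have c3 := mul_le_mul_of_nonneg_left b2 (by positivity : 0 ≤ 4 * β ^ 2)
      have c4 := mul_le_mul_of_nonneg_left (b1.trans c2) (by positivity : 0 ≤ 2 * β)
      nlinarith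
    calc _ ≤ GG β * (β * (12 * n * β)) := mul_le_mul_of_nonneg_left b3 hG
      _ = (β * GG β) * (12 * n * β) := by ring
      _ ≤ 1 * (12 * n * β) := mul_le_mul_of_nonneg_right a2 (by positivity)
      _ = _ := one_mul _
  · obtain ⟨β0, hβ0, h⟩ := M.sp_small 0
    refine ⟨20, by positivity, β0, hβ0, fun β h0 h1 => ?_⟩
    obtain ⟨a1, a2, a3⟩ := h β h0 h1
    have h1' : β ≤ 1 / 2 := by linarith
    have hG := sp_GG_nonneg h0
    have hA' := M.sp_norm_A j0 h0 a1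
    have b1 := a3 2 _ M.comb_Ω (((2 * 1 : ℝ) : ℂ) • M.spA j0 β) (by
      rw [norm_smul, Complex.norm_real, Real.norm_eq_abs, abs_of_pos (by norm_num)]
      linarith)
    have b2 : inner ℂ (M.WY (M.spA j0 β) M.Ω) (M.X (M.WY (M.spA j0 β) M.Ω)) =
        inner ℂ (M.WY (((2 * 1 : ℝ) : ℂ) • M.spA j0 β) M.Ω) M.Ω := by
      have c1 : M.X (M.WY (M.spA j0 β) M.Ω) = star (M.WY (M.spA j0 β)) M.Ω := by
        have c2 : M.X (M.WY (M.spA j0 β) M.Ω) = (M.X * M.WY (M.spA j0 β)) M.Ω := rfl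
        rw [c2, M.X_WY, M.WY_star]
        show M.WY _ (M.X M.Ω) = _
        rw [M.X_Ω]
      rw [c1, inner_star_right, ← M.sp_WY_two]
      simp
    refine (M.sp_K_inner j0 h0 _).trans ?_
    rw [hZZ, unit_norm M.Z_mem, hn β h0 h1', hat, inner_smul_right, norm_mul, hc β h0 h1', b2]
    obtain ⟨s0, s1⟩ := hsin β h0 h1'
    have b3 : 4 * β ^ 2 * Real.sin β + 2 * β * (Real.sin β *
        ‖inner ℂ (M.WY (((2 * 1 : ℝ) : ℂ) • M.spA j0 β) M.Ω) M.Ω‖) ≤ β * (20 * β ^ 2) := by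
      have c1 : β ^ 3 ≤ β := by nlinarith [sq_nonneg β, mul_pos h0 h0]
      have c2 : ‖inner ℂ (M.WY (((2 * 1 : ℝ) : ℂ) • M.spA j0 β) M.Ω) M.Ω‖ ≤ 8 * β := by
        push_cast at b1 ⊢
        linarith
      have c3 := mul_le_mul_of_nonneg_left s1 (by positivity : 0 ≤ 4 * β ^ 2)
      have c4 := mul_le_mul_of_nonneg_left (mul_le_mul s1 c2 (norm_nonneg _) h0.le)
        (by positivity : 0 ≤ 2 * β)
      nlinarith
    calc _ ≤ GG β * (β * (20 * β ^ 2)) := mul_le_mul_of_nonneg_left b3 hG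
      _ = (β * GG β) * (20 * β ^ 2) := by ring
      _ ≤ 1 * (20 * β ^ 2) := mul_le_mul_of_nonneg_right a2 (by positivity)
      _ = _ := one_mul _
  · intro n R
    obtain ⟨β0, hβ0, h⟩ := M.sp_small R
    refine ⟨4 * n, by positivity, β0, hβ0, fun β h0 h1 x hx => ?_⟩
    obtain ⟨a1, a2, a3⟩ := h β h0 h1
    have h1' : β ≤ 1 / 2 := by linarith
    have b1 := a3 n _ (Comb.X M (Comb.Z M hx)) _ (M.sp_norm_A j0 h0 a1)
    have b2 : inner ℂ (M.Z (M.X (M.WY (M.spA j0 β) M.Ω))) x =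
        inner ℂ (M.WY (M.spA j0 β) M.Ω) (M.X (M.Z x)) := by
      rw [← inner_star_left, M.X_star, ← inner_star_left, M.Z_star]
    rw [hat, map_smul, inner_smul_left, norm_mul, RCLike.norm_conj, hc β h0 h1', b2]
    obtain ⟨s0, s1⟩ := hsin β h0 h1'
    have hn0 : (0 : ℝ) ≤ n := Nat.cast_nonneg n
    have c1 : β ^ 3 ≤ β := by nlinarith [sq_nonneg β, mul_pos h0 h0]
    have c2 : 4 * n * β ^ 3 ≤ 4 * n * β := mul_le_mul_of_nonneg_left c1 (by positivity)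
    have c4 := mul_le_mul s1 (b1.trans c2) (norm_nonneg _) h0.le
    nlinarith

end Model
end Crest.Agent.R339
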