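import Crest.Agent.R339.D1.StepA

/-! # Row 339, block D1: appending one sub-step (helper file for `Step`) -/

set_option autoImplicit false
set_option linter.unusedVariables false
open MeasureTheory ProbabilityTheory Filter Topology Complex
open Crest.MathPhysics.SpinGlass

namespace Crest.Agent.R339
variable {E K : Type} [NormedAddCommGroup E] [InnerProductSpace ℂ E]
  [NormedAddCommGroup K] [InnerProductSpace ℂ K] [CompleteSpace K]

namespace Model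
variable {M : Model E K} {j0 : K →ₗᵢ[ℂ] E} {A B V S : K →L[ℂ] K} {C0 C t : ℝ} {θ : ℂ} {m : E}

theorem st_norm_dir (hV : V ∈ unitary (K →L[ℂ] K)) (s : ℝ) : ‖((s : ℝ) : ℂ) • j0 (M.psi V)‖ = |s| := by
  rw [norm_smul, norm_real, Real.norm_eq_abs, j0.norm_map, M.norm_psi hV, mul_one]

theorem StepAt.two (h : M.StepAt j0 A B C0 C t V S θ m) (hV : V ∈ unitary (K →L[ℂ] K)) (hA : ‖A‖ ≤ C0) (hB : ‖B‖ ≤ C0)
    (hC : 0 ≤ C) (ht : |t| ≤ 1) {x : K} {Cx : ℝ} (h0 : 0 ≤ Cx) (hn : ‖x‖ ≤ 1) (hx : M.Tame x Cx) (s : ℝ)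
    {T : K →L[ℂ] K} (hT : T ∈ unitary (K →L[ℂ] K)) :
    ‖T (M.WZ (((2 * s : ℝ) : ℂ) • j0 (M.psi (S * V))) (S x)) - θ • T (M.WZ (((2 * s : ℝ) : ℂ) • j0 (M.psi V)) x)‖ ≤
      (3 * (C0 + C) + 4 * |s| * C0 * (1 + |s|)) * (1 + Cx) * |t| := by
  have hC0 : 0 ≤ C0 := (norm_nonneg _).trans hA
  set g1 := ((2 * s : ℝ) : ℂ) • j0 (M.psi (S * V)) with hg1
  set g := ((2 * s : ℝ) : ℂ) • j0 (M.psi V) with hg
  have e : T (M.WZ g1 (S x)) - θ • T (M.WZ g x) = T (M.WZ g1 (S x - θ • x)) + θ • T (M.WZ g1 x - M.WZ g x) := by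
    simp only [map_sub, map_smul]; module
  have h1 := h.first hV hA hB hC ht h0 hn hx
  have h2 := hx.WZ_lip M g1 g
  have h3 : ‖g1 - g‖ ≤ 2 * |s| * (C0 * |t|) := by
    rw [hg1, hg, ← smul_sub, ← map_sub, norm_smul, norm_real, Real.norm_eq_abs, j0.norm_map, abs_mul, abs_two]
    exact mul_le_mul_of_nonneg_left h.dir (by positivity)
  have h4 : ‖g‖ = 2 * |s| := by rw [hg, st_norm_dir hV, abs_mul, abs_two]
  have h5 : 2 * Cx + ‖g‖ * ‖x‖ ≤ 2 * (1 + |s|) * (1 + Cx) := by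
    rw [h4]
    nlinarith [abs_nonneg s, mul_nonneg (abs_nonneg s) h0, mul_le_mul_of_nonneg_left hn (abs_nonneg s)]
  have h6 := mul_le_mul h3 h5 (by positivity) (by positivity)
  rw [e]
  refine (norm_add_le _ _).trans ?_
  rw [unit_norm hT, st_norm_WZ, norm_smul, h.th, one_mul, unit_norm hT]
  linarith

theorem st_tame_z (hV : V ∈ unitary (K →L[ℂ] K)) {x : K} {Cx : ℝ} (hn : ‖x‖ ≤ 1) (hx : M.Tame x Cx) (s : ℝ)
    {T : K →L[ℂ] K} (hT : T ∈ unitary (K →L[ℂ] K)) (hc : ∀ f, Commute T (M.W f)) :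
    M.Tame (T (M.WZ (((2 * s : ℝ) : ℂ) • j0 (M.psi V)) x)) (Cx + 4 * |s|) := by
  refine ((hx.WZ M _).mono M ?_).of_commute M (fun f => (hc f).symm) (unit_opnorm hT)
  rw [st_norm_dir hV, abs_mul, abs_two]
  nlinarith [mul_le_mul_of_nonneg_left hn (abs_nonneg s)]

/-- the constant of the three-term estimates -/
def stD (C0 C s : ℝ) : ℝ := 3 * (C0 + C) + 4 * |s| * C0 * (1 + |s|) + 3 * (C0 + C) * (1 + 4 * |s|)
def stC (C0 C s c Ct : ℝ) : ℝ := c ^ 2 + C + |c| * stD C0 C s + |s| * (4 * c ^ 2 + 2 * |c| * (stD C0 C s * (1 + Ct)))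

theorem StepAt.threeX (h : M.StepAt j0 A B C0 C t V S θ m) (hV : V ∈ unitary (K →L[ℂ] K)) (hA : ‖A‖ ≤ C0) (hB : ‖B‖ ≤ C0)
    (hC : 0 ≤ C) (ht : |t| ≤ 1) {x : K} {Cx : ℝ} (h0 : 0 ≤ Cx) (hn : ‖x‖ ≤ 1) (hx : M.Tame x Cx) (s : ℝ) :
    ‖M.X (M.WZ (((2 * s : ℝ) : ℂ) • j0 (M.psi (S * V))) (S x)) -
      θ • M.WZ m (M.X (M.WZ (((2 * s : ℝ) : ℂ) • j0 (M.psi V)) x))‖ ≤ stD C0 C s * (1 + Cx) * |t| := by
  have hC0 : 0 ≤ C0 := (norm_nonneg _).trans hA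
  have h1 := h.two hV hA hB hC ht h0 hn hx s M.X_mem
  have h2 := h.wz hV hB hC ht (by positivity) (st_tame_z (j0 := j0) hV hn hx s M.X_mem M.X_W)
  set z := M.X (M.WZ (((2 * s : ℝ) : ℂ) • j0 (M.psi V)) x)
  set u := M.X (M.WZ (((2 * s : ℝ) : ℂ) • j0 (M.psi (S * V))) (S x))
  have e : u - θ • M.WZ m z = (u - θ • z) - θ • (M.WZ m z - z) := by module
  rw [e]
  refine (norm_sub_le _ _).trans ?_
  rw [norm_smul, h.th, one_mul, stD]
  have h3 : 2 * (Cx + 4 * |s|) ≤ 3 * ((1 + 4 * |s|) * (1 + Cx)) := by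
    nlinarith [abs_nonneg s, mul_nonneg (abs_nonneg s) h0]
  have h4 := mul_le_mul_of_nonneg_left h3 (by positivity : 0 ≤ (C0 + C) * |t|)
  linarith

theorem StepAt.threeY (h : M.StepAt j0 A B C0 C t V S θ m) (hV : V ∈ unitary (K →L[ℂ] K)) (hA : ‖A‖ ≤ C0) (hB : ‖B‖ ≤ C0)
    (hC : 0 ≤ C) (ht : |t| ≤ 1) {x : K} {Cx : ℝ} (h0 : 0 ≤ Cx) (hn : ‖x‖ ≤ 1) (hx : M.Tame x Cx) (s : ℝ) :
    ‖M.Y (M.WZ (((2 * s : ℝ) : ℂ) • j0 (M.psi (S * V))) (S x)) -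
      S (M.Y (M.WZ (((2 * s : ℝ) : ℂ) • j0 (M.psi V)) x))‖ ≤ stD C0 C s * (1 + Cx) * |t| := by
  have hC0 : 0 ≤ C0 := (norm_nonneg _).trans hA
  have h1 := h.two hV hA hB hC ht h0 hn hx s M.Y_mem
  have h2 := h.first hV hA hB hC ht (by positivity) (by rw [st_norm_Y, st_norm_WZ]; exact hn)
    (st_tame_z (j0 := j0) hV hn hx s M.Y_mem M.Y_W)
  set z := M.Y (M.WZ (((2 * s : ℝ) : ℂ) • j0 (M.psi V)) x)
  set u := M.Y (M.WZ (((2 * s : ℝ) : ℂ) • j0 (M.psi (S * V))) (S x))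
  have e : u - S z = (u - θ • z) - (S z - θ • z) := by module
  rw [e]
  refine (norm_sub_le _ _).trans ?_
  rw [stD]
  have h3 : 1 + (Cx + 4 * |s|) ≤ (1 + 4 * |s|) * (1 + Cx) := by
    nlinarith [abs_nonneg s, mul_nonneg (abs_nonneg s) h0]
  have h4 := mul_le_mul_of_nonneg_left h3 (by positivity : 0 ≤ 3 * (C0 + C) * |t|)
  linarith

theorem stD_nonneg (h0 : 0 ≤ C0) (hC : 0 ≤ C) (s : ℝ) : 0 ≤ stD C0 C s := by unfold stD; positivity

theorem stC_nonneg (h0 : 0 ≤ C0) (hC : 0 ≤ C) (s c : ℝ) {Ct : ℝ} (hCt : 0 ≤ Ct) : 0 ≤ stC C0 C s c Ct := by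
  have := stD_nonneg h0 hC s
  unfold stC; positivity

theorem StepAt.next (h : M.StepAt j0 A B C0 C t V S θ m) (hV : V ∈ unitary (K →L[ℂ] K)) (hA : ‖A‖ ≤ C0) (hB : ‖B‖ ≤ C0)
    (hC : 0 ≤ C) (ht : |t| ≤ 1) {Ct : ℝ} (hCt : 0 ≤ Ct) (hξ : M.Tame (V M.Ω) Ct) (s c : ℝ) :
    ∃ S' θ' m', M.StepAt j0 (A + (c : ℂ) • M.WZ (((2 * s : ℝ) : ℂ) • j0 (M.psi V)))
      (B - ((2 * c * s : ℝ) : ℂ) • (M.Y * M.WZ (((2 * s : ℝ) : ℂ) • j0 (M.psi V))))
      (C0 + 14 * |s| * |c| + 5 * |c|) (stC C0 C s c Ct) t V S' θ' m' := by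
  have hC0 : 0 ≤ C0 := (norm_nonneg _).trans hA
  have hD := stD_nonneg hC0 hC s
  have hSV : S * V ∈ unitary (K →L[ℂ] K) := mul_mem h.mem hV
  set f1 : E := ((s : ℝ) : ℂ) • j0 (M.psi (S * V)) with hf1
  set V2 := M.RX (t * c) * (M.WZ f1 * (S * V)) with hV2
  set f2 : E := ((-s : ℝ) : ℂ) • j0 (M.psi V2) with hf2
  have hff : f1 + f1 = ((2 * s : ℝ) : ℂ) • j0 (M.psi (S * V)) := by rw [hf1]; push_cast; module
  have hnf : ‖f1‖ = |s| := st_norm_dir hSV s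
  set φ1 : ℂ := cexp (-(I * ((inner ℂ f2 f1).im : ℂ))) with hφ1
  set φ2 : ℂ := cexp (-(I * ((inner ℂ (f2 + f1) m).im : ℂ))) with hφ2
  have hn1 : ‖φ1‖ = 1 := a6_exp_norm _
  have hn2 : ‖φ2‖ = 1 := a6_exp_norm _
  have hS' : ∀ x, (M.WZ f2 * (M.RX (t * c) * (M.WZ f1 * S))) x = φ1 • M.WZ (f2 + f1) (M.stR (t * c) f1 (S x)) := by
    intro x
    have a1 := congrArg (fun T : K →L[ℂ] K => T (M.stR (t * c) f1 (S x))) (M.WZ_mul f2 f1)
    simp only [ContinuousLinearMap.mul_apply, ContinuousLinearMap.smul_apply] at a1 ⊢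
    rw [← a1, stR]
    simp only [ContinuousLinearMap.mul_apply]
    rw [unit_apply_star (M.WZ_mem f1)]
  have hψ := M.st_psi (t * c) f1 (S * V)
  rw [← hV2, hff] at hψ
  set η := star (S * V) (M.Y (M.WZ (((2 * s : ℝ) : ℂ) • j0 (M.psi (S * V))) ((S * V) M.Ω))) with hη
  have hnη : ‖η‖ = 1 := by
    rw [hη, unit_norm (Unitary.star_mem hSV), st_norm_Y, st_norm_WZ, unit_norm hSV, M.norm_Ω]
  have hdiff : M.psi V2 - M.psi (S * V) = ((Real.cos (2 * (t * c)) - 1 : ℝ) : ℂ) • M.psi (S * V) +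
      ((Real.sin (2 * (t * c)) : ℝ) : ℂ) • η := by rw [hψ]; push_cast; module
  have habs : |2 * (t * c)| = 2 * (|c| * |t|) := by rw [abs_mul, abs_mul, abs_two]; ring
  have hd2 : ‖M.psi V2 - M.psi (S * V)‖ ≤ 4 * (|c| * |t|) := by
    rw [hdiff]
    refine (norm_add_le _ _).trans ?_
    rw [norm_smul, norm_smul, norm_real, norm_real, M.norm_psi hSV, hnη, Real.norm_eq_abs, Real.norm_eq_abs]
    have b1 := st_cos' (2 * (t * c))
    have b2 := Real.abs_sin_le_abs (x := 2 * (t * c))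
    linarith
  have hm1 : f2 + f1 = -((s : ℝ) : ℂ) • j0 (M.psi V2 - M.psi (S * V)) := by
    rw [hf1, hf2, map_sub]; push_cast; module
  have hnm1 : ‖f2 + f1‖ ≤ |s| * (4 * (|c| * |t|)) := by
    rw [hm1, norm_smul, norm_neg, norm_real, Real.norm_eq_abs, j0.norm_map]
    exact mul_le_mul_of_nonneg_left hd2 (abs_nonneg _)
  have hsc : 0 ≤ |s| * |c| * |t| := by positivity
  have hct : 0 ≤ |c| * |t| := by positivity
  refine ⟨M.WZ f2 * (M.RX (t * c) * (M.WZ f1 * S)), φ1 * (φ2 * θ), f2 + f1 + m,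
    mul_mem (M.WZ_mem _) (mul_mem (M.RX_mem _) (mul_mem (M.WZ_mem _) h.mem)), ?_, ?_, ?_, ?_, ?_, ?_⟩
  · have := ((h.reach.cost M s).rot M (t * c)).cost M (-s)
    simpa only [mul_assoc] using this
  · intro x C' hx hx'
    have hSx : ‖S x‖ ≤ 1 := by rw [unit_norm h.mem]; exact hx
    have b1 := ((M.stR_tame (t * c) f1 hSx (h.tame x C' hx hx')).WZ M (f2 + f1)).smul M φ1
    rw [hS']
    refine b1.mono M ?_
    rw [hn1, one_mul, hnf, unit_norm (M.stR_mem _ _), abs_mul]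
    have b2 := mul_le_mul hnm1 hSx (norm_nonneg _) (by positivity)
    nlinarith
  · have e : M.WZ f2 * (M.RX (t * c) * (M.WZ f1 * S)) * V = M.WZ f2 * V2 := by rw [hV2]; simp only [mul_assoc]
    rw [e, M.psi_mul_of_commute (M.WZ_mem _) (M.Z_WZ _)]
    have b1 := norm_sub_le_norm_sub_add_norm_sub (M.psi V2) (M.psi (S * V)) (M.psi V)
    have b2 := h.dir
    nlinarith
  · rw [norm_mul, norm_mul, hn1, hn2, h.th]; norm_num
  · set ζ := star V (M.Y (M.WZ (((2 * s : ℝ) : ℂ) • j0 (M.psi V)) (V M.Ω))) with hζ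
    have b0 : ‖η - ζ‖ ≤ stD C0 C s * (1 + Ct) * |t| := by
      have b := h.threeY hV hA hB hC ht hCt (by rw [unit_norm hV, M.norm_Ω]) hξ s
      rw [← unit_norm hSV, map_sub, hη, unit_apply_star hSV, hζ, ContinuousLinearMap.mul_apply,
        ContinuousLinearMap.mul_apply, unit_apply_star hV]
      exact b
    have e : f2 + f1 + m - (t : ℂ) • j0 (star V ((B - ((2 * c * s : ℝ) : ℂ) •
        (M.Y * M.WZ (((2 * s : ℝ) : ℂ) • j0 (M.psi V)))) (V M.Ω))) =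
        (m - (t : ℂ) • j0 (star V (B (V M.Ω)))) - ((s : ℝ) : ℂ) • j0 (((Real.cos (2 * (t * c)) - 1 : ℝ) : ℂ) • M.psi (S * V) +
          ((Real.sin (2 * (t * c)) - 2 * (t * c) : ℝ) : ℂ) • η + ((2 * (t * c) : ℝ) : ℂ) • (η - ζ)) := by
      rw [hm1, hdiff, ContinuousLinearMap.sub_apply, ContinuousLinearMap.smul_apply, ContinuousLinearMap.mul_apply,
        map_sub (star V), map_smul (star V), ← hζ]
      simp only [map_add, map_sub, map_smul]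
      push_cast
      module
    rw [e]
    refine (norm_sub_le _ _).trans ?_
    rw [norm_smul, norm_real, Real.norm_eq_abs, j0.norm_map]
    have b1 : ‖((Real.cos (2 * (t * c)) - 1 : ℝ) : ℂ) • M.psi (S * V) +
        ((Real.sin (2 * (t * c)) - 2 * (t * c) : ℝ) : ℂ) • η + ((2 * (t * c) : ℝ) : ℂ) • (η - ζ)‖ ≤
        (4 * c ^ 2 + 2 * |c| * (stD C0 C s * (1 + Ct))) * t ^ 2 := by
      refine (norm_add₃_le).trans ?_
      rw [norm_smul, norm_smul, norm_smul, norm_real, norm_real, norm_real, M.norm_psi hSV, hnη, Real.norm_eq_abs,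
        Real.norm_eq_abs, Real.norm_eq_abs, habs]
      have c1 := st_cos (2 * (t * c))
      have c2 := st_sin (2 * (t * c))
      have c3 := mul_le_mul_of_nonneg_left b0 (by positivity : 0 ≤ 2 * (|c| * |t|))
      have c4 : 2 * (|c| * |t|) * (stD C0 C s * (1 + Ct) * |t|) = 2 * |c| * (stD C0 C s * (1 + Ct)) * t ^ 2 := by
        rw [← sq_abs t]; ring
      nlinarith
    have b2 := mul_le_mul_of_nonneg_left b1 (abs_nonneg s)
    have b3 := h.mm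
    have b4 : 0 ≤ (c ^ 2 + |c| * stD C0 C s) * t ^ 2 := by positivity
    rw [stC]
    nlinarith
  · intro x Cx h0 hx hx'
    have hSx : ‖S x‖ ≤ 1 := by rw [unit_norm h.mem]; exact hx
    set z := M.X (M.WZ (((2 * s : ℝ) : ℂ) • j0 (M.psi V)) x) with hz
    set u := M.X (M.WZ (((2 * s : ℝ) : ℂ) • j0 (M.psi (S * V))) (S x)) with hu
    set y := x - (I * (t : ℂ)) • M.X (A x) with hy
    have e0 : x - (I * (t : ℂ)) • M.X ((A + (c : ℂ) • M.WZ (((2 * s : ℝ) : ℂ) • j0 (M.psi V))) x) =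
        y - (I * ((t * c : ℝ) : ℂ)) • z := by
      rw [ContinuousLinearMap.add_apply, ContinuousLinearMap.smul_apply, map_add, map_smul, ← hz, hy]; push_cast; module
    have a1 : ∀ v, M.WZ (f2 + f1) (M.WZ m v) = φ2 • M.WZ (f2 + f1 + m) v := fun v =>
      congrArg (fun T : K →L[ℂ] K => T v) (M.WZ_mul (f2 + f1) m)
    have e1 : φ1 • M.WZ (f2 + f1) (M.stR (t * c) f1 (S x)) -
        (φ1 * (φ2 * θ)) • M.WZ (f2 + f1 + m) (y - (I * ((t * c : ℝ) : ℂ)) • z) =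
        φ1 • M.WZ (f2 + f1) ((M.stR (t * c) f1 (S x) - (S x - (I * ((t * c : ℝ) : ℂ)) • u)) + (S x - θ • M.WZ m y) -
          (I * ((t * c : ℝ) : ℂ)) • (u - θ • M.WZ m z)) := by
      simp only [map_add, map_sub, map_smul, a1]
      module
    rw [hS', e0, e1, norm_smul, hn1, one_mul, st_norm_WZ]
    refine (norm_sub_le _ _).trans ((add_le_add_left (norm_add_le _ _) _).trans ?_)
    have b1 := M.stR_taylor (t * c) f1 hSx
    rw [hff, ← hu] at b1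
    have b2 := h.app x Cx h0 hx hx'
    have b3 := mul_le_mul_of_nonneg_left (h.threeX hV hA hB hC ht h0 hx hx' s) hct
    have b4 : |c| * |t| * (stD C0 C s * (1 + Cx) * |t|) = |c| * stD C0 C s * (1 + Cx) * t ^ 2 := by
      rw [← sq_abs t]; ring
    rw [norm_smul, norm_mul, norm_I, one_mul, norm_real, Real.norm_eq_abs, abs_mul, mul_comm |t|, stC]
    have b5 : 0 ≤ c ^ 2 * Cx * t ^ 2 := by positivity
    have b6 : 0 ≤ |s| * (4 * c ^ 2 + 2 * |c| * (stD C0 C s * (1 + Ct))) * (1 + Cx) * t ^ 2 := by positivity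
    nlinarith

end Model
end Crest.Agent.R339
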