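import Crest.Agent.R339.D1.Word
import Crest.Agent.R339.D1.StepB

/-! # Row 339, block D1: one small step -/

set_option autoImplicit false
open MeasureTheory ProbabilityTheory Filter Topology Complex
open Crest.MathPhysics.SpinGlass

namespace Crest.Agent.R339
variable {E K : Type} [NormedAddCommGroup E] [InnerProductSpace ℂ E]
  [NormedAddCommGroup K] [InnerProductSpace ℂ K] [CompleteSpace K]
namespace Model
variable (M : Model E K)

def StGood (j0 : K →ₗᵢ[ℂ] E) (A B : E → K →L[ℂ] K) : Prop :=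
  ∃ C0 : ℝ, (∀ d, ‖A d‖ ≤ C0 ∧ ‖B d‖ ≤ C0) ∧ ∀ Ct : ℝ, 0 ≤ Ct → ∃ C : ℝ, 0 ≤ C ∧
    ∀ (t : ℝ) (V : K →L[ℂ] K), |t| ≤ 1 → M.PReach j0 V → M.Tame (V M.Ω) Ct →
      ∃ S θ m, M.StepAt j0 (A (j0 (M.psi V))) (B (j0 (M.psi V))) C0 C t V S θ m

theorem stGood_zero (j0 : K →ₗᵢ[ℂ] E) : M.StGood j0 (fun _ => 0) (fun _ => 0) := by
  refine ⟨0, fun _ => by simp, fun Ct _ => ⟨0, le_rfl, fun t V _ hV _ => ⟨1, 1, 0, one_mem _, by simpa using hV,
    fun x C' _ h => by simpa using h, by simp, norm_one, by simp, fun x Cx _ _ _ => by simp [M.WZ_zero]⟩⟩⟩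

theorem StGood.next {j0 : K →ₗᵢ[ℂ] E} {A B : E → K →L[ℂ] K} (h : M.StGood j0 A B) (s c : ℝ) :
    M.StGood j0 (fun d => A d + (c : ℂ) • M.WZ (((2 * s : ℝ) : ℂ) • d))
      (fun d => B d - ((2 * c * s : ℝ) : ℂ) • (M.Y * M.WZ (((2 * s : ℝ) : ℂ) • d))) := by
  obtain ⟨C0, hb, h⟩ := h
  have hC0 : 0 ≤ C0 := (norm_nonneg _).trans (hb 0).1
  have hsc : 0 ≤ |s| * |c| := by positivity
  refine ⟨C0 + 14 * |s| * |c| + 5 * |c|, fun d => ⟨?_, ?_⟩, fun Ct hCt => ?_⟩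
  · refine (norm_add_le _ _).trans ?_
    rw [norm_smul, norm_real, Real.norm_eq_abs]
    have h1 := mul_le_mul_of_nonneg_left (unit_opnorm (M.WZ_mem (((2 * s : ℝ) : ℂ) • d))) (abs_nonneg c)
    linarith [(hb d).1, abs_nonneg c]
  · refine (norm_sub_le _ _).trans ?_
    rw [norm_smul, norm_real, Real.norm_eq_abs, abs_mul, abs_mul, abs_two]
    have h1 := mul_le_mul_of_nonneg_left (unit_opnorm (mul_mem M.Y_mem (M.WZ_mem (((2 * s : ℝ) : ℂ) • d))))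
      (by positivity : 0 ≤ 2 * |c| * |s|)
    linarith [(hb d).2, abs_nonneg c]
  · obtain ⟨C, hC, h⟩ := h Ct hCt
    refine ⟨stC C0 C s c Ct, stC_nonneg hC0 hC s c hCt, fun t V ht hV hξ => ?_⟩
    obtain ⟨S, θ, m, hS⟩ := h t V ht hV hξ
    exact hS.next (hV.mem M) (hb _).1 (hb _).2 hC ht hCt hξ s c

theorem stGood_list (j0 : K →ₗᵢ[ℂ] E) (ω : ℝ) (L : List (ℝ × ℕ)) :
    M.StGood j0 (fun d => M.cosP ω L d) (fun d => M.X * M.dP ω L d) := by
  induction L with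
  | nil => simpa [cosP, dP] using M.stGood_zero j0
  | cons a L ih =>
    have h := (ih.next M (a.2 * ω / 2) (a.1 / 2)).next M (-(a.2 * ω / 2)) (a.1 / 2)
    have e1 : ∀ d : E, ((2 * (a.2 * ω / 2) : ℝ) : ℂ) • d = ((a.2 * ω : ℝ) : ℂ) • d := fun d => by
      congr 2; ring
    have e2 : ∀ d : E, ((2 * -(a.2 * ω / 2) : ℝ) : ℂ) • d = -(((a.2 * ω : ℝ) : ℂ) • d) := fun d => by
      rw [← neg_smul, ← ofReal_neg]; congr 2; ring
    simp only [e1, e2] at h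
    convert h using 2 with d d
    · simp only [cosP, List.map_cons, List.sum_cons, M.WZ_eq, M.cosW_neg, M.sinW_neg, mul_neg]
      push_cast
      module
    · simp only [dP, List.map_cons, List.sum_cons, M.WZ_eq, M.cosW_neg, M.sinW_neg, mul_neg, mul_add, mul_sub,
        mul_smul_comm, ← mul_assoc, M.Y_Z_eq, smul_mul_assoc, smul_neg, smul_smul, I_mul_I]
      push_cast
      module

/-- For every term `(c,k)` of `L` and both signs `s = ± kω/2`: `cost s, rot (t c/2), cost (-s)`, i.e.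
`WZ (-s d₂) RX θ WZ (s d₁) = phase • WZ (s (d₁ - d₂)) * (cos θ - i sin θ X WZ (2 s d₁))`,
`d₂ - d₁ = j0 V*((cos 2θ - 1) Z + sin 2θ Y WZ (2 s d₁)) V Ω` (`psi_RX`, `Y_WZ`), `‖d₂ - d₁‖ ≤ 2|θ|`.
Induction on the list of sub-steps with the invariant: `S x ≈ θ WZ m (x - i t X (partial sum) x)`,
`m ≈ t j0 V* X (partial dP) V Ω` up to `C t²` (`Tame.WZ_lip`, `WZ f + WZ (-f) = 2 cosW f`,
`WZ f - WZ (-f) = -2i Z sinW f`, `Y Z = i X`); tameness: `[W f, X WZ g] = X WZ g W f (RZ _ - 1)`. -/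
theorem step (j0 : K →ₗᵢ[ℂ] E) : M.S_STEP j0 := by
  intro ω L
  obtain ⟨C0, hb, h⟩ := M.stGood_list j0 ω L
  refine ⟨C0, (norm_nonneg _).trans (hb 0).1, fun Ct => ?_⟩
  obtain ⟨C, hC, h⟩ := h |Ct| (abs_nonneg _)
  refine ⟨C * (1 + |Ct|), by positivity, fun t V ht hV hξ => ?_⟩
  obtain ⟨S, θ, m, hS⟩ := h t V ht hV (hξ.mono M (le_abs_self _))
  refine ⟨S, hS.mem, hS.reach, hS.tame, θ, m, hS.th, ?_, fun x hx hx' => hS.app x _ (abs_nonneg _) hx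
    (hx'.mono M (le_abs_self _))⟩
  have h1 := norm_le_norm_add_norm_sub' m ((t : ℂ) • j0 (star V ((M.X * M.dP ω L (j0 (M.psi V))) (V M.Ω))))
  rw [norm_smul, norm_real, Real.norm_eq_abs, j0.norm_map, unit_norm (Unitary.star_mem (hV.mem M)),
    ContinuousLinearMap.mul_apply, st_norm_X] at h1
  have h2 := hS.mm
  rw [ContinuousLinearMap.mul_apply] at h2
  have h3 : 0 ≤ C * |Ct| * t ^ 2 := by positivity
  nlinarith

end Model
end Crest.Agent.R339
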