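import Crest.Agent.R339.D1.GL
import Crest.Agent.R339.D1.Sel
import Crest.Agent.R339.D1.Spec
import Crest.Agent.R339.D1.Step
import Crest.Agent.R339.D1.Flow
import Crest.Agent.R339.D1.Spike
import Crest.Agent.R339.D1.SimC
import Crest.Agent.R339.D1.SimR
import Crest.Agent.R339.D1.SimZ

/-! # Row 339, block D1: assembly -/

set_option autoImplicit false
open MeasureTheory ProbabilityTheory Filter Topology Complex
open Crest.MathPhysics.SpinGlass

namespace Crest.Agent.R339
variable {E K : Type} [NormedAddCommGroup E] [InnerProductSpace ℂ E]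
  [NormedAddCommGroup K] [InnerProductSpace ℂ K] [CompleteSpace K]
namespace Model
variable (M : Model E K)

theorem _root_.Crest.Agent.R339.d1 (j0 : K →ₗᵢ[ℂ] E)
    (j : Lp K 2 (gaussianReal 0 1) →ₗᵢ[ℂ] E) : S_D1 M j0 j := by
  obtain ⟨Sp⟩ := M.exists_spike j0
  have hgl := M.gl
  have hfl := M.flow j0 sel M.spec (M.step j0)
  have key : ∀ V, M.LGood j V → M.Sim j Sp V := by
    intro V hV
    induction hV with
    | one => exact M.sim_one j Sp
    | cost V γ _ ih => exact M.sim_cost j Sp hgl ih γ
    | rot V θ _ hc ih => exact M.sim_rot j Sp hgl hfl ih θ hc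
    | zph V γ hV ih => exact M.sim_zph j Sp hgl hfl ih γ (LGood.half_le M hV)
  intro V hV θ ε hε
  exact M.sim_fin j Sp hgl (key V hV) θ ε hε

end Model
end Crest.Agent.R339
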