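import Crest.Agent.R339.D1.Defs

/-! # Row 339, block D1: one sub-step `cost s, rot θ, cost (-s)` (helper file for `Step`) -/

set_option autoImplicit false
set_option linter.unusedVariables false
open MeasureTheory ProbabilityTheory Filter Topology Complex
open Crest.MathPhysics.SpinGlass

namespace Crest.Agent.R339
variable {E K : Type} [NormedAddCommGroup E] [InnerProductSpace ℂ E]
  [NormedAddCommGroup K] [InnerProductSpace ℂ K] [CompleteSpace K]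

theorem st_cos (a : ℝ) : |Real.cos a - 1| ≤ a ^ 2 / 2 := by
  rw [abs_le]
  constructor
  · linarith [Real.one_sub_sq_div_two_le_cos (x := a)]
  · nlinarith [Real.cos_le_one a, sq_nonneg a]

theorem st_sin (a : ℝ) : |Real.sin a - a| ≤ a ^ 2 / 2 :=
  abs_le_of_sq_le_sq' (Model.a2_sin a) (by positivity) |> fun h => abs_le.2 h

theorem st_cos' (a : ℝ) : |Real.cos a - 1| ≤ |a| := by
  simpa using Real.abs_cos_sub_cos_le a 0

namespace Model
variable (M : Model E K)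

theorem st_conj {T : K →L[ℂ] K} (h : ∀ f, T * M.WZ f = M.WZ (-f) * T) (f : E) :
    star (M.WZ f) * T * M.WZ f = T * M.WZ (f + f) := by
  rw [M.WZ_star, ← h, mul_assoc, M.WZ_mul]
  simp [inner_self_eq_norm_sq_to_K, ← Complex.ofReal_pow]

/-- the conjugated mixer -/
noncomputable def stR (θ : ℝ) (f : E) : K →L[ℂ] K := star (M.WZ f) * M.RX θ * M.WZ f

theorem stR_mem (θ : ℝ) (f : E) : M.stR θ f ∈ unitary (K →L[ℂ] K) :=
  mul_mem (mul_mem (Unitary.star_mem (M.WZ_mem f)) (M.RX_mem θ)) (M.WZ_mem f)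

theorem stR_apply (θ : ℝ) (f : E) (x : K) : M.stR θ f x =
    ((Real.cos θ : ℝ) : ℂ) • x - (I * ((Real.sin θ : ℝ) : ℂ)) • M.X (M.WZ (f + f) x) := by
  have h : M.stR θ f = ((Real.cos θ : ℝ) : ℂ) • (1 : K →L[ℂ] K) -
      (I * ((Real.sin θ : ℝ) : ℂ)) • (M.X * M.WZ (f + f)) := by
    rw [stR, Model.RX, mul_sub, sub_mul, mul_smul_comm, smul_mul_assoc, mul_smul_comm, smul_mul_assoc, mul_one,
      (M.WZ_mem f).1, M.st_conj M.X_WZ]
  rw [h]
  rfl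

theorem st_norm_X (x : K) : ‖M.X x‖ = ‖x‖ := unit_norm M.X_mem x
theorem st_norm_Y (x : K) : ‖M.Y x‖ = ‖x‖ := unit_norm M.Y_mem x
theorem st_norm_WZ (f : E) (x : K) : ‖M.WZ f x‖ = ‖x‖ := unit_norm (M.WZ_mem f) x

theorem stR_taylor (θ : ℝ) (f : E) {x : K} (hx : ‖x‖ ≤ 1) :
    ‖M.stR θ f x - (x - (I * (θ : ℂ)) • M.X (M.WZ (f + f) x))‖ ≤ θ ^ 2 := by
  have e : M.stR θ f x - (x - (I * (θ : ℂ)) • M.X (M.WZ (f + f) x)) =
      ((Real.cos θ - 1 : ℝ) : ℂ) • x - (I * ((Real.sin θ - θ : ℝ) : ℂ)) • M.X (M.WZ (f + f) x) := by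
    rw [stR_apply]; push_cast; module
  rw [e]
  refine (norm_sub_le _ _).trans ?_
  rw [norm_smul, norm_smul, norm_mul, norm_I, one_mul, norm_real, norm_real, st_norm_X, st_norm_WZ, Real.norm_eq_abs,
    Real.norm_eq_abs]
  have h1 := st_cos θ
  have h2 := st_sin θ
  have h3 := mul_le_mul h1 hx (norm_nonneg _) (by positivity)
  have h4 := mul_le_mul h2 hx (norm_nonneg _) (by positivity)
  linarith

theorem stR_tame (θ : ℝ) (f : E) {x : K} {C : ℝ} (hx : ‖x‖ ≤ 1) (h : M.Tame x C) :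
    M.Tame (M.stR θ f x) (C + 4 * ‖f‖ * |θ|) := by
  intro g
  have h1 : M.W g (M.X (M.WZ (f + f) x)) =
      M.X (M.WZ (f + f) (M.W g (M.RZ (2 * (inner ℂ g (f + f)).im) x))) := by
    have a1 := congrArg (fun T : K →L[ℂ] K => T (M.WZ (f + f) x)) (M.X_W g).eq
    have a2 := congrArg (fun T : K →L[ℂ] K => T x) (M.W_WZ g (f + f))
    simp only [ContinuousLinearMap.mul_apply] at a1 a2
    rw [← a1, a2]
  have e : M.W g (M.stR θ f x) - M.stR θ f x = M.stR θ f (M.W g x - x) -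
      (I * ((Real.sin θ : ℝ) : ℂ)) • M.X (M.WZ (f + f) (M.W g ((M.RZ (2 * (inner ℂ g (f + f)).im) - 1) x))) := by
    rw [map_sub (M.stR θ f), stR_apply, stR_apply, map_sub, map_smul, map_smul, h1, ContinuousLinearMap.sub_apply,
      ContinuousLinearMap.one_apply, map_sub, map_sub, map_sub]
    module
  rw [e]
  refine (norm_sub_le _ _).trans ?_
  rw [unit_norm (M.stR_mem θ f), norm_smul, norm_mul, norm_I, one_mul, norm_real, st_norm_X, st_norm_WZ,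
    unit_norm (M.W_mem g), Real.norm_eq_abs]
  have h2 : ‖(M.RZ (2 * (inner ℂ g (f + f)).im) - 1) x‖ ≤ 4 * ‖f‖ * ‖g‖ := by
    refine ((M.RZ _ - 1).le_opNorm x).trans ?_
    have b1 := M.norm_RZ_sub_one (2 * (inner ℂ g (f + f)).im)
    have b2 := a6_im g (f + f)
    have b3 := norm_add_le f f
    rw [abs_mul, abs_two] at b1
    have b4 := mul_le_mul_of_nonneg_left b3 (norm_nonneg g)
    have b5 := mul_le_mul b1 hx (norm_nonneg _) (by positivity)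
    nlinarith
  have h3 := mul_le_mul (Real.abs_sin_le_abs (x := θ)) h2 (norm_nonneg _) (abs_nonneg _)
  have h4 := h g
  nlinarith

/-- the new Heisenberg vector -/
theorem st_psi (θ : ℝ) (f : E) (V : K →L[ℂ] K) : M.psi (M.RX θ * (M.WZ f * V)) =
    ((Real.cos (2 * θ) : ℝ) : ℂ) • M.psi V +
      ((Real.sin (2 * θ) : ℝ) : ℂ) • star V (M.Y (M.WZ (f + f) (V M.Ω))) := by
  rw [M.psi_RX, M.psi_mul_of_commute (M.WZ_mem f) (M.Z_WZ f), star_mul]
  have := congrArg (fun T : K →L[ℂ] K => T (V M.Ω)) (M.st_conj M.Y_WZ f)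
  simp only [ContinuousLinearMap.mul_apply] at this ⊢
  rw [this]

variable (j0 : K →ₗᵢ[ℂ] E)

structure StepAt (A B : K →L[ℂ] K) (C0 C t : ℝ) (V S : K →L[ℂ] K) (θ : ℂ) (m : E) : Prop where
  mem : S ∈ unitary (K →L[ℂ] K)
  reach : M.PReach j0 (S * V)
  tame : ∀ x C', ‖x‖ ≤ 1 → M.Tame x C' → M.Tame (S x) (C' + C0 * |t|)
  dir : ‖M.psi (S * V) - M.psi V‖ ≤ C0 * |t|
  th : ‖θ‖ = 1
  mm : ‖m - (t : ℂ) • j0 (star V (B (V M.Ω)))‖ ≤ C * t ^ 2
  app : ∀ x Cx, 0 ≤ Cx → ‖x‖ ≤ 1 → M.Tame x Cx →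
    ‖S x - θ • M.WZ m (x - (I * (t : ℂ)) • M.X (A x))‖ ≤ C * (1 + Cx) * t ^ 2

variable {M j0} {A B V S : K →L[ℂ] K} {C0 C t : ℝ} {θ : ℂ} {m : E}

theorem StepAt.norm_m (h : M.StepAt j0 A B C0 C t V S θ m) (hV : V ∈ unitary (K →L[ℂ] K)) (hB : ‖B‖ ≤ C0) (hC : 0 ≤ C)
    (ht : |t| ≤ 1) : ‖m‖ ≤ (C0 + C) * |t| := by
  have h1 : ‖(t : ℂ) • j0 (star V (B (V M.Ω)))‖ ≤ |t| * C0 := by
    rw [norm_smul, norm_real, Real.norm_eq_abs, j0.norm_map, unit_norm (Unitary.star_mem hV)]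
    refine mul_le_mul_of_nonneg_left ((B.le_opNorm _).trans ?_) (abs_nonneg _)
    rw [unit_norm hV, M.norm_Ω, mul_one]; exact hB
  have h2 := norm_le_norm_add_norm_sub' m ((t : ℂ) • j0 (star V (B (V M.Ω))))
  have h3 := h.mm
  have h4 : t ^ 2 ≤ |t| := by rw [← sq_abs]; nlinarith [abs_nonneg t]
  have h5 := mul_le_mul_of_nonneg_left h4 hC
  linarith

theorem StepAt.wz (h : M.StepAt j0 A B C0 C t V S θ m) (hV : V ∈ unitary (K →L[ℂ] K)) (hB : ‖B‖ ≤ C0) (hC : 0 ≤ C)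
    (ht : |t| ≤ 1) {x : K} {Cx : ℝ} (h0 : 0 ≤ Cx) (hx : M.Tame x Cx) : ‖M.WZ m x - x‖ ≤ 2 * (C0 + C) * Cx * |t| := by
  have h1 := M.norm_WZ_sub_le m x
  have h2 := hx m
  have h3 := mul_le_mul_of_nonneg_left (h.norm_m hV hB hC ht) h0
  linarith

theorem StepAt.first (h : M.StepAt j0 A B C0 C t V S θ m) (hV : V ∈ unitary (K →L[ℂ] K)) (hA : ‖A‖ ≤ C0) (hB : ‖B‖ ≤ C0)
    (hC : 0 ≤ C) (ht : |t| ≤ 1) {x : K} {Cx : ℝ} (h0 : 0 ≤ Cx) (hn : ‖x‖ ≤ 1) (hx : M.Tame x Cx) :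
    ‖S x - θ • x‖ ≤ 3 * (C0 + C) * (1 + Cx) * |t| := by
  have hC0 : 0 ≤ C0 := (norm_nonneg _).trans hA
  have e : S x - θ • x = (S x - θ • M.WZ m (x - (I * (t : ℂ)) • M.X (A x))) +
      θ • ((M.WZ m x - x) - (I * (t : ℂ)) • M.WZ m (M.X (A x))) := by
    rw [map_sub, map_smul]; module
  have h1 := h.app x Cx h0 hn hx
  have h2 := h.wz hV hB hC ht h0 hx
  have h3 : ‖(I * (t : ℂ)) • M.WZ m (M.X (A x))‖ ≤ |t| * C0 := by
    rw [norm_smul, norm_mul, norm_I, one_mul, norm_real, Real.norm_eq_abs, st_norm_WZ, st_norm_X]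
    refine mul_le_mul_of_nonneg_left ((A.le_opNorm _).trans ?_) (abs_nonneg _)
    nlinarith [norm_nonneg A, norm_nonneg x]
  have h4 : t ^ 2 ≤ |t| := by rw [← sq_abs]; nlinarith [abs_nonneg t]
  have h5 := mul_le_mul_of_nonneg_left h4 (by positivity : 0 ≤ C * (1 + Cx))
  rw [e]
  refine (norm_add_le _ _).trans ?_
  rw [norm_smul, h.th, one_mul]
  have h6 := norm_sub_le (M.WZ m x - x) ((I * (t : ℂ)) • M.WZ m (M.X (A x)))
  have h7 : 0 ≤ |t| := abs_nonneg t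
  have h8 : 0 ≤ C0 * |t| := by positivity
  have h9 : 0 ≤ C * |t| := by positivity
  have h10 : 0 ≤ C0 * Cx * |t| := by positivity
  nlinarith

end Model
end Crest.Agent.R339
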