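import Crest.Agent.R339.D1.Defs

/-! # Row 339, block D1: words and combinations of atoms (statements frozen) -/

set_option autoImplicit false
open MeasureTheory ProbabilityTheory Filter Topology Complex
open Crest.MathPhysics.SpinGlass

namespace Crest.Agent.R339
variable {E K : Type} [NormedAddCommGroup E] [InnerProductSpace ℂ E]
  [NormedAddCommGroup K] [InnerProductSpace ℂ K] [CompleteSpace K]
namespace Model
variable (M : Model E K)

theorem wd_nil (a : ℕ → E) : M.wd a [] = 1 := by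
  rfl
theorem wd_cons (a : ℕ → E) (ι : It) (w : List It) : M.wd a (ι :: w) = M.itOp a ι * M.wd a w := by
  simp [wd]
theorem wd_append (a : ℕ → E) (w w' : List It) : M.wd a (w ++ w') = M.wd a w * M.wd a w' := by
  simp [wd]
theorem wd_mem (a : ℕ → E) (w : List It) : M.wd a w ∈ unitary (K →L[ℂ] K) := by
  induction w with
  | nil => exact one_mem _
  | cons ι w ih =>
    rw [wd_cons]
    refine mul_mem ?_ ih
    cases ι with
    | rx θ => exact M.RX_mem θ
    | z => exact M.Z_mem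
    | w i s => exact M.WZ_mem _
theorem wd_winv (a : ℕ → E) (w : List It) : M.wd a (winv w) = star (M.wd a w) := by
  induction w with
  | nil => simp [winv, wd]
  | cons ι w ih =>
    have e : winv (ι :: w) = winv w ++ [ι.inv] := by simp [winv]
    rw [e, wd_append, ih, wd_cons, wd_cons, wd_nil, mul_one, star_mul]
    congr 1
    cases ι with
    | rx θ => exact (M.RX_star θ).symm
    | z => exact M.Z_star.symm
    | w i s => simp only [It.inv, itOp, WZ_star, ofReal_neg, neg_smul]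
theorem wd_congr {a a' : ℕ → E} {n : ℕ} {w : List It} (hw : WIn n w)
    (h : ∀ i, 2 ≤ i → i < n → a i = a' i) : M.wd a w = M.wd a' w := by
  unfold wd
  congr 1
  refine List.map_congr_left fun ι hι => ?_
  cases ι with
  | rx θ => rfl
  | z => rfl
  | w i s => simp only [itOp, h i (hw i s hι).1 (hw i s hι).2]
theorem wdL_nil (b : ℕ → E) (t : ℕ → ℝ) (l : ℝ) : M.wdL b t l [] = 1 := by
  rfl
theorem wdL_cons (b : ℕ → E) (t : ℕ → ℝ) (l : ℝ) (ι : It) (w : List It) :
    M.wdL b t l (ι :: w) = M.itOpL b t l ι * M.wdL b t l w := by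
  simp [wdL]
theorem wdL_append (b : ℕ → E) (t : ℕ → ℝ) (l : ℝ) (w w' : List It) :
    M.wdL b t l (w ++ w') = M.wdL b t l w * M.wdL b t l w' := by
  simp [wdL]
theorem wdL_mem (b : ℕ → E) (t : ℕ → ℝ) (l : ℝ) (w : List It) :
    M.wdL b t l w ∈ unitary (K →L[ℂ] K) := by
  induction w with
  | nil => exact one_mem _
  | cons ι w ih =>
    rw [wdL_cons]
    refine mul_mem ?_ ih
    cases ι with
    | rx θ => exact M.RX_mem θ
    | z => exact M.Z_mem
    | w i s => exact mul_mem (M.WZ_mem _) (M.RZ_mem _)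
theorem wdL_winv (b : ℕ → E) (t : ℕ → ℝ) (l : ℝ) (w : List It) :
    M.wdL b t l (winv w) = star (M.wdL b t l w) := by
  induction w with
  | nil => simp [winv, wdL]
  | cons ι w ih =>
    have e : winv (ι :: w) = winv w ++ [ι.inv] := by simp [winv]
    rw [e, wdL_append, ih, wdL_cons, wdL_cons, wdL_nil, mul_one, star_mul]
    congr 1
    cases ι with
    | rx θ => exact (M.RX_star θ).symm
    | z => exact M.Z_star.symm
    | w i s =>
      simp only [It.inv, itOpL, star_mul, WZ_star, RZ_star, ofReal_neg, neg_smul, neg_mul]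
      exact (M.RZ_commute (M.Z_WZ _) _).eq.symm
theorem wdL_congr {b b' : ℕ → E} {t t' : ℕ → ℝ} {n : ℕ} {w : List It} (hw : WIn n w)
    (h : ∀ i, 2 ≤ i → i < n → b i = b' i ∧ t i = t' i) (l : ℝ) :
    M.wdL b t l w = M.wdL b' t' l w := by
  unfold wdL
  congr 1
  refine List.map_congr_left fun ι hι => ?_
  cases ι with
  | rx θ => rfl
  | z => rfl
  | w i s => simp only [itOpL, (h i (hw i s hι).1 (hw i s hι).2).1, (h i (hw i s hι).1 (hw i s hι).2).2]
theorem continuous_wdL (b : ℕ → E) (t : ℕ → ℝ) (w : List It) :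
    Continuous fun l => M.wdL b t l w := by
  induction w with
  | nil => exact continuous_const
  | cons ι w ih =>
    simp only [wdL_cons]
    refine Continuous.mul ?_ ih
    cases ι with
    | rx θ => exact continuous_const
    | z => exact continuous_const
    | w i s => exact continuous_const.mul (M.continuous_RZ.comp (continuous_const.mul continuous_id))
theorem memLp_psi_wdL (b : ℕ → E) (t : ℕ → ℝ) (w : List It) :
    MemLp (fun l => M.psi (M.wdL b t l w)) 2 (gaussianReal 0 1) := by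
  have hc := M.continuous_wdL b t w
  have hm : Continuous fun l => M.psi (M.wdL b t l w) :=
    hc.star.clm_apply (M.Z.continuous.comp (hc.clm_apply continuous_const))
  exact MemLp.of_bound hm.aestronglyMeasurable 1
    (Eventually.of_forall fun l => (M.norm_psi (M.wdL_mem b t l w)).le)
theorem norm_idir (j : Lp K 2 (gaussianReal 0 1) →ₗᵢ[ℂ] E) (D : SimData E) (w' : List It) :
    ‖M.idir j D w'‖ = 1 := by
  have h := JJ_norm_sq j (M.memLp_psi_wdL D.b D.t w')
  simp only [M.norm_psi (M.wdL_mem _ _ _ _), one_pow, integral_const, probReal_univ, smul_eq_mul, mul_one] at h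
  exact (pow_eq_one_iff_of_nonneg (norm_nonneg _) two_ne_zero).1 h
theorem _root_.Crest.Agent.R339.WIn.mono {n n' : ℕ} {w : List It} (h : WIn n w) (hn : n ≤ n') :
    WIn n' w := by
  exact fun i s hi => ⟨(h i s hi).1, (h i s hi).2.trans_le hn⟩
theorem wd_WY (a : ℕ → E) (i : ℕ) (s : ℝ) :
    M.wd a [.rx (-(Real.pi / 4)), .w i s, .rx (Real.pi / 4)] = M.WY (((s : ℝ) : ℂ) • a i) := by
  simp [wd, itOp, WY, mul_assoc]
theorem atoms_nil : M.atoms [] = 0 := by
  simp [atoms]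
theorem atoms_cons (t : ℂ × Bool × E) (L : List (ℂ × Bool × E)) :
    M.atoms (t :: L) = t.1 • M.atom t.2.1 t.2.2 + M.atoms L := by
  simp [atoms]
theorem atoms_append (L L' : List (ℂ × Bool × E)) :
    M.atoms (L ++ L') = M.atoms L + M.atoms L' := by
  simp [atoms]
/-- closeness of two operators on the atoms of a list. -/
theorem atoms_close (L : List (ℂ × Bool × E)) (A B : K →L[ℂ] K) {c e : ℝ} (he : 0 ≤ e)
    (h : ∀ t ∈ L, ‖t.1‖ ≤ c ∧ ‖A (M.atom t.2.1 t.2.2) - B (M.atom t.2.1 t.2.2)‖ ≤ e) :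
    ‖A (M.atoms L) - B (M.atoms L)‖ ≤ L.length * (c * e) := by
  induction L with
  | nil => simp [M.atoms_nil]
  | cons t L ih =>
    have h1 := h t (List.mem_cons_self ..)
    have h2 := ih fun s hs => h s (List.mem_cons_of_mem _ hs)
    have h3 : A (M.atoms (t :: L)) - B (M.atoms (t :: L)) =
        t.1 • (A (M.atom t.2.1 t.2.2) - B (M.atom t.2.1 t.2.2)) + (A (M.atoms L) - B (M.atoms L)) := by
      rw [M.atoms_cons, map_add, map_add, map_smul, map_smul, smul_sub]; abel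
    rw [h3]
    refine (norm_add_le _ _).trans ?_
    rw [norm_smul, List.length_cons]
    have h4 : ‖t.1‖ * ‖A (M.atom t.2.1 t.2.2) - B (M.atom t.2.1 t.2.2)‖ ≤ c * e :=
      mul_le_mul h1.1 h1.2 (norm_nonneg _) ((norm_nonneg _).trans h1.1)
    push_cast
    linarith
theorem Comb.mono {n n' : ℕ} {R R' : ℝ} {v : K} (h : M.Comb n R v) (hn : n ≤ n') (hR : R ≤ R') :
    M.Comb n' R' v := by
  obtain ⟨L, h1, h2, h3⟩ := h
  exact ⟨L, h1.trans hn, fun t ht => ⟨(h2 t ht).1, (h2 t ht).2.trans hR⟩, h3⟩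
theorem Comb.norm_le {n : ℕ} {R : ℝ} {v : K} (h : M.Comb n R v) : ‖v‖ ≤ n := by
  obtain ⟨L, h1, h2, rfl⟩ := h
  have h3 := M.atoms_close L 1 0 (c := 1) (e := 1) zero_le_one fun t ht =>
    ⟨(h2 t ht).1, by simpa using M.norm_atom _ _⟩
  simp only [ContinuousLinearMap.one_apply, ContinuousLinearMap.zero_apply, sub_zero, mul_one] at h3
  exact h3.trans (by exact_mod_cast h1)
/-- an operator that maps every atom to a multiple of an atom. -/
theorem w2_map {n : ℕ} {R R' : ℝ} {v : K} (h : M.Comb n R v) (A : K →L[ℂ] K)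
    (φ : ℂ × Bool × E → ℂ × Bool × E) (hφ : ∀ t, ‖t.2.2‖ ≤ R → ‖(φ t).1‖ ≤ 1 ∧ ‖(φ t).2.2‖ ≤ R')
    (hA : ∀ t, A (M.atom t.2.1 t.2.2) = (φ t).1 • M.atom (φ t).2.1 (φ t).2.2) : M.Comb n R' (A v) := by
  obtain ⟨L, h1, h2, rfl⟩ := h
  refine ⟨L.map fun t => (t.1 * (φ t).1, (φ t).2.1, (φ t).2.2), by simpa using h1, ?_, ?_⟩
  · intro s hs
    obtain ⟨t, ht, rfl⟩ := List.mem_map.mp hs
    refine ⟨?_, (hφ t (h2 t ht).2).2⟩
    rw [norm_mul]
    exact mul_le_one₀ (h2 t ht).1 (norm_nonneg _) (hφ t (h2 t ht).2).1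
  · clear h1 h2
    induction L with
    | nil => simp [M.atoms_nil]
    | cons t L ih => rw [List.map_cons, M.atoms_cons, M.atoms_cons, map_add, map_smul, hA, ih, smul_smul]
theorem w2_sign (b : Bool) : ‖((spinSign b : ℝ) : ℂ)‖ = 1 := by
  cases b <;> simp [spinSign]

theorem Comb.smul {n : ℕ} {R : ℝ} {v : K} (h : M.Comb n R v) {c : ℂ} (hc : ‖c‖ ≤ 1) :
    M.Comb n R (c • v) := by
  refine w2_map M h (c • (1 : K →L[ℂ] K)) (fun t => (c, t.2.1, t.2.2)) (fun t ht => ⟨hc, ht⟩) fun t => ?_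
  simp
theorem Comb.add {n n' : ℕ} {R : ℝ} {v v' : K} (h : M.Comb n R v) (h' : M.Comb n' R v') :
    M.Comb (n + n') R (v + v') := by
  obtain ⟨L, h1, h2, rfl⟩ := h
  obtain ⟨L', h1', h2', rfl⟩ := h'
  refine ⟨L ++ L', by rw [List.length_append]; omega, fun t ht => ?_, (M.atoms_append L L').symm⟩
  rcases List.mem_append.mp ht with h | h
  · exact h2 t h
  · exact h2' t h
theorem comb_atom (b : Bool) {α : E} {R : ℝ} (h : ‖α‖ ≤ R) : M.Comb 1 R (M.atom b α) := by
  refine ⟨[(1, b, α)], le_rfl, fun t ht => ?_, by simp [atoms]⟩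
  rw [List.mem_singleton.mp ht]
  exact ⟨by simp, h⟩
theorem comb_Ω : M.Comb 2 0 M.Ω := by
  have h := Comb.add M (M.comb_atom false (α := 0) (R := 0) (by simp)) (M.comb_atom true (α := 0) (R := 0) (by simp))
  rw [M.atom_add, M.W_zero] at h
  exact h
theorem Comb.Z {n : ℕ} {R : ℝ} {v : K} (h : M.Comb n R v) : M.Comb n R (M.Z v) := by
  exact w2_map M h M.Z (fun t => (((spinSign t.2.1 : ℝ) : ℂ), t.2.1, t.2.2))
    (fun t ht => ⟨(w2_sign _).le, ht⟩) fun t => M.Z_atom _ _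
theorem Comb.X {n : ℕ} {R : ℝ} {v : K} (h : M.Comb n R v) : M.Comb n R (M.X v) := by
  exact w2_map M h M.X (fun t => (1, !t.2.1, t.2.2)) (fun t ht => ⟨by simp, ht⟩) fun t => by
    rw [M.X_atom, one_smul]
theorem Comb.RX {n : ℕ} {R : ℝ} {v : K} (h : M.Comb n R v) (θ : ℝ) :
    M.Comb (2 * n) R (M.RX θ v) := by
  have h1 := Comb.smul M h (c := ((Real.cos θ : ℝ) : ℂ)) (by
    rw [Complex.norm_real, Real.norm_eq_abs]; exact Real.abs_cos_le_one θ)
  have h2 := Comb.smul M (Comb.X M h) (c := -(I * ((Real.sin θ : ℝ) : ℂ))) (by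
    rw [norm_neg, norm_mul, Complex.norm_I, one_mul, Complex.norm_real, Real.norm_eq_abs]
    exact Real.abs_sin_le_one θ)
  have h3 := Comb.add M h1 h2
  rw [two_mul]
  convert h3 using 1
  simp only [Model.RX, ContinuousLinearMap.sub_apply, ContinuousLinearMap.smul_apply,
    ContinuousLinearMap.one_apply, neg_smul, sub_eq_add_neg, ContinuousLinearMap.add_apply,
    ContinuousLinearMap.neg_apply]
theorem Comb.WZ {n : ℕ} {R : ℝ} {v : K} (h : M.Comb n R v) (g : E) :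
    M.Comb n (R + ‖g‖) (M.WZ g v) := by
  refine w2_map M h (M.WZ g) (fun t => (cexp (-(I * ((spinSign t.2.1 * (inner ℂ g t.2.2).im : ℝ) : ℂ))), t.2.1,
    t.2.2 + ((spinSign t.2.1 : ℝ) : ℂ) • g)) (fun t ht => ⟨?_, ?_⟩) fun t => M.WZ_atom _ _ _
  · rw [Complex.norm_exp]
    simp
  · refine (norm_add_le _ _).trans ?_
    rw [norm_smul, w2_sign, one_mul]
    linarith
theorem Comb.WY {n : ℕ} {R : ℝ} {v : K} (h : M.Comb n R v) (g : E) :
    M.Comb (4 * n) (R + ‖g‖) (M.WY g v) := by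
  have h1 := Comb.RX M (Comb.WZ M (Comb.RX M h (Real.pi / 4)) g) (-(Real.pi / 4))
  have h2 : 4 * n = 2 * (2 * n) := by ring
  rw [h2]
  exact h1
theorem Comb.close {n : ℕ} {R : ℝ} {v : K} (h : M.Comb n R v) (A B : K →L[ℂ] K) {e : ℝ}
    (he : 0 ≤ e) (hAB : ∀ b α, ‖α‖ ≤ R → ‖A (M.atom b α) - B (M.atom b α)‖ ≤ e) :
    ‖A v - B v‖ ≤ n * e := by
  obtain ⟨L, h1, h2, rfl⟩ := h
  have h3 := M.atoms_close L A B (c := 1) he fun t ht => ⟨(h2 t ht).1, hAB _ _ (h2 t ht).2⟩
  rw [one_mul] at h3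
  exact h3.trans (mul_le_mul_of_nonneg_right (by exact_mod_cast h1) he)
theorem Comb.tame {n : ℕ} {R : ℝ} {v : K} (h : M.Comb n R v) (hR : 0 ≤ R) :
    M.Tame v (n * (1 + 2 * R)) := by
  intro f
  have h1 := Comb.close M h (M.W f) 1 (e := (1 + 2 * R) * ‖f‖) (by positivity) fun b α hα =>
    (M.tame_atom b α f).trans (mul_le_mul_of_nonneg_right (by linarith) (norm_nonneg _))
  rw [mul_assoc]
  exact h1
theorem wd_comb (w : List It) (n : ℕ) (R : ℝ) : ∃ (n' : ℕ) (R' : ℝ), R ≤ R' ∧ ∀ (a : ℕ → E),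
    (∀ i, ‖a i‖ ≤ 2) → ∀ v, M.Comb n R v → M.Comb n' R' (M.wd a w v) := by
  induction w with
  | nil => exact ⟨n, R, le_rfl, fun a _ v hv => by rw [M.wd_nil]; exact hv⟩
  | cons ι w ih =>
    obtain ⟨n', R', hR, h⟩ := ih
    cases ι with
    | rx θ =>
      exact ⟨2 * n', R', hR, fun a ha v hv => by
        rw [M.wd_cons]; exact Comb.RX M (h a ha v hv) θ⟩
    | z => exact ⟨n', R', hR, fun a ha v hv => by rw [M.wd_cons]; exact Comb.Z M (h a ha v hv)⟩
    | w i s =>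
      refine ⟨n', R' + |s| * 2, by have := abs_nonneg s; linarith, fun a ha v hv => ?_⟩
      rw [M.wd_cons]
      refine Comb.mono M (Comb.WZ M (h a ha v hv) (((s : ℝ) : ℂ) • a i)) le_rfl ?_
      rw [norm_smul, Complex.norm_real, Real.norm_eq_abs]
      have := mul_le_mul_of_nonneg_left (ha i) (abs_nonneg s)
      linarith
theorem _root_.Crest.Agent.R339.GG_facts : (∀ β, 0 < β → β ≤ 1 → 1 ≤ GG β ∧ β * GG β ≤ 1) ∧
    Tendsto GG (𝓝[>] 0) atTop ∧ Tendsto (fun β => β * GG β) (𝓝[>] 0) (𝓝 0) ∧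
    ∀ c > (0 : ℝ), ∃ β0 > (0 : ℝ), ∀ β, 0 < β → β ≤ β0 → Real.exp (-(c * GG β ^ 2)) ≤ β ^ 3 := by
  have e1 : ∀ β : ℝ, 0 < β → β * GG β = β ^ (3 / 4 : ℝ) := fun β hβ => by
    unfold GG
    rw [show (3 / 4 : ℝ) = 1 + -(1 / 4) by norm_num, Real.rpow_add hβ, Real.rpow_one]
  have hG : Tendsto GG (𝓝[>] 0) atTop := tendsto_rpow_neg_nhdsGT_zero (by norm_num)
  refine ⟨fun β h0 h1 => ⟨Real.one_le_rpow_of_pos_of_le_one_of_nonpos h0 h1 (by norm_num), ?_⟩, hG, ?_, ?_⟩
  · rw [e1 β h0]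
    exact Real.rpow_le_one h0.le h1 (by norm_num)
  · have h : Tendsto (fun β : ℝ => β ^ (3 / 4 : ℝ)) (𝓝[>] 0) (𝓝 0) := by
      have := (Real.continuousAt_rpow_const 0 (3 / 4) (Or.inr (by norm_num))).tendsto
      rw [Real.zero_rpow (by norm_num)] at this
      exact this.mono_left nhdsWithin_le_nhds
    exact h.congr' (eventually_nhdsWithin_of_forall fun β hβ => (e1 β hβ).symm)
  · intro c hc
    have h1 : Tendsto (fun β => c * GG β ^ 2) (𝓝[>] 0) atTop :=
      ((tendsto_pow_atTop two_ne_zero).comp hG).const_mul_atTop hc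
    have h2 := ((Real.tendsto_pow_mul_exp_neg_atTop_nhds_zero 6).comp h1).eventually
      (gt_mem_nhds (show (0 : ℝ) < c ^ 6 by positivity))
    obtain ⟨β0, hβ0, h3⟩ := (nhdsGT_basis_Ioc (0 : ℝ)).eventually_iff.1 h2
    refine ⟨β0, hβ0, fun β h0 h4 => ?_⟩
    have h5 : (c * GG β ^ 2) ^ 6 * Real.exp (-(c * GG β ^ 2)) < c ^ 6 := h3 ⟨h0, h4⟩
    have e2 : GG β ^ 12 * β ^ 3 = 1 := by
      unfold GG
      rw [← Real.rpow_natCast, ← Real.rpow_mul h0.le, ← Real.rpow_natCast β 3, ← Real.rpow_add h0]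
      norm_num
    have e3 : (c * GG β ^ 2) ^ 6 = c ^ 6 * GG β ^ 12 := by ring
    rw [e3, mul_assoc] at h5
    have h6 : GG β ^ 12 * Real.exp (-(c * GG β ^ 2)) < 1 := by
      have := lt_of_mul_lt_mul_left (h5.trans_eq (mul_one _).symm) (by positivity)
      exact this
    calc Real.exp (-(c * GG β ^ 2)) = (GG β ^ 12 * Real.exp (-(c * GG β ^ 2))) * β ^ 3 := by
          rw [mul_right_comm, e2, one_mul]
      _ ≤ 1 * β ^ 3 := mul_le_mul_of_nonneg_right h6.le (by positivity)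
      _ = β ^ 3 := one_mul _

end Model
end Crest.Agent.R339
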